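import Vale.Agent.P032.R2.H659.Corner
import Vale.Agent.P032.S5.H767.Exc

/-!
# P032: contacts of two-pair points, types S4 and S4r

* `Irr.contact_near`, `Irr.contact_far`: a common colour of `z` and of the two-pair point `y` is near
  (far) for `y` seen from `z` iff it is near (far) for `z` seen from `y`.
* `branch_arc`: a branch with constant palette consists of exact arcs.
* `Irr.s4r_kind_dpt`, `Irr.s4r_kind_harm`: `y` with colours `b` far, `c` near: the exact arcs of `y`
  inside `T y` are `{b, c}`.
* `Irr.s4_word`: `z = {a, b | c, d}`, `y = {a, e | b, f}`: one branch of `S(z)` at `y` is exactly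
  `{a, b}`, the palettes of the other one are inside `{e, f}`.
* `s4_flank`: the palettes with at most three colours of the common neighbours.
-/

open Set Filter Topology Metric

noncomputable section

namespace Vale.Agent.P032.Six

open Vale.Agent.P032.S5.H767

variable {k : ℕ} {U : Fin k → Set ℂ} {T : ℂ → Set (Fin k)}

/-- a near common colour is near for both -/
theorem Irr.contact_near (h : Irr U T) {y z : ℂ} {i l m o : Fin k} (hy : DPt T y i l m o)
    (hz : dist y z = 1) (hi : i ∈ Pal U z) (hs : ∀ᶠ x in 𝓝 y, 1 < dist x z → i ∉ Pal U x) :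
    Sd U y z i l := by
  have hzy : dist z y = 1 := by rw [dist_comm]; exact hz
  rcases h.sides hy hzy with h1 | h1
  · exact h1
  · exfalso
    have h2 := h.mx.far_polar hzy hi (h1.mono fun _ hx => hx.2)
    obtain ⟨u, hu, hui, -⟩ := h.exists_ray_off hy hzy
    have h3 : ip u (z - y) < 0 := lt_of_le_of_ne (h2 _ hui) hu
    obtain ⟨r, h4, h5, h6⟩ := ((show ∀ᶠ r : ℝ in 𝓝[>] 0, y + r * u ∈ U i from hui).and
      ((ray_out hz h3).and ((tendsto_ray y u).eventually hs))).exists
    exact h6 h5 (subset_closure h4)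

/-- a far common colour is far for both -/
theorem Irr.contact_far (h : Irr U T) {y z : ℂ} {i l m o : Fin k} (hy : DPt T y i l m o)
    (hz : dist y z = 1) (hi : i ∈ Pal U z) (hs : ∀ᶠ x in 𝓝 y, dist x z < 1 → i ∉ Pal U x) :
    Sd U y z l i := by
  have hzy : dist z y = 1 := by rw [dist_comm]; exact hz
  rcases h.sides hy hzy with h1 | h1
  · exfalso
    have h2 := h.mx.near_polar hzy hi (h1.mono fun _ hx => hx.1)
    obtain ⟨u, hu, hui, -⟩ := h.exists_ray_off hy hzy
    have h3 : 0 < ip u (z - y) := lt_of_le_of_ne (h2 _ hui) (Ne.symm hu)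
    obtain ⟨r, h4, h5, h6⟩ := ((show ∀ᶠ r : ℝ in 𝓝[>] 0, y + r * u ∈ U i from hui).and
      ((ray_in hz h3).and ((tendsto_ray y u).eventually hs))).exists
    exact h6 h5 (subset_closure h4)
  · exact h1

/-- a branch with constant palette consists of exact arcs -/
theorem branch_arc {z n : ℂ} {τ : ℝ} (hτ : τ = 1 ∨ τ = -1) (hn : dist z n = 1) {P : Set (Fin k)}
    (hb : ∀ᶠ t : ℝ in 𝓝[>] 0, T (n + (z - n) * cis (τ * t)) = P) :
    ∀ᶠ t : ℝ in 𝓝[>] 0, Arc T n (n + (z - n) * cis (τ * t)) P := by
  obtain ⟨δ, hδ, hd⟩ := exists_pos_of_ev hb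
  filter_upwards [Ioo_mem_nhdsGT hδ] with t ht
  have hη : 0 < min t (δ - t) := lt_min ht.1 (by linarith [ht.2])
  have hq : dist (n + (z - n) * cis (τ * t)) n = 1 := dist_arc hn _
  refine ⟨hq, ?_⟩
  filter_upwards [mem_nhdsWithin_of_mem_nhds (near_circle hq hη), self_mem_nhdsWithin]
    with x h1 h2
  obtain ⟨s, hs, rfl⟩ := h1 h2
  have e : n + (n + (z - n) * cis (τ * t) - n) * cis s =
      n + (z - n) * cis (τ * (t + τ * s)) := by
    have hτ2 : τ * τ = 1 := by rcases hτ with rfl | rfl <;> norm_num
    have e2 : τ * (t + τ * s) = τ * t + s := by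
      rw [mul_add, ← mul_assoc, hτ2, one_mul]
    rw [e2]
    have e3 : cis (τ * t + s) = cis (τ * t) * cis s := by
      unfold cis
      rw [← Complex.exp_add]
      congr 1
      push_cast
      ring
    rw [e3]; ring
  rw [e]
  have h3 : |τ * s| = |s| := by rcases hτ with rfl | rfl <;> simp
  have h4 := abs_lt.1 (show |τ * s| < min t (δ - t) by rw [h3]; exact hs)
  refine hd _ ?_ ?_
  · linarith [h4.1, min_le_left t (δ - t)]
  · linarith [h4.2, min_le_right t (δ - t)]

/-- locked corner, exact arcs of `S(n)` accumulate at `z` -/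
theorem Irr.locked_acc (h : Irr U T) {z n : ℂ} {a b c d : Fin k} (hz : DPt T z a b c d)
    (hn : dist n z = 1) (s1 : Sd U z n c d) (s2 : Sd U z n a b) (hc : c ∈ Pal U n)
    (hb : b ∈ Pal U n) : ∃ᶠ q in 𝓝 z, Arc T n q {b, c} := by
  have hzn : dist z n = 1 := by rw [dist_comm]; exact hn
  obtain ⟨τ, hτ, h1, -⟩ := h.locked hz hn s1 s2 hc hb
  exact (tendsto_arc n z τ).frequently (branch_arc hτ hzn h1).frequently

/-! ## the words -/

/-- **S4, word**: `z = {a, b | c, d}`, `y = {a, e | b, f}` on `S(z)`: one branch of `S(z)` at `y` is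
exactly `{a, b}`, on the other one the palettes are inside `{e, f}` -/
theorem Irr.s4_word (h : Irr U T) {z y : ℂ} {a b c d e f : Fin k} (hz : DPt T z a b c d)
    (hy : DPt T y a e b f) (hyz : dist y z = 1) : ∃ τ : ℝ, (τ = 1 ∨ τ = -1) ∧
      (∀ᶠ t : ℝ in 𝓝[>] 0, T (z + (y - z) * cis (τ * t)) = {a, b}) ∧
      ∀ᶠ t : ℝ in 𝓝[>] 0, a ∉ Pal U (z + (y - z) * cis (-τ * t)) ∧
        b ∉ Pal U (z + (y - z) * cis (-τ * t)) ∧ T (z + (y - z) * cis (-τ * t)) ⊆ {e, f} := by
  have ha : a ∈ Pal U z := h.sub _ (by rw [hz.pal]; simp)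
  have hb : b ∈ Pal U z := h.sub _ (by rw [hz.pal]; simp)
  have hzy : dist z y = 1 := by rw [dist_comm]; exact hyz
  rcases h.sides hz hyz with hs | hs
  · have h1 := h.contact_near hy hyz ha (hs.mono fun _ hx => hx.1)
    have h2 := h.contact_far hy.swap hyz hb (hs.mono fun _ hx => hx.2)
    obtain ⟨τ, hτ, k1, k2⟩ := h.locked (a := f) (b := b) (c := a) (d := e) hy.swap.swap12 hzy h1 h2
      ha hb
    refine ⟨τ, hτ, ?_, ?_⟩
    · filter_upwards [k1] with t ht
      rw [ht, pair_comm]
    · filter_upwards [k2] with t ht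
      exact ⟨ht.2.1, ht.1, by rw [pair_comm]; exact ht.2.2⟩
  · have h1 := h.contact_near hy.swap hyz hb (hs.mono fun _ hx => hx.1)
    have h2 := h.contact_far hy hyz ha (hs.mono fun _ hx => hx.2)
    obtain ⟨τ, hτ, k1, k2⟩ := h.locked (a := e) (b := a) (c := b) (d := f) hy.swap12 hzy h1 h2
      hb ha
    exact ⟨τ, hτ, k1, k2⟩

/-- **S4r, kind**: a two-pair point `y` on `S(z)` with the colours `b` far and `c` near has the pair
`{b, c}` -/
theorem Irr.s4r_kind (h : Irr U T) {z y : ℂ} {a b c d : Fin k} (hz : DPt T z a b c d)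
    (hyz : dist y z = 1) (s1 : Sd U z y c d) (s2 : Sd U z y a b) (hc : c ∈ T y) (hb : b ∈ T y)
    {P Q : Set (Fin k)} (hp : ∀ q, dist q y = 1 → (∀ᶠ q' in 𝓝[sphere y 1] q, T q' = T q) →
      T q ⊆ T y → T q = P ∨ T q = Q) : P = {b, c} ∨ Q = {b, c} := by
  obtain ⟨q, hq⟩ := (h.locked_acc hz hyz s1 s2 (h.sub _ hc) (h.sub _ hb)).exists
  have hsub : T q ⊆ T y := by
    rw [hq.mem]
    rintro i (rfl | hi)
    · exact hb
    · rw [mem_singleton_iff] at hi; subst hi; exact hc
  rcases hp q hq.1 (by rw [hq.mem]; exact hq.2) hsub with h1 | h1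
  · left; rw [← h1, hq.mem]
  · right; rw [← h1, hq.mem]

/-- **S4r, kind**, harmless points -/
theorem Irr.s4r_kind_harm (h : Irr U T) {z y : ℂ} {a b c d : Fin k} (hz : DPt T z a b c d)
    (hyz : dist y z = 1) (s1 : Sd U z y c d) (s2 : Sd U z y a b) (hc : c ∈ T y) (hb : b ∈ T y)
    {A : Set (Fin k)} (hA : A.ncard = 2) (hp : ∀ q, dist q y = 1 → T q ⊆ T y → A ⊆ T q) :
    A = {b, c} := by
  obtain ⟨q, hq⟩ := (h.locked_acc hz hyz s1 s2 (h.sub _ hc) (h.sub _ hb)).exists
  have hsub : T q ⊆ T y := by
    rw [hq.mem]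
    rintro i (rfl | hi)
    · exact hb
    · rw [mem_singleton_iff] at hi; subst hi; exact hc
  have h1 := hp q hq.1 hsub
  rw [hq.mem] at h1
  exact Set.eq_of_subset_of_ncard_le h1 (by rw [hA, Set.ncard_pair hz.bc]) (Set.toFinite _)

/-! ## the flanks -/

section
variable {U : Fin 6 → Set ℂ} {T : ℂ → Set (Fin 6)} {z y p : ℂ} {a b c d e f : Fin 6}

/-- faces at a two-pair point -/
theorem DPt.face (h : Irr U T) (hz : DPt T z a b c d) {s : Set (Fin 6)} (hs : s ⊆ T z)
    (h1 : ¬ ({a, b} : Set (Fin 6)) ⊆ s) (h2 : ¬ ({c, d} : Set (Fin 6)) ⊆ s) : Fc T z s := by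
  intro w hw hws
  rcases h.pair_of_subT (h.twoPairs hz) hw (hws.trans hs) with h3 | h3
  · exact h1 (h3.trans hws)
  · exact h2 (h3.trans hws)

theorem pair_not_sub {x w u v : Fin 6} (h1 : x ≠ u) (h2 : x ≠ v) :
    ¬ ({x, w} : Set (Fin 6)) ⊆ {u, v} := by
  intro h
  rcases h (Or.inl rfl) with h3 | h3
  exacts [h1 h3, h2 h3]

theorem pair_not_sub' {x w u v : Fin 6} (h1 : w ≠ u) (h2 : w ≠ v) :
    ¬ ({x, w} : Set (Fin 6)) ⊆ {u, v} := by
  intro h
  rcases h (Or.inr rfl) with h3 | h3
  exacts [h1 h3, h2 h3]

/-- **S4, flanks**: `z = {a, b | c, d}`, `y = {a, e | b, f}`, `p` a common neighbour with at most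
three colours -/
theorem s4_flank (h : Irr U T) (hz : DPt T z a b c d) (hy : DPt T y a e b f)
    (nd : [a, b, c, d, e, f].Nodup) (hyz : dist y z = 1) (hpz : dist p z = 1)
    (hpy : dist p y = 1) (h3 : (T p).ncard ≤ 3) :
    T p = {c, d} ∨ T p = {c, d, e} ∨ T p = {c, d, f} := by
  have hall := all_six nd
  have hn := nd
  simp only [List.nodup_cons, List.mem_cons, List.not_mem_nil, or_false, not_or, List.nodup_nil,
    and_true, not_false_eq_true] at hn
  obtain ⟨⟨ab, ac, ad, ae, af⟩, ⟨bc, bd, be, bf⟩, ⟨cd, ce, cf⟩, ⟨de, df⟩, ef⟩ := hn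
  have hzy : dist z y = 1 := by rw [dist_comm]; exact hyz
  have hzp : dist z p = 1 := by rw [dist_comm]; exact hpz
  have hyp : dist y p = 1 := by rw [dist_comm]; exact hpy
  have F1 : ∀ (s : Set (Fin 6)) t, s ⊆ T z → ¬ ({a, b} : Set (Fin 6)) ⊆ s →
      ¬ ({c, d} : Set (Fin 6)) ⊆ s → t ∈ T y → T p ⊆ insert t s → False :=
    fun s t h1 h2 h4 h5 h6 => lemmaFz h hpy hzy hpz (hz.face h h1 h2 h4) h6 h5
  have F2 : ∀ (s : Set (Fin 6)) t, s ⊆ T y → ¬ ({a, e} : Set (Fin 6)) ⊆ s →
      ¬ ({b, f} : Set (Fin 6)) ⊆ s → t ∈ T z → T p ⊆ insert t s → False :=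
    fun s t h1 h2 h4 h5 h6 => lemmaFz h hpz hyz hpy (hy.face h h1 h2 h4) h6 h5
  have F3 : ∀ t, t ∈ T y → T z ⊆ insert t (T p) → False :=
    fun t h5 h6 => lemmaFz h hzy hpy hzp (fc_three h h3) h6 h5
  have za : a ∈ T z := by rw [hz.pal]; simp
  have zb : b ∈ T z := by rw [hz.pal]; simp
  have zc : c ∈ T z := by rw [hz.pal]; simp
  have zd : d ∈ T z := by rw [hz.pal]; simp
  have ya : a ∈ T y := by rw [hy.pal]; simp
  have yb : b ∈ T y := by rw [hy.pal]; simp
  have ye : e ∈ T y := by rw [hy.pal]; simp
  have yf : f ∈ T y := by rw [hy.pal]; simp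
  have pr : ∀ {S : Set (Fin 6)} {u v : Fin 6}, u ∈ S → v ∈ S → ({u, v} : Set (Fin 6)) ⊆ S := by
    intro S u v hu hv
    rintro i (rfl | hi)
    · exact hu
    · rw [mem_singleton_iff] at hi; subst hi; exact hv
  by_cases pc : c ∈ T p
  · by_cases pd : d ∈ T p
    · -- `c, d` in `T p`
      have pa : a ∉ T p := by
        intro pa
        refine F3 b yb ?_
        rw [hz.pal]
        intro i hi
        simp only [mem_insert_iff, mem_singleton_iff] at hi ⊢
        rcases hi with rfl | rfl | rfl | rfl
        exacts [Or.inr pa, Or.inl rfl, Or.inr pc, Or.inr pd]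
      have pb : b ∉ T p := by
        intro pb
        refine F3 a ya ?_
        rw [hz.pal]
        intro i hi
        simp only [mem_insert_iff, mem_singleton_iff] at hi ⊢
        rcases hi with rfl | rfl | rfl | rfl
        exacts [Or.inl rfl, Or.inr pb, Or.inr pc, Or.inr pd]
      by_cases pe : e ∈ T p
      · right; left
        have pf : f ∉ T p := fun pf => four_false h3 pc pd pe pf cd ce cf de df ef
        ext i
        simp only [mem_insert_iff, mem_singleton_iff]
        constructor
        · intro hi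
          rcases hall i with rfl | rfl | rfl | rfl | rfl | rfl
          exacts [absurd hi pa, absurd hi pb, Or.inl rfl, Or.inr (Or.inl rfl),
            Or.inr (Or.inr rfl), absurd hi pf]
        · rintro (rfl | rfl | rfl)
          exacts [pc, pd, pe]
      · by_cases pf : f ∈ T p
        · right; right
          ext i
          simp only [mem_insert_iff, mem_singleton_iff]
          constructor
          · intro hi
            rcases hall i with rfl | rfl | rfl | rfl | rfl | rfl
            exacts [absurd hi pa, absurd hi pb, Or.inl rfl, Or.inr (Or.inl rfl), absurd hi pe,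
              Or.inr (Or.inr rfl)]
          · rintro (rfl | rfl | rfl)
            exacts [pc, pd, pf]
        · left
          ext i
          simp only [mem_insert_iff, mem_singleton_iff]
          constructor
          · intro hi
            rcases hall i with rfl | rfl | rfl | rfl | rfl | rfl
            exacts [absurd hi pa, absurd hi pb, Or.inl rfl, Or.inr rfl, absurd hi pe, absurd hi pf]
          · rintro (rfl | rfl)
            exacts [pc, pd]
    · -- `c` in, `d` not in `T p`
      exfalso
      by_cases h1 : a ∈ T p ∧ e ∈ T p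
      · obtain ⟨pa, pe⟩ := h1
        refine F1 {a, c} e (pr za zc) (pair_not_sub' (Ne.symm ab) bc)
          (pair_not_sub' (Ne.symm ad) (Ne.symm cd)) ye ?_
        intro i hi
        simp only [mem_insert_iff, mem_singleton_iff]
        rcases hall i with rfl | rfl | rfl | rfl | rfl | rfl
        · exact Or.inr (Or.inl rfl)
        · exact (four_false h3 pa hi pc pe ab ac ae bc be ce).elim
        · exact Or.inr (Or.inr rfl)
        · exact absurd hi pd
        · exact Or.inl rfl
        · exact (four_false h3 pa pc pe hi ac ae af ce cf ef).elim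
      · by_cases h2 : b ∈ T p ∧ f ∈ T p
        · obtain ⟨pb, pf⟩ := h2
          refine F1 {b, c} f (pr zb zc) (pair_not_sub ab ac)
            (pair_not_sub' (Ne.symm bd) (Ne.symm cd)) yf ?_
          intro i hi
          simp only [mem_insert_iff, mem_singleton_iff]
          rcases hall i with rfl | rfl | rfl | rfl | rfl | rfl
          · exact (four_false h3 hi pb pc pf ab ac af bc bf cf).elim
          · exact Or.inr (Or.inl rfl)
          · exact Or.inr (Or.inr rfl)
          · exact absurd hi pd
          · exact (four_false h3 pb pc hi pf bc be bf ce cf ef).elim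
          · exact Or.inl rfl
        · refine F2 (T p \ {c}) c ?_ ?_ ?_ zc ?_
          · intro i hi
            rw [hy.pal]
            simp only [mem_insert_iff, mem_singleton_iff]
            rcases hall i with rfl | rfl | rfl | rfl | rfl | rfl
            · exact Or.inl rfl
            · exact Or.inr (Or.inr (Or.inl rfl))
            · exact absurd rfl hi.2
            · exact absurd hi.1 pd
            · exact Or.inr (Or.inl rfl)
            · exact Or.inr (Or.inr (Or.inr rfl))
          · exact fun h4 => h1 ⟨(h4 (Or.inl rfl)).1, (h4 (Or.inr rfl)).1⟩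
          · exact fun h4 => h2 ⟨(h4 (Or.inl rfl)).1, (h4 (Or.inr rfl)).1⟩
          · intro i hi
            by_cases h4 : i = c
            · exact Or.inl h4
            · exact Or.inr ⟨hi, h4⟩
  · exfalso
    by_cases pd : d ∈ T p
    · by_cases h1 : a ∈ T p ∧ e ∈ T p
      · obtain ⟨pa, pe⟩ := h1
        refine F1 {a, d} e (pr za zd) (pair_not_sub' (Ne.symm ab) bd)
          (pair_not_sub (Ne.symm ac) cd) ye ?_
        intro i hi
        simp only [mem_insert_iff, mem_singleton_iff]
        rcases hall i with rfl | rfl | rfl | rfl | rfl | rfl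
        · exact Or.inr (Or.inl rfl)
        · exact (four_false h3 pa hi pd pe ab ad ae bd be de).elim
        · exact absurd hi pc
        · exact Or.inr (Or.inr rfl)
        · exact Or.inl rfl
        · exact (four_false h3 pa pd pe hi ad ae af de df ef).elim
      · by_cases h2 : b ∈ T p ∧ f ∈ T p
        · obtain ⟨pb, pf⟩ := h2
          refine F1 {b, d} f (pr zb zd) (pair_not_sub ab ad)
            (pair_not_sub (Ne.symm bc) cd) yf ?_
          intro i hi
          simp only [mem_insert_iff, mem_singleton_iff]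
          rcases hall i with rfl | rfl | rfl | rfl | rfl | rfl
          · exact (four_false h3 hi pb pd pf ab ad af bd bf df).elim
          · exact Or.inr (Or.inl rfl)
          · exact absurd hi pc
          · exact Or.inr (Or.inr rfl)
          · exact (four_false h3 pb pd hi pf bd be bf de df ef).elim
          · exact Or.inl rfl
        · refine F2 (T p \ {d}) d ?_ ?_ ?_ zd ?_
          · intro i hi
            rw [hy.pal]
            simp only [mem_insert_iff, mem_singleton_iff]
            rcases hall i with rfl | rfl | rfl | rfl | rfl | rfl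
            · exact Or.inl rfl
            · exact Or.inr (Or.inr (Or.inl rfl))
            · exact absurd hi.1 pc
            · exact absurd rfl hi.2
            · exact Or.inr (Or.inl rfl)
            · exact Or.inr (Or.inr (Or.inr rfl))
          · exact fun h4 => h1 ⟨(h4 (Or.inl rfl)).1, (h4 (Or.inr rfl)).1⟩
          · exact fun h4 => h2 ⟨(h4 (Or.inl rfl)).1, (h4 (Or.inr rfl)).1⟩
          · intro i hi
            by_cases h4 : i = d
            · exact Or.inl h4
            · exact Or.inr ⟨hi, h4⟩
    · -- `T p` inside `T y`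
      have hsub : T p ⊆ T y := by
        intro i hi
        rcases hall i with rfl | rfl | rfl | rfl | rfl | rfl
        exacts [ya, yb, absurd hi pc, absurd hi pd, ye, yf]
      rcases h.pair_of_subT (h.twoPairs hy) hpy hsub with h1 | h1
      · have pa : a ∈ T p := h1 (Or.inl rfl)
        have pe : e ∈ T p := h1 (Or.inr rfl)
        by_cases pb : b ∈ T p
        · refine F2 {e, b} a (pr ye yb) (pair_not_sub ae ab)
            (pair_not_sub' (Ne.symm ef) (Ne.symm bf)) za ?_
          intro i hi
          simp only [mem_insert_iff, mem_singleton_iff]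
          rcases hall i with rfl | rfl | rfl | rfl | rfl | rfl
          · exact Or.inl rfl
          · exact Or.inr (Or.inr rfl)
          · exact absurd hi pc
          · exact absurd hi pd
          · exact Or.inr (Or.inl rfl)
          · exact (four_false h3 pa pb pe hi ab ae af be bf ef).elim
        · refine F2 {e, f} a (pr ye yf) (pair_not_sub ae af) (pair_not_sub be bf) za ?_
          intro i hi
          simp only [mem_insert_iff, mem_singleton_iff]
          rcases hall i with rfl | rfl | rfl | rfl | rfl | rfl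
          exacts [Or.inl rfl, absurd hi pb, absurd hi pc, absurd hi pd, Or.inr (Or.inl rfl),
            Or.inr (Or.inr rfl)]
      · have pb : b ∈ T p := h1 (Or.inl rfl)
        have pf : f ∈ T p := h1 (Or.inr rfl)
        by_cases pa : a ∈ T p
        · refine F2 {f, a} b (pr yf ya) (pair_not_sub' ef (Ne.symm ae))
            (pair_not_sub bf (Ne.symm ab)) zb ?_
          intro i hi
          simp only [mem_insert_iff, mem_singleton_iff]
          rcases hall i with rfl | rfl | rfl | rfl | rfl | rfl
          · exact Or.inr (Or.inr rfl)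
          · exact Or.inl rfl
          · exact absurd hi pc
          · exact absurd hi pd
          · exact (four_false h3 pa pb hi pf ab ae af be bf ef).elim
          · exact Or.inr (Or.inl rfl)
        · refine F2 {f, e} b (pr yf ye) (pair_not_sub af ae) (pair_not_sub bf be) zb ?_
          intro i hi
          simp only [mem_insert_iff, mem_singleton_iff]
          rcases hall i with rfl | rfl | rfl | rfl | rfl | rfl
          exacts [absurd hi pa, Or.inl rfl, absurd hi pc, absurd hi pd, Or.inr (Or.inr rfl),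
            Or.inr (Or.inl rfl)]

/-- **S4r, flanks**: `z = {a, b | c, d}`, `y = {b, c | e, f}` -/
theorem s4r_flank (h : Irr U T) (hz : DPt T z a b c d) (hy : DPt T y b c e f)
    (nd : [a, b, c, d, e, f].Nodup) (hyz : dist y z = 1) (hpz : dist p z = 1)
    (hpy : dist p y = 1) (h3 : (T p).ncard ≤ 3) :
    T p = {e, f} ∨ T p = {e, f, a} ∨ T p = {e, f, d} := by
  refine s4_flank h hy (e := a) (f := d) hz.swap12 ?_ (by rw [dist_comm]; exact hyz) hpy hpz h3
  simp only [List.nodup_cons, List.mem_cons, List.not_mem_nil, or_false, not_or, List.nodup_nil,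
    and_true, not_false_eq_true] at nd ⊢
  obtain ⟨⟨ab, ac, ad, ae, af⟩, ⟨bc, bd, be, bf⟩, ⟨cd, ce, cf⟩, ⟨de, df⟩, ef⟩ := nd
  exact ⟨⟨bc, be, bf, Ne.symm ab, bd⟩, ⟨ce, cf, Ne.symm ac, cd⟩, ⟨ef, Ne.symm ae, Ne.symm de⟩,
    ⟨Ne.symm af, Ne.symm df⟩, ad⟩

end

end Vale.Agent.P032.Six
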