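import Vale.Agent.P032.R2.H659.Axis

/-!
# P032: a point with a one-sided set of colours, seen from other centres (wild)

* `Irr.one_side_arc` : `B` is on one side of `S(z)` near `p`, `T p ⊆ B ∪ {e, f}`, `y` on `S(p)` not
  on the line of `z` and `p`, `e, f ∈ T y`: exact `{e, f}` arcs of `S(y)` accumulate at `p`.
* `Irr.tri` : a two-pair point `z = {a, b | c, d}`, `p` on `S(z)` with `T p = {b, d, e, f}`, and a point
  `y` with `e, f ∈ T y` on `S(p)` off the line: exact `{b, d}` arcs of `S(p)` accumulate at `z` or exact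
  `{e, f}` arcs of `S(y)` accumulate at `p`.
-/

open Set Filter Topology Metric

noncomputable section

namespace Vale.Agent.P032.Six

variable {k : ℕ} {U : Fin k → Set ℂ} {T : ℂ → Set (Fin k)}

/-- exact `{e, f}` arcs of `S(y)` at a point with a one-sided set `B` of colours -/
theorem Irr.one_side_arc (h : Irr U T) {z y p : ℂ} {e f : Fin k} {B : Set (Fin k)}
    (hpz : dist p z = 1) (hpy : dist p y = 1) (n1 : y ≠ z) (n2 : y + z ≠ 2 * p)
    (hB : OneSide U z p B) (hT : T p ⊆ B ∪ {e, f}) (he : e ∈ T y) (hf : f ∈ T y) :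
    ∃ᶠ q in 𝓝 p, Arc T y q {e, f} := by
  have e1 : ∃ s : ℝ, (s = 1 ∨ s = -1) ∧ Off U z p s B := by
    rcases hB with h1 | h1
    exacts [⟨1, Or.inl rfl, h1⟩, ⟨-1, Or.inr rfl, h1⟩]
  obtain ⟨s, hs, k1⟩ := e1
  have hyp : dist y p = 1 := by rw [dist_comm]; exact hpy
  have hzp : dist z p = 1 := by rw [dist_comm]; exact hpz
  have hcr : cr (y - p) (z - p) ≠ 0 := cr_ne_of hyp hzp n1 n2
  have hcr' : cr (p - y) (p - z) ≠ 0 := by
    have : cr (p - y) (p - z) = cr (y - p) (z - p) := by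
      unfold cr; simp only [Complex.sub_re, Complex.sub_im]; ring
    rw [this]; exact hcr
  obtain ⟨τ, hτ, hτ1⟩ : ∃ τ : ℝ, (τ = 1 ∨ τ = -1) ∧ 0 < s * (τ * cr (p - y) (p - z)) := by
    rcases lt_or_gt_of_ne hcr' with h1 | h1
    · refine ⟨-s, ?_, ?_⟩
      · rcases hs with rfl | rfl <;> norm_num
      · rcases hs with rfl | rfl <;> nlinarith
    · refine ⟨s, hs, ?_⟩
      rcases hs with rfl | rfl <;> nlinarith
  have hside : ∀ᶠ t : ℝ in 𝓝[>] 0, 0 < s * (dist (y + (p - y) * cis (τ * t)) z - 1) := by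
    rcases hs with rfl | rfl
    · filter_upwards [arc_out (C := y) hpz (τ := τ) (by linarith)] with t ht
      linarith
    · filter_upwards [arc_in (C := y) hpz (τ := τ) (by linarith)] with t ht
      linarith
  have hA : ∀ᶠ x in 𝓝 p, ∀ i, i ∈ B → 0 < s * (dist x z - 1) → i ∉ Pal U x := by
    rw [eventually_all]
    intro i
    by_cases hi : i ∈ B
    · filter_upwards [k1 i hi] with x hx _ using hx
    · exact Eventually.of_forall fun x h3 => absurd h3 hi
  have ht := tendsto_arc y p τ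
  have hb : ∀ᶠ t : ℝ in 𝓝[>] 0, T (y + (p - y) * cis (τ * t)) = {e, f} := by
    filter_upwards [hside, ht.eventually hA, ht.eventually (h.nhd p)] with t h1 h2 h3
    refine h.eq_pair_of_sub (dist_arc hpy _) (h.sub _ he) (h.sub _ hf) ?_
    intro i hi
    rcases hT (h3 hi) with h4 | h4
    · exact absurd (h.sub _ hi) (h2 i h4 h1)
    · exact h4
  exact (tendsto_arc y p τ).frequently (branch_arc hτ hpy hb).frequently

/-- **Triangle** -/
theorem Irr.tri (h : Irr U T) {z y p : ℂ} {a b c d e f : Fin k} (hz : DPt T z a b c d)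
    (hpz : dist p z = 1) (hpy : dist p y = 1) (n1 : y ≠ z) (n2 : y + z ≠ 2 * p)
    (hT : T p = {b, d, e, f}) (he : e ∈ T y) (hf : f ∈ T y) :
    (∃ᶠ q in 𝓝 z, Arc T p q {b, d}) ∨ ∃ᶠ q in 𝓝 p, Arc T y q {e, f} := by
  rcases h.same_or_lock hz.swap12.swap34 hpz (by rw [hT]; simp) (by rw [hT]; simp) with h1 | h1
  · right
    refine h.one_side_arc hpz hpy n1 n2 h1 ?_ he hf
    rw [hT]
    intro i hi
    simp only [mem_insert_iff, mem_singleton_iff, mem_union] at hi ⊢
    tauto
  · exact Or.inl h1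

end Vale.Agent.P032.Six
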