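import Vale.Agent.P032.R2.H264.SemAt

/-!
# P032: the clauses about the first instant of the roots `R2A`, `R2C`, `S2n`

`exA`, `exC`: the points `(0, 2)`, `(0, 4)` have the colours `a, b` (`c, d`); `exN`: they do not both have
colours of the same pair.
-/

set_option autoImplicit false

open Set Filter Topology Metric

noncomputable section

namespace Vale.Agent.P032.R2.H659

open Vale.Agent.P032.Six Vale.Agent.P032.S5.H767
open Vale.Agent.P032.R2.H741.Tp Vale.Agent.P032.R2.H264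
open Vale.Agent.P032.R2.H805.Rup (Lit)

/-- `a, b` at `(0, 2)` and `(0, 4)` -/
def exA : List (List ℕ) := [[2 * aC 0 2 0], [2 * aC 0 2 1], [2 * aC 0 4 0], [2 * aC 0 4 1]]

/-- `c, d` at `(0, 2)` and `(0, 4)` -/
def exC : List (List ℕ) := [[2 * aC 0 2 2], [2 * aC 0 2 3], [2 * aC 0 4 2], [2 * aC 0 4 3]]

/-- colours of different pairs at `(0, 2)` and `(0, 4)` -/
def exN : List (List ℕ) :=
  [[2 * aC 0 2 0 + 1, 2 * aC 0 4 0 + 1], [2 * aC 0 2 0 + 1, 2 * aC 0 4 1 + 1],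
    [2 * aC 0 2 1 + 1, 2 * aC 0 4 0 + 1], [2 * aC 0 2 1 + 1, 2 * aC 0 4 1 + 1],
    [2 * aC 0 2 2 + 1, 2 * aC 0 4 2 + 1], [2 * aC 0 2 2 + 1, 2 * aC 0 4 3 + 1],
    [2 * aC 0 2 3 + 1, 2 * aC 0 4 2 + 1], [2 * aC 0 2 3 + 1, 2 * aC 0 4 3 + 1]]

variable {S : Sem} {k i m j : ℕ}

theorem hd_unit (hk : k < 6) (hi : i < 6) (h : S.C 0 k i) : Hd (val S) [2 * aC 0 k i] := by
  refine ⟨2 * aC 0 k i, List.mem_cons_self .., ?_⟩
  unfold Lit
  rw [if_pos (by omega), show 2 * aC 0 k i / 2 = aC 0 k i by omega, val_C hk hi]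
  exact h

theorem hd_two (hk : k < 6) (hi : i < 6) (hm : m < 6) (hj : j < 6)
    (h : S.C 0 k i → S.C 0 m j → False) :
    Hd (val S) [2 * aC 0 k i + 1, 2 * aC 0 m j + 1] := by
  by_cases h1 : S.C 0 k i
  · refine ⟨2 * aC 0 m j + 1, List.mem_cons_of_mem _ (List.mem_cons_self ..), ?_⟩
    unfold Lit
    rw [if_neg (by omega), show (2 * aC 0 m j + 1) / 2 = aC 0 m j by omega, val_C hm hj]
    exact h h1
  · refine ⟨2 * aC 0 k i + 1, List.mem_cons_self .., ?_⟩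
    unfold Lit
    rw [if_neg (by omega), show (2 * aC 0 k i + 1) / 2 = aC 0 k i by omega, val_C hk hi]
    exact h1

theorem hd_exA (h2 : S.C 0 2 0 ∧ S.C 0 2 1) (h4 : S.C 0 4 0 ∧ S.C 0 4 1) :
    ∀ c ∈ exA, Hd (val S) c := by
  intro c hc
  unfold exA at hc
  simp only [List.mem_cons, List.not_mem_nil, or_false] at hc
  rcases hc with rfl | rfl | rfl | rfl
  · exact hd_unit (by norm_num) (by norm_num) h2.1
  · exact hd_unit (by norm_num) (by norm_num) h2.2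
  · exact hd_unit (by norm_num) (by norm_num) h4.1
  · exact hd_unit (by norm_num) (by norm_num) h4.2

theorem hd_exC (h2 : S.C 0 2 2 ∧ S.C 0 2 3) (h4 : S.C 0 4 2 ∧ S.C 0 4 3) :
    ∀ c ∈ exC, Hd (val S) c := by
  intro c hc
  unfold exC at hc
  simp only [List.mem_cons, List.not_mem_nil, or_false] at hc
  rcases hc with rfl | rfl | rfl | rfl
  · exact hd_unit (by norm_num) (by norm_num) h2.1
  · exact hd_unit (by norm_num) (by norm_num) h2.2
  · exact hd_unit (by norm_num) (by norm_num) h4.1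
  · exact hd_unit (by norm_num) (by norm_num) h4.2

theorem hd_exN (h : ∀ i < 2, ∀ j < 2, S.C 0 2 i → S.C 0 4 j → False)
    (h' : ∀ i < 2, ∀ j < 2, S.C 0 2 (2 + i) → S.C 0 4 (2 + j) → False) :
    ∀ c ∈ exN, Hd (val S) c := by
  intro c hc
  unfold exN at hc
  simp only [List.mem_cons, List.not_mem_nil, or_false] at hc
  rcases hc with rfl | rfl | rfl | rfl | rfl | rfl | rfl | rfl
  · exact hd_two (by norm_num) (by norm_num) (by norm_num) (by norm_num)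
      (h 0 (by norm_num) 0 (by norm_num))
  · exact hd_two (by norm_num) (by norm_num) (by norm_num) (by norm_num)
      (h 0 (by norm_num) 1 (by norm_num))
  · exact hd_two (by norm_num) (by norm_num) (by norm_num) (by norm_num)
      (h 1 (by norm_num) 0 (by norm_num))
  · exact hd_two (by norm_num) (by norm_num) (by norm_num) (by norm_num)
      (h 1 (by norm_num) 1 (by norm_num))
  · exact hd_two (by norm_num) (by norm_num) (by norm_num) (by norm_num)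
      (h' 0 (by norm_num) 0 (by norm_num))
  · exact hd_two (by norm_num) (by norm_num) (by norm_num) (by norm_num)
      (h' 0 (by norm_num) 1 (by norm_num))
  · exact hd_two (by norm_num) (by norm_num) (by norm_num) (by norm_num)
      (h' 1 (by norm_num) 0 (by norm_num))
  · exact hd_two (by norm_num) (by norm_num) (by norm_num) (by norm_num)
      (h' 1 (by norm_num) 1 (by norm_num))

/-! ### on `semAt` -/

variable {U : Fin 6 → Set ℂ} {T : ℂ → Set (Fin 6)} {G : RD} {D : Dat} {L0 L K : Sl G} {u : ℝ}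

theorem sem_C2 {i : ℕ} : (semAt U T G D L0 u L K).C 0 2 i ↔ D.x i ∈ T (pt (D.c 0) (u + 2)) := by
  show D.x i ∈ T (pt (D.c 0) (u + ((2 : ℕ) : ℝ))) ↔ _
  rw [Nat.cast_ofNat]

theorem sem_C4 {i : ℕ} : (semAt U T G D L0 u L K).C 0 4 i ↔ D.x i ∈ T (pt (D.c 0) (u + 4)) := by
  show D.x i ∈ T (pt (D.c 0) (u + ((4 : ℕ) : ℝ))) ↔ _
  rw [Nat.cast_ofNat]

theorem sem_exA (h2 : D.x 0 ∈ T (pt (D.c 0) (u + 2)) ∧ D.x 1 ∈ T (pt (D.c 0) (u + 2)))
    (h4 : D.x 0 ∈ T (pt (D.c 0) (u + 4)) ∧ D.x 1 ∈ T (pt (D.c 0) (u + 4))) :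
    ∀ c ∈ exA, Hd (val (semAt U T G D L0 u L K)) c :=
  hd_exA ⟨sem_C2.2 h2.1, sem_C2.2 h2.2⟩ ⟨sem_C4.2 h4.1, sem_C4.2 h4.2⟩

theorem sem_exC (h2 : D.x 2 ∈ T (pt (D.c 0) (u + 2)) ∧ D.x 3 ∈ T (pt (D.c 0) (u + 2)))
    (h4 : D.x 2 ∈ T (pt (D.c 0) (u + 4)) ∧ D.x 3 ∈ T (pt (D.c 0) (u + 4))) :
    ∀ c ∈ exC, Hd (val (semAt U T G D L0 u L K)) c :=
  hd_exC ⟨sem_C2.2 h2.1, sem_C2.2 h2.2⟩ ⟨sem_C4.2 h4.1, sem_C4.2 h4.2⟩

theorem sem_exN
    (h : ∀ i, i = D.x 0 ∨ i = D.x 1 → ∀ j, j = D.x 0 ∨ j = D.x 1 → i ∈ T (pt (D.c 0) (u + 2)) →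
      j ∈ T (pt (D.c 0) (u + 4)) → False)
    (h' : ∀ i, i = D.x 2 ∨ i = D.x 3 → ∀ j, j = D.x 2 ∨ j = D.x 3 → i ∈ T (pt (D.c 0) (u + 2)) →
      j ∈ T (pt (D.c 0) (u + 4)) → False) :
    ∀ c ∈ exN, Hd (val (semAt U T G D L0 u L K)) c := by
  refine hd_exN (fun i hi j hj h1 h2 => ?_) fun i hi j hj h1 h2 => ?_
  · rw [sem_C2] at h1
    rw [sem_C4] at h2
    refine h _ ?_ _ ?_ h1 h2
    · interval_cases i
      exacts [Or.inl rfl, Or.inr rfl]
    · interval_cases j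
      exacts [Or.inl rfl, Or.inr rfl]
  · rw [sem_C2] at h1
    rw [sem_C4] at h2
    refine h' _ ?_ _ ?_ h1 h2
    · interval_cases i
      exacts [Or.inl rfl, Or.inr rfl]
    · interval_cases j
      exacts [Or.inl rfl, Or.inr rfl]

end Vale.Agent.P032.R2.H659
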