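import Vale.Agent.P032.R2.H659.S2
import Vale.Agent.P032.R2.H659.S2X
import Vale.Agent.P032.R2.H264.Asm
import Vale.Agent.P032.R2.H137.Roots

/-!
# P032: the boxes of the second certificate from the certificates of `rdR2` and `rdS2n`

`Crt G ex`: a certificate of the system `G` with the clauses `ex` about the first instant;
`Fr U T G`: the system `G` describes the situation of the boxes;
`boxA_of`, `boxC_of`, `boxN_of`.
-/

set_option autoImplicit false

open Set Filter Topology Metric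

noncomputable section

namespace Vale.Agent.P032.R2.H659

open Vale.Agent.P032.Six Vale.Agent.P032.Words Vale.Agent.P032.S5.H767
open Vale.Agent.P032.R2.H741.Tp Vale.Agent.P032.R2.H264 Vale.Agent.P032.R2.H137

variable {U : Fin 6 → Set ℂ} {T : ℂ → Set (Fin 6)}

/-- a certificate with extra clauses about the first instant -/
structure Crt (G : RD) (ex inv : List (List ℕ)) : Prop where
  hst : ∀ c ∈ inv, ∀ j ∈ c, j / 2 < 704 * (G.R + G.Y) ∧ R2.H264.isSt (j / 2 % 704) = true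
  start : ∀ S, SF G S → TF G S → IF G S → (∀ c ∈ ex, Hd (val S) c) →
    ∀ c ∈ inv, Hd (val S) (c.map R2.H264.nxl)
  step : ∀ S, SF G S → TF G S → (∀ c ∈ inv, Hd (val S) c) →
    ∀ c ∈ inv, Hd (val S) (c.map R2.H264.nxl)
  fin : ∀ S, SF G S → BF G S → ¬ ∀ c ∈ inv, Hd (val S) c

/-- the system `G` describes `z, y` and the contact `a, c | e, f` at the time `u0` -/
def Fr (U : Fin 6 → Set ℂ) (T : ℂ → Set (Fin 6)) (G : RD) : Prop :=
  ∀ {z y : ℂ} {a b c d e f : Fin 6} {u0 : ℝ}, DPt T z a b c d → [a, b, c, d, e, f].Nodup →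
    dist y z = 1 → DPt T y a e b f → DPt T (pt z u0) a c e f →
    ∃ D : Dat, Hp U T G D ∧ D.c 0 = z ∧ D.u0 = u0 ∧ D.x 0 = a ∧ D.x 1 = b ∧ D.x 2 = c ∧ D.x 3 = d

theorem boxA_of (fr : Fr U T rdR2) {inv : List (List ℕ)} (C : Crt rdR2 exA inv) : BoxA T := by
  intro z y a b c d e f u0 hz nd hyz hy hw h2 h4
  obtain ⟨D, W, rfl, rfl, rfl, rfl, -, -⟩ := fr hz nd hyz hy hw
  exact W.no_rootE (E := fun S => ∀ c ∈ exA, Hd (val S) c) (fun _ _ _ _ => sem_exA h2 h4) C.hst
    C.start C.step C.fin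

theorem boxC_of (fr : Fr U T rdR2) {inv : List (List ℕ)} (C : Crt rdR2 exC inv) : BoxC T := by
  intro z y a b c d e f u0 hz nd hyz hy hw h2 h4
  obtain ⟨D, W, rfl, rfl, -, -, rfl, rfl⟩ := fr hz nd hyz hy hw
  exact W.no_rootE (E := fun S => ∀ c ∈ exC, Hd (val S) c) (fun _ _ _ _ => sem_exC h2 h4) C.hst
    C.start C.step C.fin

theorem boxN_of (fr : Fr U T rdS2n) {inv : List (List ℕ)} (C : Crt rdS2n exN inv) : BoxN T := by
  intro z y a b c d e f u0 hz nd hyz hy hw h h'
  obtain ⟨D, W, rfl, rfl, rfl, rfl, rfl, rfl⟩ := fr hz nd hyz hy hw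
  exact W.no_rootE (E := fun S => ∀ c ∈ exN, Hd (val S) c) (fun _ _ _ _ => sem_exN h h') C.hst
    C.start C.step C.fin

/-- **The second certificate from three invariants.** -/
theorem certS2_of_crt (H : WT U T) (hmin : MinF U T) (fr : Fr U T rdR2) (fr' : Fr U T rdS2n)
    {iA iC iN : List (List ℕ)} (A : Crt rdR2 exA iA) (C : Crt rdR2 exC iC)
    (N : Crt rdS2n exN iN) : CertS2 T :=
  H.certS2_of hmin (boxA_of fr A) (boxC_of fr C) (boxN_of fr' N)

end Vale.Agent.P032.R2.H659
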