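import Vale.Agent.P032.Words.H349.TieSym

/-!
# Words on a circle with exact contacts, T3 contacts allowed: the engine

`RawT3` is `RawT` without the field `three`: three consecutive positions may carry the palettes
`{f, C}`, `{e, f}`, `{e, A}`.
-/

namespace Vale.Agent.P032.Words

open Set Filter Topology

/-- The word of a four coloured centre, exact contacts allowed, T3 contacts included. -/
structure RawT3 (X : Fin 4 → Set ℝ) : Prop where
  closed : ∀ l, IsClosed (X l)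
  cover : ∀ u, ∃ l, u ∈ X l
  per : ∀ l u, u + 6 ∈ X l ↔ u ∈ X l
  anti : ∀ u, u ∈ X 2 → u + 3 ∉ X 3
  ac : ∀ u, u ∈ X 2 → u ∉ X 3
  two : ∀ u l m n, u ∈ X l → u ∈ X m → u ∈ X n → l = m ∨ m = n ∨ n = l
  own : ∀ u l, u ∈ X l → u + 1 ∈ X l → ∃ m, m ≠ l ∧ u ∈ X m
  own' : ∀ u l, u ∈ X l → u + 1 ∈ X l → ∃ m, m ≠ l ∧ u + 1 ∈ X m
  swap : ∀ u l m, u ∈ X l → u + 1 ∈ X l → u ∈ X m → u + 1 ∈ X m → l = m
  dbl : ∀ u l m, l ≠ m → u ∈ X l → u + 1 ∈ X l → u + 1 ∈ X m → u + 2 ∈ X m →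
    l.val < 2 ∧ m.val < 2

theorem RawT.raw3 {X : Fin 4 → Set ℝ} (w : RawT X) : RawT3 X :=
  ⟨w.closed, w.cover, w.per, w.anti, w.ac, w.two, w.own, w.own', w.swap, w.dbl⟩

section
variable {X : Fin 4 → Set ℝ}

/-- no good letter: a double contact -/
theorem RawT3.dbl_of (w : RawT3 X) {u : ℝ} (h : ¬ ∃ l, Good X u l) :
    (u ∈ X 0 ∧ u ∈ X 1) ∧ ((u - 1 ∈ X 0 ∧ u + 1 ∈ X 1) ∨ (u - 1 ∈ X 1 ∧ u + 1 ∈ X 0)) := by
  have hs : ∀ l, u ∈ X l → u - 1 ∈ X l ∨ u + 1 ∈ X l := by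
    intro l hl
    by_contra hc
    push Not at hc
    exact h ⟨l, hl, hc.2, hc.1⟩
  have e : u - 1 + 1 = u := by ring
  have e2 : u - 1 + 2 = u + 1 := by ring
  obtain ⟨l, hl⟩ := w.cover u
  obtain ⟨m, hm, hmu⟩ : ∃ m, m ≠ l ∧ u ∈ X m := by
    rcases hs l hl with h1 | h1
    · have := w.own' (u - 1) l h1 (by rw [e]; exact hl)
      rw [e] at this; exact this
    · exact w.own u l hl h1
  have key : ∀ l m : Fin 4, l ≠ m → u ∈ X l → u ∈ X m → u - 1 ∈ X l → u + 1 ∈ X m →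
      (u ∈ X 0 ∧ u ∈ X 1) ∧ ((u - 1 ∈ X 0 ∧ u + 1 ∈ X 1) ∨ (u - 1 ∈ X 1 ∧ u + 1 ∈ X 0)) := by
    intro l m hlm h1 h2 h3 h4
    have d := w.dbl (u - 1) l m hlm h3 (by rw [e]; exact h1) (by rw [e]; exact h2)
      (by rw [e2]; exact h4)
    rcases val_lt_two d.1 d.2 hlm with ⟨rfl, rfl⟩ | ⟨rfl, rfl⟩
    · exact ⟨⟨h1, h2⟩, Or.inl ⟨h3, h4⟩⟩
    · exact ⟨⟨h2, h1⟩, Or.inr ⟨h3, h4⟩⟩
  rcases hs l hl with h1 | h1 <;> rcases hs m hmu with h2 | h2
  · exact absurd (w.swap (u - 1) m l h2 (by rw [e]; exact hmu) h1 (by rw [e]; exact hl)) hm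
  · exact key l m hm.symm hl hmu h1 h2
  · exact key m l hm hmu hl h2 h1
  · exact absurd (w.swap u m l hmu h2 hl h1) hm

theorem RawT3.lam_mem (w : RawT3 X) (u : ℝ) : u ∈ X (lamT X u) := by
  by_cases h : ∃ l, Good X u l
  · exact (lamT_good h).1
  · have := w.dbl_of h
    unfold lamT lamF
    rw [dif_neg h]
    split_ifs
    · exact this.1.2
    · exact this.1.1

theorem RawT3.lam_ne (w : RawT3 X) (u : ℝ) : lamT X u ≠ lamT X (u + 1) := by
  intro h
  by_cases h1 : ∃ l, Good X u l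
  · exact (lamT_good h1).2.1 (h ▸ w.lam_mem (u + 1))
  by_cases h2 : ∃ l, Good X (u + 1) l
  · have := (lamT_good h2).2.2
    have e : u + 1 - 1 = u := by ring
    rw [e] at this
    exact this (h ▸ w.lam_mem u)
  obtain ⟨⟨a0, a1⟩, -⟩ := w.dbl_of h1
  obtain ⟨⟨b0, b1⟩, -⟩ := w.dbl_of h2
  exact absurd (w.swap u 0 1 a0 b0 a1 b1) (by decide)

theorem RawT3.lam_per (w : RawT3 X) (u : ℝ) : lamT X (u + 6) = lamT X u := by
  have h1 : ∀ l, u + 6 + 1 ∈ X l ↔ u + 1 ∈ X l := by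
    intro l
    have : u + 6 + 1 = u + 1 + 6 := by ring
    rw [this, w.per]
  have h2 : ∀ l, u + 6 - 1 ∈ X l ↔ u - 1 ∈ X l := by
    intro l
    have : u + 6 - 1 = u - 1 + 6 := by ring
    rw [this, w.per]
  have hg : Good X (u + 6) = Good X u := by
    funext l
    unfold Good
    rw [w.per, h1, h2]
  unfold lamT
  rw [hg, h1, h1, h2, h2]

theorem RawT3.mem_add (w : RawT3 X) (u : ℝ) (k : Fin 6) (l : Fin 4) :
    u + ((k + 1).val : ℝ) ∈ X l ↔ u + (k.val : ℝ) + 1 ∈ X l := by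
  by_cases hk : k = 5
  · subst hk
    have h1 : ((5 : Fin 6) + 1).val = 0 := rfl
    have h2 : (5 : Fin 6).val = 5 := rfl
    rw [h1, h2]
    have : u + ((5 : ℕ) : ℝ) + 1 = (u + ((0 : ℕ) : ℝ)) + 6 := by push_cast; ring
    rw [this, w.per]
  · have h1 : (k + 1).val = k.val + 1 := by
      have : k.val ≠ 5 := fun h => hk (Fin.ext h)
      have h6 := k.isLt
      rw [Fin.val_add_one_of_lt]
      rw [Fin.lt_def]
      show k.val < 5
      omega
    rw [h1]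
    have : u + (k.val : ℝ) + 1 = u + ((k.val + 1 : ℕ) : ℝ) := by push_cast; ring
    rw [this]

theorem RawT3.lam_add (w : RawT3 X) (u : ℝ) (k : Fin 6) :
    lamT X (u + ((k + 1).val : ℝ)) = lamT X (u + (k.val : ℝ) + 1) := by
  by_cases hk : k = 5
  · subst hk
    have h1 : ((5 : Fin 6) + 1).val = 0 := rfl
    have h2 : (5 : Fin 6).val = 5 := rfl
    rw [h1, h2]
    have : u + ((5 : ℕ) : ℝ) + 1 = (u + ((0 : ℕ) : ℝ)) + 6 := by push_cast; ring
    rw [this, w.lam_per]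
  · have h1 : (k + 1).val = k.val + 1 := by
      have : k.val ≠ 5 := fun h => hk (Fin.ext h)
      have h6 := k.isLt
      rw [Fin.val_add_one_of_lt]
      rw [Fin.lt_def]
      show k.val < 5
      omega
    rw [h1]
    have : u + (k.val : ℝ) + 1 = u + ((k.val + 1 : ℕ) : ℝ) := by push_cast; ring
    rw [this]

theorem RawT3.mem_add3 (w : RawT3 X) (u : ℝ) (k : Fin 6) (l : Fin 4) :
    u + ((k + 3).val : ℝ) ∈ X l ↔ u + (k.val : ℝ) + 3 ∈ X l := by
  have e : k + 3 = k + 1 + 1 + 1 := by revert k; decide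
  rw [e, w.mem_add]
  have h1 := w.mem_add (u + 1) (k + 1) l
  have h2 := w.mem_add (u + 2) k l
  have e1 : u + ((k + 1 + 1).val : ℝ) + 1 = u + 1 + ((k + 1 + 1).val : ℝ) := by ring
  have e2 : u + 1 + ((k + 1).val : ℝ) + 1 = u + 2 + ((k + 1).val : ℝ) := by ring
  have e3 : u + 2 + (k.val : ℝ) + 1 = u + (k.val : ℝ) + 3 := by ring
  rw [e1, h1, e2, h2, e3]

theorem RawT3.palT (w : RawT3 X) (u : ℝ) : PalT (Words.palT X u) := by
  have h2 : ∀ k l, u + ((k + 1 + 1 : Fin 6).val : ℝ) ∈ X l ↔ u + (k.val : ℝ) + 2 ∈ X l := by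
    intro k l
    rw [w.mem_add]
    have e : u + ((k + 1).val : ℝ) + 1 = u + 1 + ((k + 1).val : ℝ) := by ring
    rw [e, w.mem_add]
    have e : u + 1 + (k.val : ℝ) + 1 = u + (k.val : ℝ) + 2 := by ring
    rw [e]
  refine ⟨?_, ?_, ?_, ?_⟩
  · intro k l a b
    exact w.own _ l a ((w.mem_add u k l).mp b)
  · intro k l a b
    obtain ⟨m, hm, h⟩ := w.own' _ l a ((w.mem_add u k l).mp b)
    exact ⟨m, hm, (w.mem_add u k m).mpr h⟩
  · intro k l m a b c d
    exact w.swap _ l m a ((w.mem_add u k l).mp b) c ((w.mem_add u k m).mp d)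
  · intro k l m hlm a b c d
    exact w.dbl _ l m hlm a ((w.mem_add u k l).mp b) ((w.mem_add u k m).mp c) ((h2 k m).mp d)

theorem RawT3.leg (w : RawT3 X) (u : ℝ) (g : Hx) (h1 : ∀ k, Words.palT X u k (g k))
    (h2 : ∀ k, g k ≠ g (k + 1)) : Leg4 g := by
  refine ⟨h2, ?_⟩
  rintro k ⟨a, b⟩
  have h3 := h1 k
  have h4 := h1 (k + 3)
  rw [a] at h3
  rw [b] at h4
  exact w.anti _ h3 ((w.mem_add3 u k 3).mp h4)

theorem RawT3.st_mem (w : RawT3 X) (u : ℝ) (k : Fin 6) : u + (k.val : ℝ) ∈ X (stT X u k) :=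
  w.lam_mem _

theorem RawT3.st_ne (w : RawT3 X) (u : ℝ) (k : Fin 6) : stT X u k ≠ stT X u (k + 1) := by
  unfold stT
  rw [w.lam_add]
  exact w.lam_ne _

theorem RawT3.leg_st (w : RawT3 X) (u : ℝ) : Leg4 (stT X u) := w.leg u _ (w.st_mem u) (w.st_ne u)

theorem RawT3.st_add_one (w : RawT3 X) (u : ℝ) : stT X (u + 1) = rot (stT X u) := by
  funext k
  show lamT X (u + 1 + (k.val : ℝ)) = lamT X (u + ((k + 1).val : ℝ))
  rw [w.lam_add]
  congr 1
  ring

/-- Near `u` only letters available at `u` occur. -/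
theorem RawT3.near (w : RawT3 X) (u : ℝ) :
    ∀ᶠ v in 𝓝 u, ∀ k : Fin 6, ∀ l, v + (k.val : ℝ) ∈ X l → u + (k.val : ℝ) ∈ X l := by
  rw [eventually_all]
  intro k
  rw [eventually_all]
  intro l
  by_cases h : u + (k.val : ℝ) ∈ X l
  · exact Eventually.of_forall fun v _ => h
  · have hc : Continuous fun v : ℝ => v + (k.val : ℝ) := by fun_prop
    have := (hc.tendsto u).eventually ((w.closed l).isOpen_compl.mem_nhds h)
    filter_upwards [this] with v hv hv'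
    exact absurd hv' hv

variable {free : Fin 4 → Fin 4 → Prop} {cmp : Hx → ℕ}

/-- Two proper selections at `u`. -/
theorem RawT3.cmp_eq (w : RawT3 X)
    (hstep : ∀ h k l, Leg4 h → Leg4 (Function.update h k l) → free (h k) l →
      cmp (Function.update h k l) = cmp h)
    (hrefl : ∀ x, free x x) (u : ℝ) {h h' : Hx} (hh : ∀ k, u + (k.val : ℝ) ∈ X (h k))
    (hh' : ∀ k, u + (k.val : ℝ) ∈ X (h' k)) (hp : ∀ k, h k ≠ h (k + 1))
    (hp' : ∀ k, h' k ≠ h' (k + 1)) (hf : ∀ k, free (h k) (h' k)) : cmp h = cmp h' :=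
  (w.palT u).path hstep hrefl (w.leg u) _ h h' le_rfl hh hh' hp hp' hf

/-- Local constancy at a point without non-free pairs. -/
theorem RawT3.ev_nhds (w : RawT3 X)
    (hstep : ∀ h k l, Leg4 h → Leg4 (Function.update h k l) → free (h k) l →
      cmp (Function.update h k l) = cmp h)
    (hrefl : ∀ x, free x x)
    {u : ℝ} (hfree : ∀ k : Fin 6, ∀ a b, u + (k.val : ℝ) ∈ X a → u + (k.val : ℝ) ∈ X b → free a b) :
    ∀ᶠ v in 𝓝 u, cmp (stT X v) = cmp (stT X u) := by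
  filter_upwards [w.near u] with v hv
  exact w.cmp_eq hstep hrefl u (fun k => hv k _ (w.st_mem v k)) (w.st_mem u) (w.st_ne v) (w.st_ne u)
    (fun k => hfree k _ _ (hv k _ (w.st_mem v k)) (w.st_mem u k))

/-- Constancy on a connected set without non-free pairs. -/
theorem RawT3.const_Ioo (w : RawT3 X)
    (hstep : ∀ h k l, Leg4 h → Leg4 (Function.update h k l) → free (h k) l →
      cmp (Function.update h k l) = cmp h)
    (hrefl : ∀ x, free x x)
    {s : Set ℝ} (hs : IsPreconnected s)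
    (hfree : ∀ u ∈ s, ∀ k : Fin 6, ∀ a b, u + (k.val : ℝ) ∈ X a → u + (k.val : ℝ) ∈ X b → free a b)
    {u v : ℝ} (hu : u ∈ s) (hv : v ∈ s) : cmp (stT X u) = cmp (stT X v) := by
  have hc : ContinuousOn (fun u => cmp (stT X u)) s := by
    intro x hx
    have h1 := w.ev_nhds hstep hrefl (hfree x hx)
    have : Tendsto (fun u => cmp (stT X u)) (𝓝 x) (pure (cmp (stT X x))) := by
      rw [tendsto_pure]; exact h1
    exact (this.mono_left nhdsWithin_le_nhds).mono_right (pure_le_nhds _)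
  exact hs.constant hc hu hv

/-- The value of `cmp` at the two ends of an open interval without non-free pairs. -/
theorem RawT3.seg (w : RawT3 X)
    (hstep : ∀ h k l, Leg4 h → Leg4 (Function.update h k l) → free (h k) l →
      cmp (Function.update h k l) = cmp h)
    (hrefl : ∀ x, free x x)
    {a b : ℝ} (hab : a < b)
    (hfree : ∀ u ∈ Ioo a b, ∀ k : Fin 6, ∀ x y, u + (k.val : ℝ) ∈ X x → u + (k.val : ℝ) ∈ X y →
      free x y)
    {p q : ℕ} (hp : ∀ᶠ v in 𝓝[>] a, cmp (stT X v) = p) (hq : ∀ᶠ v in 𝓝[<] b, cmp (stT X v) = q) :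
    p = q := by
  have h1 : ∀ᶠ v in 𝓝[>] a, v ∈ Ioo a b := Ioo_mem_nhdsGT hab
  have h2 : ∀ᶠ v in 𝓝[<] b, v ∈ Ioo a b := Ioo_mem_nhdsLT hab
  obtain ⟨x, hx1, hx2⟩ := (hp.and h1).exists
  obtain ⟨y, hy1, hy2⟩ := (hq.and h2).exists
  rw [← hx1, ← hy1]
  exact w.const_Ioo hstep hrefl isPreconnected_Ioo hfree hx2 hy2

/-- The letters of a mark at `v` differ from every letter which is allowed at `v + 1`. -/
theorem RawT3.mark_ne (w : RawT3 X) {v : ℝ} {a b : Fin 4} (ht : Ty a b) (ha : v ∈ X a) (hb : v ∈ X b)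
    {x : Fin 4} (hx : x = a ∨ x = b) :
    ((v ∈ X 3 → v + 1 ∈ X 0 → v + 1 ∈ X 1 → v + 2 ∈ X 0 → v + 2 ∈ X 2 → False) →
      x ≠ lamT X (v + 1)) ∧
    ((v ∈ X 3 → v - 1 ∈ X 0 → v - 1 ∈ X 1 → v - 2 ∈ X 0 → v - 2 ∈ X 2 → False) →
      x ≠ lamT X (v - 1)) := by
  have hxv : v ∈ X x := by rcases hx with rfl | rfl; exacts [ha, hb]
  have h02 : x = 0 → v ∈ X 2 := by
    rintro rfl
    rcases ht with ⟨rfl, rfl⟩ | ⟨rfl, rfl⟩ | ⟨rfl, rfl⟩ | ⟨rfl, rfl⟩
    · exact hb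
    · exact ha
    · exact absurd hx (by decide)
    · exact absurd hx (by decide)
  have h13 : x = 1 → v ∈ X 3 := by
    rintro rfl
    rcases ht with ⟨rfl, rfl⟩ | ⟨rfl, rfl⟩ | ⟨rfl, rfl⟩ | ⟨rfl, rfl⟩
    · exact absurd hx (by decide)
    · exact absurd hx (by decide)
    · exact hb
    · exact ha
  constructor
  · intro hno h
    by_cases hg : ∃ l, Good X (v + 1) l
    · have := (lamT_good hg).2.2
      have e : v + 1 - 1 = v := by ring
      rw [e] at this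
      exact this (h ▸ hxv)
    · have hd := w.dbl_of hg
      have e : v + 1 - 1 = v := by ring
      have e2 : v + 1 + 1 = v + 2 := by ring
      rw [e, e2] at hd
      have hl1 := lamT_one hg
      have hl0 := lamT_zero hg
      rw [e, e2] at hl1 hl0
      obtain ⟨⟨d0, d1⟩, d2⟩ := hd
      by_cases hc : (v + 2 ∈ X 0 ∧ v + 2 ∈ X 2) ∨ (v ∈ X 0 ∧ v ∈ X 2)
      · -- the letter is `1`
        rw [hl1 hc] at h
        have v3 := h13 h
        rw [h] at hxv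
        rcases d2 with ⟨c0, c1⟩ | ⟨c0, c1⟩
        · exact absurd (w.swap v 0 1 c0 d0 hxv d1) (by decide)
        · rcases hc with ⟨hc0, hc2⟩ | ⟨hc0, hc2⟩
          · exact hno v3 d0 d1 hc0 hc2
          · exact absurd (w.swap v 0 1 hc0 d0 hxv d1) (by decide)
      · rw [hl0 hc] at h
        have v2 := h02 h
        rw [h] at hxv
        exact hc (Or.inr ⟨hxv, v2⟩)
  · intro hno h
    by_cases hg : ∃ l, Good X (v - 1) l
    · have := (lamT_good hg).2.1
      have e : v - 1 + 1 = v := by ring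
      rw [e] at this
      exact this (h ▸ hxv)
    · have hd := w.dbl_of hg
      have e : v - 1 + 1 = v := by ring
      have e2 : v - 1 - 1 = v - 2 := by ring
      have e3 : v - 2 + 1 = v - 1 := by ring
      have e4 : v - 2 + 2 = v := by ring
      rw [e, e2] at hd
      have hl1 := lamT_one hg
      have hl0 := lamT_zero hg
      rw [e, e2] at hl1 hl0
      obtain ⟨⟨d0, d1⟩, d2⟩ := hd
      have nosw : ∀ {l m : Fin 4}, l ≠ m → v - 1 ∈ X l → v ∈ X l → v - 1 ∈ X m → v ∈ X m →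
          False := by
        intro l m hlm a1 a2 a3 a4
        exact hlm (w.swap (v - 1) l m a1 (by rw [e]; exact a2) a3 (by rw [e]; exact a4))
      by_cases hc : (v ∈ X 0 ∧ v ∈ X 2) ∨ (v - 2 ∈ X 0 ∧ v - 2 ∈ X 2)
      · rw [hl1 hc] at h
        have v3 := h13 h
        rw [h] at hxv
        rcases d2 with ⟨c0, c1⟩ | ⟨c0, c1⟩
        · rcases hc with ⟨hc0, hc2⟩ | ⟨hc0, hc2⟩
          · exact nosw (by decide) d0 hc0 d1 hxv
          · exact hno v3 d0 d1 hc0 hc2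
        · exact nosw (by decide) d0 c1 d1 hxv
      · rw [hl0 hc] at h
        have v2 := h02 h
        rw [h] at hxv
        exact hc (Or.inl ⟨hxv, v2⟩)

/-- Two neighbouring marks have no common letter. -/
theorem RawT3.mark_mark (w : RawT3 X) {v : ℝ} {a b a' b' : Fin 4} (ht : Ty a b) (ht' : Ty a' b')
    (ha : v ∈ X a) (hb : v ∈ X b) (ha' : v + 1 ∈ X a') (hb' : v + 1 ∈ X b')
    {x x' : Fin 4} (hx : x = a ∨ x = b) (hx' : x' = a' ∨ x' = b') : x ≠ x' := by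
  rcases ht with ⟨rfl, rfl⟩ | ⟨rfl, rfl⟩ | ⟨rfl, rfl⟩ | ⟨rfl, rfl⟩ <;>
    rcases ht' with ⟨rfl, rfl⟩ | ⟨rfl, rfl⟩ | ⟨rfl, rfl⟩ | ⟨rfl, rfl⟩ <;>
    first
      | (exact absurd (w.swap v _ _ ha ha' hb hb') (by decide))
      | (exact absurd (w.swap v _ _ ha hb' hb ha') (by decide))
      | (rcases hx with rfl | rfl <;> rcases hx' with rfl | rfl <;> decide)


end

end Vale.Agent.P032.Words
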