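import Vale.Agent.P032.R2.H659.Order

/-!
# P032: the cones of a two-pair point

`z = {a, b | c, d}`.

* `Irr.cone_rule`: a direction `v` which is not a solid ray of `U c` is outside the polar of the
  contacts of `c`.
* `Irr.cone_labels`: there is at most one line through `z` with all `c`-rays on one closed side and all
  `b`-rays on the other closed side (normal pointing to the `c`-side).
-/

open Set Filter Topology Metric

noncomputable section

namespace Vale.Agent.P032.Six

variable {k : ℕ} {U : Fin k → Set ℂ} {T : ℂ → Set (Fin k)}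

/-- a contact gives points of `U c` on one side -/
theorem Mx.freq_near (h : Mx U) {i : Fin k} {z V : ℂ} (hi : i ∈ Pal U V)
    (hs : ∀ᶠ x in 𝓝 V, 1 < dist x z → i ∉ Pal U x) :
    ∃ᶠ g in 𝓝 V, g ∈ U i ∧ ‖g - z‖ < 1 := by
  rw [frequently_iff]
  intro s hs'
  obtain ⟨g, ⟨hgU, hgN, hg2⟩, hgz⟩ := exists_off (h.isOpen i) (z := z) hi (inter_mem hs' hs)
  refine ⟨g, hgN, hgU, ?_⟩
  rw [← dist_eq_norm]
  rcases lt_or_gt_of_ne hgz with h3 | h3
  · exact h3
  · exact absurd (subset_closure hgU) (hg2 h3)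

theorem Mx.freq_far (h : Mx U) {i : Fin k} {z V : ℂ} (hi : i ∈ Pal U V)
    (hs : ∀ᶠ x in 𝓝 V, dist x z < 1 → i ∉ Pal U x) :
    ∃ᶠ g in 𝓝 V, g ∈ U i ∧ 1 < ‖g - z‖ := by
  rw [frequently_iff]
  intro s hs'
  obtain ⟨g, ⟨hgU, hgN, hg2⟩, hgz⟩ := exists_off (h.isOpen i) (z := z) hi (inter_mem hs' hs)
  refine ⟨g, hgN, hgU, ?_⟩
  rw [← dist_eq_norm]
  rcases lt_or_gt_of_ne hgz with h3 | h3
  · exact absurd (subset_closure hgU) (hg2 h3)
  · exact h3

/-- **Cone rule.** -/
theorem Irr.cone_rule (h : Irr U T) {z v : ℂ} {a b c d : Fin k} (hz : DPt T z a b c d)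
    (hv : ¬ Ray (U c) z v) : ∃ (m : ℂ) (ε : ℝ), ‖m‖ = 1 ∧ (ε = 1 ∨ ε = -1) ∧
      (∃ᶠ g in 𝓝 (z + ε * m), g ∈ U c ∧ ε * (‖g - z‖ - 1) < 0) ∧ ip v m ≤ 0 ∧
      ∀ u, Ray (U c) z u → 0 ≤ ip u m := by
  have h1 : ∃ᶠ r : ℝ in 𝓝[>] 0, z + r * v ∉ U c := by
    unfold Ray at hv
    exact Filter.not_eventually.1 hv
  have h2 : ∀ᶠ r : ℝ in 𝓝[>] 0, 0 < r ∧ r * ‖v‖ < 1 := by
    have e1 : Tendsto (fun r : ℝ => r * ‖v‖) (𝓝[>] 0) (𝓝 0) := by
      have : Continuous fun r : ℝ => r * ‖v‖ := by fun_prop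
      have h3 := this.tendsto 0
      rw [zero_mul] at h3
      exact h3.mono_left nhdsWithin_le_nhds
    filter_upwards [self_mem_nhdsWithin, e1.eventually (Iio_mem_nhds one_pos)] with r h3 h4
    exact ⟨h3, h4⟩
  obtain ⟨r, hr, hrP⟩ := exists_seq_forall_of_frequently (h1.and_eventually h2)
  have hr0 : Tendsto r atTop (𝓝 0) := hr.mono_right nhdsWithin_le_nhds
  choose y hy hyc using fun n => h.partner (hrP n).1
  have hyb : ∀ n, y n ∈ closedBall z 2 := by
    intro n
    rw [mem_closedBall]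
    have e1 : dist (z + r n * v) z = r n * ‖v‖ := by
      rw [dist_eq_norm, add_sub_cancel_left, norm_mul, Complex.norm_real,
        Real.norm_of_nonneg (hrP n).2.1.le]
    calc dist (y n) z ≤ dist (y n) (z + r n * v) + dist (z + r n * v) z := dist_triangle _ _ _
      _ ≤ 1 + 1 := by
        rw [dist_comm (y n), hy n, e1]; linarith [(hrP n).2.2]
      _ = 2 := by norm_num
  obtain ⟨Y, -, φ, hφ, hY⟩ := (isCompact_closedBall z 2).tendsto_subseq hyb
  have hrφ : Tendsto (fun n => r (φ n)) atTop (𝓝 0) := hr0.comp hφ.tendsto_atTop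
  have hxφ : Tendsto (fun n => z + (r (φ n) : ℂ) * v) atTop (𝓝 z) := by
    have e1 : Tendsto (fun n => z + (r (φ n) : ℂ) * v) atTop (𝓝 (z + ((0 : ℝ) : ℂ) * v)) :=
      (((Complex.continuous_ofReal.tendsto 0).comp hrφ).mul_const v).const_add z
    rw [Complex.ofReal_zero, zero_mul, add_zero] at e1
    exact e1
  have hzY : dist z Y = 1 := by
    have e1 : Tendsto (fun n => dist (z + (r (φ n) : ℂ) * v) (y (φ n))) atTop (𝓝 (dist z Y)) :=
      hxφ.dist hY
    have e2 : (fun n => dist (z + (r (φ n) : ℂ) * v) (y (φ n))) = fun _ => (1 : ℝ) := by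
      funext n; exact hy (φ n)
    rw [e2] at e1
    exact tendsto_nhds_unique e1 tendsto_const_nhds |>.symm ▸ rfl
  have hYz : dist Y z = 1 := by rw [dist_comm]; exact hzY
  have hcY : c ∈ Pal U Y := by
    refine isClosed_closure.mem_of_tendsto hY (Eventually.of_forall fun n => hyc (φ n))
  have hm1 : ‖Y - z‖ = 1 := by rw [← dist_eq_norm]; exact hYz
  -- the algebra
  have key : ∀ n, 2 * r (φ n) * ip v (y (φ n) - z) =
      r (φ n) ^ 2 * ‖v‖ ^ 2 + ‖y (φ n) - z‖ ^ 2 - 1 := by
    intro n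
    have e1 := hy (φ n)
    rw [dist_eq_norm] at e1
    have e2 := norm_sub_sq' ((r (φ n) : ℂ) * v) (y (φ n) - z)
    have e3 : (r (φ n) : ℂ) * v - (y (φ n) - z) = z + r (φ n) * v - y (φ n) := by ring
    rw [e3, e1, ip_smul, norm_mul, Complex.norm_real,
      Real.norm_of_nonneg (hrP (φ n)).2.1.le, mul_pow] at e2
    linarith
  have hlim : Tendsto (fun n => ip v (y (φ n) - z)) atTop (𝓝 (ip v (Y - z))) := by
    have e1 : Continuous fun w : ℂ => ip v (w - z) := by
      unfold ip
      fun_prop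
    exact (e1.tendsto Y).comp hY
  rcases h.sides hz.swap hYz with hs | hs
  · -- near
    refine ⟨Y - z, 1, hm1, Or.inl rfl, ?_, ?_, h.mx.near_polar hYz hcY (hs.mono fun _ hx => hx.1)⟩
    · have e1 : z + ((1 : ℝ) : ℂ) * (Y - z) = Y := by push_cast; ring
      rw [e1]
      refine (h.mx.freq_near hcY (hs.mono fun _ hx => hx.1)).mono fun g hg => ⟨hg.1, ?_⟩
      linarith [hg.2]
    · have e1 : ∀ᶠ n in atTop, ip v (y (φ n) - z) ≤ r (φ n) * ‖v‖ ^ 2 / 2 := by
        filter_upwards [hY.eventually hs] with n hn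
        have e2 : ‖y (φ n) - z‖ ≤ 1 := by
          rw [← dist_eq_norm]
          by_contra hcon
          push Not at hcon
          exact hn.1 hcon (hyc (φ n))
        have e3 := key n
        have e4 := (hrP (φ n)).2.1
        have e5 : ‖y (φ n) - z‖ ^ 2 ≤ 1 := by nlinarith [norm_nonneg (y (φ n) - z)]
        have e6 : r (φ n) * (2 * ip v (y (φ n) - z)) ≤ r (φ n) * (r (φ n) * ‖v‖ ^ 2) := by
          nlinarith
        have e7 := le_of_mul_le_mul_left e6 e4
        linarith
      have e2 : Tendsto (fun n => r (φ n) * ‖v‖ ^ 2 / 2) atTop (𝓝 0) := by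
        have := (hrφ.mul_const (‖v‖ ^ 2)).div_const 2
        rw [zero_mul, zero_div] at this
        exact this
      exact le_of_tendsto_of_tendsto hlim e2 e1
  · -- far
    refine ⟨-(Y - z), -1, by rw [norm_neg]; exact hm1, Or.inr rfl, ?_, ?_, ?_⟩
    · have e1 : z + ((-1 : ℝ) : ℂ) * -(Y - z) = Y := by push_cast; ring
      rw [e1]
      refine (h.mx.freq_far hcY (hs.mono fun _ hx => hx.2)).mono fun g hg => ⟨hg.1, ?_⟩
      linarith [hg.2]
    · have e1 : ∀ᶠ n in atTop, (0 : ℝ) ≤ ip v (y (φ n) - z) := by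
        filter_upwards [hY.eventually hs] with n hn
        have e2 : 1 ≤ ‖y (φ n) - z‖ := by
          rw [← dist_eq_norm]
          by_contra hcon
          push Not at hcon
          exact hn.2 hcon (hyc (φ n))
        have e3 := key n
        have e4 := (hrP (φ n)).2.1
        have e5 : 1 ≤ ‖y (φ n) - z‖ ^ 2 := by nlinarith
        by_contra hcon
        push Not at hcon
        have e6 : r (φ n) * ip v (y (φ n) - z) < 0 := mul_neg_of_pos_of_neg e4 hcon
        nlinarith [mul_nonneg (sq_nonneg (r (φ n))) (sq_nonneg ‖v‖)]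
      have e2 := ge_of_tendsto hlim e1
      have e3 : ip v (-(Y - z)) = -ip v (Y - z) := by unfold ip; simp; ring
      rw [e3]; linarith
    · intro u hu
      have e1 := h.mx.far_polar hYz hcY (hs.mono fun _ hx => hx.2) u hu
      have e3 : ip u (-(Y - z)) = -ip u (Y - z) := by unfold ip; simp; ring
      rw [e3]; linarith

/-- a ray orthogonal to an interior point of an exact arc is strictly inside the cone -/
theorem Irr.ray_strict (h : Irr U T) {z p m m' : ℂ} {a b c d : Fin k} (hz : DPt T z a b c d)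
    (hp : Arc T z p {a, b}) {s : ℝ} (hs : s = 1 ∨ s = -1)
    (k : ∀ u, Ray (U c) z u → 0 ≤ ip u m)
    (k0 : 0 < ip (s * (Complex.I * (p - z))) m) (hm' : ‖m'‖ = 1)
    (k' : ∀ u, Ray (U c) z u → 0 ≤ ip u m') (hr : Ray (U c) z (s * (Complex.I * (p - z)))) :
    0 < ip (s * (Complex.I * (p - z))) m' := by
  refine lt_of_le_of_ne (k' _ hr) fun h0 => ?_
  obtain ⟨t0, ht0⟩ := exists_cis (u := p - z) (by rw [← dist_eq_norm]; exact hp.1)
  have hpt : p = z + cis t0 := by rw [← ht0]; ring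
  rw [ht0, ip_smul, ip_I] at h0 k0
  rw [hpt] at hp
  obtain ⟨η, hη, hJ⟩ := hp.exists_eta
  have hs0 : s ≠ 0 := by rcases hs with rfl | rfl <;> norm_num
  have hs2 : s ^ 2 = 1 := by rcases hs with rfl | rfl <;> norm_num
  have hc0 : cr (cis t0) m' = 0 := by
    rcases mul_eq_zero.1 h0.symm with h1 | h1
    · exact absurd h1 hs0
    · exact h1
  set D := ip (cis t0) m' with hD
  have hD0 : D ≠ 0 := by
    intro h1
    have h2 := cr_sq_add_ip_sq (cis t0) m'
    rw [hc0, ← hD, h1, norm_cis, hm'] at h2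
    norm_num at h2
  -- rotate
  have cr_rot : ∀ (x : ℝ) (w : ℂ), cr (cis (t0 + x)) w =
      Real.cos x * cr (cis t0) w - Real.sin x * ip (cis t0) w := by
    intro x w
    unfold cr ip
    rw [cis_re, cis_im, cis_re, cis_im, Real.cos_add, Real.sin_add]
    ring
  have ev : ∀ᶠ x : ℝ in 𝓝 0, |x| < η ∧ |x| < 1 ∧ 0 < s * cr (cis (t0 + x)) m := by
    have e1 : Tendsto (fun x : ℝ => s * cr (cis (t0 + x)) m) (𝓝 0) (𝓝 (s * cr (cis t0) m)) := by
      have e2 : Continuous fun x : ℝ => s * cr (cis (t0 + x)) m := by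
        have : (fun x : ℝ => s * cr (cis (t0 + x)) m) = fun x : ℝ =>
            s * (Real.cos x * cr (cis t0) m - Real.sin x * ip (cis t0) m) := by
          funext x; rw [cr_rot]
        rw [this]
        fun_prop
      have e3 := e2.tendsto 0
      rwa [add_zero] at e3
    have e2 : Tendsto (fun x : ℝ => |x|) (𝓝 0) (𝓝 0) := by
      have := (continuous_abs.tendsto (0 : ℝ))
      rwa [abs_zero] at this
    exact (e2.eventually (Iio_mem_nhds hη)).and ((e2.eventually (Iio_mem_nhds one_pos)).and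
      (e1.eventually (Ioi_mem_nhds k0)))
  obtain ⟨δ, hδ, hball⟩ := Metric.eventually_nhds_iff_ball.1 ev
  have fin : ∀ x : ℝ, |x| < δ → x ≠ 0 → 0 < s * (Real.sin x * D) → False := by
    intro x hx hx0 hsx
    obtain ⟨e1, e2, e3⟩ := hball x (by rw [mem_ball, Real.dist_eq, sub_zero]; exact hx)
    have e4 : Arc T z (z + cis (t0 + x)) {a, b} := by
      refine ⟨dist_add_cis z _, ?_⟩
      have hη' : 0 < η - |x| := by linarith
      filter_upwards [mem_nhdsWithin_of_mem_nhds (near_circle (v := z + cis (t0 + x)) (M := z)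
        (dist_add_cis z _) hη'), self_mem_nhdsWithin] with q h1 h2
      obtain ⟨t, ht, rfl⟩ := h1 h2
      have e5 : z + (z + cis (t0 + x) - z) * cis t = z + cis (t0 + x + t) := by
        have : cis (t0 + x + t) = cis (t0 + x) * cis t := by
          unfold cis; rw [← Complex.exp_add]; congr 1; push_cast; ring
        rw [this]; ring
      rw [e5]
      refine hJ _ ?_
      have e6 : t0 + x + t - t0 = x + t := by ring
      rw [e6]
      calc |x + t| ≤ |x| + |t| := abs_add_le _ _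
        _ < η := by linarith
    obtain ⟨s', hs', rc, -⟩ := h.d0_sign hz.swap e4
    have e5 : z + cis (t0 + x) - z = cis (t0 + x) := by ring
    rw [e5] at rc
    have e6 := k _ rc
    have e7 := k' _ rc
    rw [ip_smul, ip_I] at e6 e7
    have e8 : s' = s := by
      rcases hs with rfl | rfl <;> rcases hs' with rfl | rfl
      · rfl
      · exfalso; linarith
      · exfalso; linarith
      · rfl
    rw [e8, cr_rot, hc0, mul_zero, zero_sub, ← hD] at e7
    linarith
  have hδ1 : 0 < min (δ / 2) 1 := lt_min (by linarith) one_pos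
  set x0 := min (δ / 2) 1 with hx0
  have hx1 : x0 ≤ 1 := min_le_right _ _
  have hx2 : x0 < δ := lt_of_le_of_lt (min_le_left _ _) (by linarith)
  have hsin : 0 < Real.sin x0 := Real.sin_pos_of_pos_of_lt_pi hδ1 (by linarith [Real.pi_gt_three])
  rcases lt_or_gt_of_ne (mul_ne_zero hs0 hD0) with h1 | h1
  · refine fin (-x0) (by rw [abs_neg, abs_of_pos hδ1]; exact hx2) (by linarith) ?_
    rw [Real.sin_neg]
    nlinarith
  · refine fin x0 (by rw [abs_of_pos hδ1]; exact hx2) (by linarith) ?_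
    nlinarith

theorem cis_inj {t s : ℝ} (h : cis t = cis s) (hts : |t - s| < 2) : t = s := by
  have h1 := congrArg Complex.re h
  have h2 := congrArg Complex.im h
  rw [cis_re, cis_re] at h1
  rw [cis_im, cis_im] at h2
  have h3 : Real.sin (t - s) = 0 := by
    rw [Real.sin_sub, h1, h2]; ring
  have h4 := abs_lt.1 hts
  have := (Real.sin_eq_zero_iff_of_lt_of_lt (by linarith [Real.pi_gt_three, h4.1])
    (by linarith [Real.pi_gt_three, h4.2])).1 h3
  linarith

/-- an exact arc has a point off any finite set -/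
theorem Arc.exists_off_fin {z p : ℂ} {P : Set (Fin k)} (h : Arc T z p P) {F : Set ℂ}
    (hF : F.Finite) : ∃ q, Arc T z q P ∧ q ∉ F := by
  obtain ⟨t0, ht0⟩ := exists_cis (u := p - z) (by rw [← dist_eq_norm]; exact h.1)
  have hpt : p = z + cis t0 := by rw [← ht0]; ring
  rw [hpt] at h
  obtain ⟨η, hη, hJ⟩ := h.exists_eta
  by_contra hcon
  push Not at hcon
  have hδ : 0 < min η 1 := lt_min hη one_pos
  have h1 : (Ioo t0 (t0 + min η 1)).Infinite := Ioo_infinite (by linarith)
  refine h1 (Set.Finite.of_injOn (f := fun t => z + cis t) (t := F) ?_ ?_ hF)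
  · intro t ht
    refine hcon _ ⟨dist_add_cis z _, ?_⟩
    have hη' : 0 < η - |t - t0| := by
      rw [abs_of_pos (by linarith [ht.1])]
      have := min_le_left η 1
      linarith [ht.2]
    filter_upwards [mem_nhdsWithin_of_mem_nhds (near_circle (v := z + cis t) (M := z)
      (dist_add_cis z _) hη'), self_mem_nhdsWithin] with q h1 h2
    obtain ⟨t', ht', rfl⟩ := h1 h2
    have e5 : z + (z + cis t - z) * cis t' = z + cis (t + t') := by
      have : cis (t + t') = cis t * cis t' := by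
        unfold cis; rw [← Complex.exp_add]; congr 1; push_cast; ring
      rw [this]; ring
    rw [e5]
    refine hJ _ ?_
    have e6 : t + t' - t0 = (t - t0) + t' := by ring
    rw [e6]
    calc |t - t0 + t'| ≤ |t - t0| + |t'| := abs_add_le _ _
      _ < η := by linarith
  · intro t ht t' ht' he
    have h2 := min_le_right η 1
    exact cis_inj (add_left_cancel he) (by
      rw [abs_lt]; constructor <;> linarith [ht.1, ht.2, ht'.1, ht'.2])

/-- the core of the theorem on cone labels -/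
theorem Irr.cone_aux (h : Irr U T) {z p q m n : ℂ} {a b c d : Fin k} (hz : DPt T z a b c d)
    (hp : Arc T z p {a, b}) (hq : Arc T z q {c, d}) {s t : ℝ} (hs : s = 1 ∨ s = -1)
    (ht : t = 1 ∨ t = -1)
    {uc ub : ℂ} (huc : uc = s * (Complex.I * (p - z))) (hub : ub = -(t * (Complex.I * (q - z))))
    (rc : Ray (U c) z uc) (rd : Ray (U d) z (-uc)) (rb : Ray (U b) z ub) (ra : Ray (U a) z (-ub))
    (kc : ∀ u, Ray (U c) z u → 0 ≤ ip u m) (kb' : ∀ u, Ray (U b) z u → ip u n ≤ 0)
    (C1 : 0 < ip uc m) (B1 : ip ub m < 0) (C2 : 0 < ip uc n)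
    (B2 : ip ub n < 0) (hord : 0 < cr ub uc * cr n m) : False := by
  have lag : ∀ x y : ℂ, cr ub uc * cr x y = ip ub x * ip uc y - ip ub y * ip uc x := by
    intro x y; unfold cr ip; ring
  have ipl : ∀ (α β : ℝ) (x : ℂ), ip (α * uc + β * ub) x = α * ip uc x + β * ip ub x := by
    intro α β x; rw [ip_add, ip_smul, ip_smul]
  rw [lag] at hord
  set X := -ip ub n with hX
  set Y := -ip ub m with hY
  set v := ip uc m with hv
  set u := ip uc n with hu
  have hX0 : 0 < X := by linarith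
  have hY0 : 0 < Y := by linarith
  have hXY : X * v < Y * u := by
    have : ip ub n * v - ip ub m * u = -(X * v) + Y * u := by rw [hX, hY]; ring
    rw [this] at hord; linarith
  -- the direction between, near `m`
  obtain ⟨m', ε, hm', hε, hfc, hle, hc'⟩ := h.cone_rule (v := ((X + 2 * Y : ℝ) : ℂ) * uc +
    ((u + 2 * v : ℝ) : ℂ) * ub) hz (by
      intro hr
      have h1 := kc _ hr
      rw [ipl] at h1
      have h2 : (X + 2 * Y) * v + (u + 2 * v) * ip ub m = X * v - Y * u := by rw [hY]; ring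
      rw [← hv, h2] at h1
      linarith)
  obtain ⟨nb, ε', hnb, hε', hfb, hle', hb'⟩ := h.cone_rule (v := ((2 * X + Y : ℝ) : ℂ) * uc +
    ((2 * u + v : ℝ) : ℂ) * ub) hz.swap.swap34 (by
      intro hr
      have h1 := kb' _ hr
      rw [ipl] at h1
      have h2 : (2 * X + Y) * u + (2 * u + v) * ip ub n = Y * u - X * v := by rw [hX]; ring
      rw [← hu, h2] at h1
      linarith)
  rw [ipl] at hle hle'
  have C1' : 0 < ip uc m' := by
    have := h.ray_strict hz hp hs kc (by rw [← huc]; exact C1) hm' hc' (by rw [← huc]; exact rc)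
    rwa [← huc] at this
  have ht' : -t = 1 ∨ -t = -1 := by
    rcases ht with rfl | rfl
    · exact Or.inr rfl
    · left; norm_num
  have hub' : ((-t : ℝ) : ℂ) * (Complex.I * (q - z)) = ub := by rw [hub]; push_cast; ring
  have ipn : ∀ x y : ℂ, ip x (-y) = -ip x y := by intro x y; unfold ip; simp; ring
  have B2' : 0 < ip ub nb := by
    have := h.ray_strict (a := c) (b := d) (c := b) (d := a) (m := -n) hz.swap.swap34 hq ht'
      (fun w hw => by rw [ipn]; linarith [kb' w hw])
      (by rw [hub', ipn]; linarith) hnb hb' (by rw [hub']; exact rb)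
    rwa [hub'] at this
  have hu0 : 0 < u := C2
  have hv0 : 0 < v := C1
  have B1' : ip ub m' < 0 := by
    by_contra hcon
    push Not at hcon
    have h1 : 0 < (X + 2 * Y) * ip uc m' := mul_pos (by linarith) C1'
    have h2 : 0 ≤ (u + 2 * v) * ip ub m' := mul_nonneg (by linarith) hcon
    linarith
  have C2' : ip uc nb < 0 := by
    by_contra hcon
    push Not at hcon
    have h1 : 0 ≤ (2 * X + Y) * ip uc nb := mul_nonneg (by linarith) hcon
    have h2 : 0 < (2 * u + v) * ip ub nb := mul_pos (by linarith) B2'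
    linarith
  -- order
  have hcB : 0 < (-ip ub m') * (-ip uc nb) := mul_pos (by linarith) (by linarith)
  have h1 : (X + 2 * Y) * ip uc m' ≤ (u + 2 * v) * (-ip ub m') := by linarith
  have h2 : (2 * u + v) * ip ub nb ≤ (2 * X + Y) * (-ip uc nb) := by linarith
  have h3 : ((X + 2 * Y) * ip uc m') * ((2 * u + v) * ip ub nb) ≤
      ((u + 2 * v) * (-ip ub m')) * ((2 * X + Y) * (-ip uc nb)) :=
    mul_le_mul h1 h2 (mul_nonneg (by linarith) B2'.le) (mul_nonneg (by linarith) (by linarith))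
  have h4 : ip ub nb * ip uc m' < (-ip ub m') * (-ip uc nb) := by
    have h5 : 0 < (X + 2 * Y) * (2 * u + v) := mul_pos (by linarith) (by linarith)
    refine lt_of_mul_lt_mul_left ?_ h5.le
    have h6 : (u + 2 * v) * (2 * X + Y) < (X + 2 * Y) * (2 * u + v) := by nlinarith
    have h7 := mul_lt_mul_of_pos_right h6 hcB
    linarith
  have h8 : 0 < cr ub uc * cr (-nb) m' := by
    rw [lag, ipn, ipn]
    linarith
  refine h.order_aux (n := -nb) (ε' := -ε') hz hp hq hs ht hε ?_ huc hub rc rd rb ra hm'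
    (by rw [norm_neg]; exact hnb) C1' B1' (by rw [ipn]; linarith) (by rw [ipn]; linarith) h8 hfc ?_
  · rcases hε' with rfl | rfl
    · exact Or.inr rfl
    · left; norm_num
  · have e1 : z + ((-ε' : ℝ) : ℂ) * -nb = z + ε' * nb := by push_cast; ring
    rw [e1]
    exact hfb.mono fun g hg => ⟨hg.1, by linarith [hg.2]⟩

/-- **Cone labels**: at most one unit vector `m` has all `c`-rays on its closed side and all `b`-rays
on the other closed side. -/
theorem Irr.cone_labels (h : Irr U T) {z m n : ℂ} {a b c d : Fin k} (hz : DPt T z a b c d)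
    (hm : ‖m‖ = 1) (hn : ‖n‖ = 1)
    (kc : ∀ u, Ray (U c) z u → 0 ≤ ip u m) (kb : ∀ u, Ray (U b) z u → ip u m ≤ 0)
    (kc' : ∀ u, Ray (U c) z u → 0 ≤ ip u n) (kb' : ∀ u, Ray (U b) z u → ip u n ≤ 0) : m = n := by
  by_contra hmn
  obtain ⟨p0, hp0⟩ := hz.arc1
  obtain ⟨q0, hq0⟩ := hz.arc2
  obtain ⟨p, hp, hpF⟩ := hp0.exists_off_fin (F := {z + m, z - m, z + n, z - n}) (by simp)
  obtain ⟨q, hq, hqF⟩ := hq0.exists_off_fin (F := {z + m, z - m, z + n, z - n, p, 2 * z - p})
    (by simp)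
  simp only [mem_insert_iff, mem_singleton_iff, not_or] at hpF hqF
  obtain ⟨p1, p2, p3, p4⟩ := hpF
  obtain ⟨q1, q2, q3, q4, q5, q6⟩ := hqF
  have dm : ∀ {w : ℂ}, ‖w‖ = 1 → dist (z + w) z = 1 := by
    intro w hw; rw [dist_eq_norm, add_sub_cancel_left]; exact hw
  have off : ∀ {w x : ℂ}, dist x z = 1 → ‖w‖ = 1 → x ≠ z + w → x ≠ z - w → cr (x - z) w ≠ 0 := by
    intro w x hx hw h1 h2
    have := cr_ne_of hx (dm hw) h1 (by intro h3; exact h2 (by linear_combination h3))
    rwa [add_sub_cancel_left] at this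
  obtain ⟨s, hs, rc, rd⟩ := h.d0_sign hz.swap hp
  obtain ⟨t, ht, ra, rb⟩ := h.d0_sign hz hq
  have hs0 : s ≠ 0 := by rcases hs with rfl | rfl <;> norm_num
  have ht0 : t ≠ 0 := by rcases ht with rfl | rfl <;> norm_num
  have ipn : ∀ x y : ℂ, ip (-x) y = -ip x y := by intro x y; unfold ip; simp; ring
  obtain ⟨uc, huc⟩ : ∃ uc : ℂ, uc = s * (Complex.I * (p - z)) := ⟨_, rfl⟩
  obtain ⟨ub, hub⟩ : ∃ ub : ℂ, ub = -(t * (Complex.I * (q - z))) := ⟨_, rfl⟩
  rw [← huc] at rc rd
  have ra' : Ray (U a) z (-ub) := by rw [hub, neg_neg]; exact ra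
  rw [← hub] at rb
  have ic : ∀ w, ip uc w = s * cr (p - z) w := by intro w; rw [huc, ip_smul, ip_I]
  have ib : ∀ w, ip ub w = -(t * cr (q - z) w) := by intro w; rw [hub, ipn, ip_smul, ip_I]
  have C1 : 0 < ip uc m := lt_of_le_of_ne (kc _ rc) (Ne.symm (by
    rw [ic]; exact mul_ne_zero hs0 (off hp.1 hm p1 p2)))
  have C2 : 0 < ip uc n := lt_of_le_of_ne (kc' _ rc) (Ne.symm (by
    rw [ic]; exact mul_ne_zero hs0 (off hp.1 hn p3 p4)))
  have B1 : ip ub m < 0 := lt_of_le_of_ne (kb _ rb) (by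
    rw [ib]; exact neg_ne_zero.2 (mul_ne_zero ht0 (off hq.1 hm q1 q2)))
  have B2 : ip ub n < 0 := lt_of_le_of_ne (kb' _ rb) (by
    rw [ib]; exact neg_ne_zero.2 (mul_ne_zero ht0 (off hq.1 hn q3 q4)))
  have hΔ : cr ub uc ≠ 0 := by
    have h1 : cr ub uc = -(t * s * cr (q - z) (p - z)) := by
      rw [hub, huc]; unfold cr; simp; ring
    rw [h1]
    refine neg_ne_zero.2 (mul_ne_zero (mul_ne_zero ht0 hs0) ?_)
    exact cr_ne_of hq.1 hp.1 q5 (by intro h3; exact q6 (by linear_combination h3))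
  have hcr : cr n m ≠ 0 := by
    intro h0
    rcases cr_zero hn hm h0 with h1 | h1
    · exact hmn h1.symm
    · have : ip uc n = -ip uc m := by
        rw [h1]; unfold ip; simp; ring
      linarith
  rcases lt_or_gt_of_ne (mul_ne_zero hΔ hcr) with h1 | h1
  · have h2 : 0 < cr ub uc * cr m n := by
      have : cr m n = -cr n m := by unfold cr; ring
      rw [this]; linarith
    exact h.cone_aux hz hp hq hs ht huc hub rc rd rb ra' kc' kb C2 B2 C1 B1 h2
  · exact h.cone_aux hz hp hq hs ht huc hub rc rd rb ra' kc kb' C1 B1 C2 B2 h1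

/-- **At most one lock `b` far, `c` near.** -/
theorem Irr.lock_unique (h : Irr U T) {z n n' : ℂ} {a b c d : Fin k} (hz : DPt T z a b c d)
    (hn : dist n z = 1) (hn' : dist n' z = 1) (s1 : Sd U z n a b) (s2 : Sd U z n c d)
    (hb : b ∈ Pal U n) (hc : c ∈ Pal U n) (s1' : Sd U z n' a b) (s2' : Sd U z n' c d)
    (hb' : b ∈ Pal U n') (hc' : c ∈ Pal U n') : n' = n := by
  have := h.cone_labels hz (by rw [← dist_eq_norm]; exact hn) (by rw [← dist_eq_norm]; exact hn')
    (h.mx.near_polar hn hc (s2.mono fun _ hx => hx.1))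
    (h.mx.far_polar hn hb (s1.mono fun _ hx => hx.2))
    (h.mx.near_polar hn' hc' (s2'.mono fun _ hx => hx.1))
    (h.mx.far_polar hn' hb' (s1'.mono fun _ hx => hx.2))
  linear_combination -this

/-- **If `b` is far and `c` is near at one point, they are never `b` near, `c` far.** -/
theorem Irr.lock_never (h : Irr U T) {z n n' : ℂ} {a b c d : Fin k} (hz : DPt T z a b c d)
    (hn : dist n z = 1) (hn' : dist n' z = 1) (s1 : Sd U z n a b) (s2 : Sd U z n c d)
    (hb : b ∈ Pal U n) (hc : c ∈ Pal U n) (s1' : Sd U z n' b a) (s2' : Sd U z n' d c)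
    (hb' : b ∈ Pal U n') (hc' : c ∈ Pal U n') : False := by
  have e3 : ∀ u, ip u (-(n' - z)) = -ip u (n' - z) := by intro u; unfold ip; simp; ring
  have := h.cone_labels hz (m := n - z) (n := -(n' - z)) (by rw [← dist_eq_norm]; exact hn)
    (by rw [norm_neg, ← dist_eq_norm]; exact hn')
    (h.mx.near_polar hn hc (s2.mono fun _ hx => hx.1))
    (h.mx.far_polar hn hb (s1.mono fun _ hx => hx.2))
    (fun u hu => by
      rw [e3]; linarith [h.mx.far_polar hn' hc' (s2'.mono fun _ hx => hx.2) u hu])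
    (fun u hu => by
      rw [e3]; linarith [h.mx.near_polar hn' hb' (s1'.mono fun _ hx => hx.1) u hu])
  have e4 : n' = 2 * z - n := by linear_combination this
  rw [e4] at hb'
  exact h.horn_locked hz hn s2 s1 hc hb hb'

end Vale.Agent.P032.Six
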