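import Vale.Agent.P032.R2.H659.Antip

/-!
# P032: the axis rule (wild)

`Irr.axis` : at a point `m` the colours `A` are on one side of `S(w)` only and the colours `B` on one
side of `S(w')` only.  If `T m ⊆ A ∪ B` then `w' = w` or `w' = 2 m - w`.

* `Irr.same_or_lock` : a crossed pair of colours of a two-pair point `w` at `m` on `S(w)` is on one
  side of `S(w)` or exact arcs of `S(m)` with this pair accumulate at `w`.
* `Irr.axis_dpt` : the axis rule for two two-pair points.
-/

open Set Filter Topology Metric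

noncomputable section

namespace Vale.Agent.P032.Six

variable {k : ℕ} {U : Fin k → Set ℂ} {T : ℂ → Set (Fin k)}

/-- near `m` the colours of `A` are absent on the side `s` of `S(w)` (`s = 1`: outside) -/
def Off (U : Fin k → Set ℂ) (w m : ℂ) (s : ℝ) (A : Set (Fin k)) : Prop :=
  ∀ i ∈ A, ∀ᶠ x in 𝓝 m, 0 < s * (dist x w - 1) → i ∉ Pal U x

/-- the colours of `A` are on one side of `S(w)` near `m` -/
def OneSide (U : Fin k → Set ℂ) (w m : ℂ) (A : Set (Fin k)) : Prop :=
  Off U w m 1 A ∨ Off U w m (-1) A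

theorem ray_side {m w u : ℂ} {s : ℝ} (hs : s = 1 ∨ s = -1) (hw : dist m w = 1)
    (hu : s * ip u (w - m) < 0) : ∀ᶠ r : ℝ in 𝓝[>] 0, 0 < s * (dist (m + r * u) w - 1) := by
  rcases hs with rfl | rfl
  · filter_upwards [ray_out hw (by linarith : ip u (w - m) < 0)] with r hr
    linarith
  · filter_upwards [ray_in hw (by linarith : 0 < ip u (w - m))] with r hr
    linarith

theorem ip_lt_one {n n' : ℂ} (hn : ‖n‖ = 1) (hn' : ‖n'‖ = 1) (h : cr n n' ≠ 0) {s : ℝ}
    (hs : s = 1 ∨ s = -1) : 0 < 1 + s * ip n n' := by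
  have h1 := cr_sq_add_ip_sq n n'
  rw [hn, hn'] at h1
  have h2 : 0 < cr n n' ^ 2 := by positivity
  have h3 : ip n n' ^ 2 < 1 := by nlinarith
  have h4 := abs_lt.1 ((sq_lt_one_iff_abs_lt_one _).1 h3)
  rcases hs with rfl | rfl <;> linarith [h4.1, h4.2]

/-- **Axis rule** -/
theorem Irr.axis (h : Irr U T) {w w' m : ℂ} {A B : Set (Fin k)} (hw : dist m w = 1)
    (hw' : dist m w' = 1) (hT : T m ⊆ A ∪ B) (h1 : OneSide U w m A) (h2 : OneSide U w' m B) :
    w = w' ∨ w + w' = 2 * m := by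
  by_contra hcon
  push Not at hcon
  obtain ⟨n1, n2⟩ := hcon
  have e1 : ∃ s : ℝ, (s = 1 ∨ s = -1) ∧ Off U w m s A := by
    rcases h1 with h1 | h1
    exacts [⟨1, Or.inl rfl, h1⟩, ⟨-1, Or.inr rfl, h1⟩]
  have e2 : ∃ s : ℝ, (s = 1 ∨ s = -1) ∧ Off U w' m s B := by
    rcases h2 with h2 | h2
    exacts [⟨1, Or.inl rfl, h2⟩, ⟨-1, Or.inr rfl, h2⟩]
  obtain ⟨s, hs, k1⟩ := e1
  obtain ⟨s', hs', k2⟩ := e2
  have dw : dist w m = 1 := by rw [dist_comm]; exact hw
  have dw' : dist w' m = 1 := by rw [dist_comm]; exact hw'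
  have hn : ‖w - m‖ = 1 := by rw [← dist_eq_norm]; exact dw
  have hn' : ‖w' - m‖ = 1 := by rw [← dist_eq_norm]; exact dw'
  have hcr : cr (w - m) (w' - m) ≠ 0 := cr_ne_of dw dw' n1 n2
  have hcr' : cr (w' - m) (w - m) ≠ 0 := cr_ne_of dw' dw n1.symm (by rw [add_comm]; exact n2)
  have hss : s * s' = 1 ∨ s * s' = -1 := by
    rcases hs with rfl | rfl <;> rcases hs' with rfl | rfl <;> norm_num
  have p1 := ip_lt_one hn hn' hcr hss
  have p2 := ip_lt_one hn' hn hcr' hss
  have hs2 : s * s = 1 := by rcases hs with rfl | rfl <;> norm_num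
  have hs2' : s' * s' = 1 := by rcases hs' with rfl | rfl <;> norm_num
  have q1 : ip (w - m) (w - m) = 1 := by rw [ip_self, hn]; norm_num
  have q2 : ip (w' - m) (w' - m) = 1 := by rw [ip_self, hn']; norm_num
  set u : ℂ := -((s : ℂ) * (w - m) + (s' : ℂ) * (w' - m)) with hu
  have u1 : s * ip u (w - m) < 0 := by
    rw [hu, ip_neg, ip_add, ip_smul, ip_smul, q1]
    have : s * -(s * 1 + s' * ip (w' - m) (w - m)) =
        -(s * s + s * s' * ip (w' - m) (w - m)) := by ring
    rw [this, hs2]; linarith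
  have u2 : s' * ip u (w' - m) < 0 := by
    rw [hu, ip_neg, ip_add, ip_smul, ip_smul, q2]
    have : s' * -(s * ip (w - m) (w' - m) + s' * 1) =
        -(s' * s' + s * s' * ip (w - m) (w' - m)) := by ring
    rw [this, hs2']; linarith
  have hA : ∀ᶠ x in 𝓝 m, ∀ i, i ∈ A → 0 < s * (dist x w - 1) → i ∉ Pal U x := by
    rw [eventually_all]
    intro i
    by_cases hi : i ∈ A
    · filter_upwards [k1 i hi] with x hx _ using hx
    · exact Eventually.of_forall fun x h3 => absurd h3 hi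
  have hB : ∀ᶠ x in 𝓝 m, ∀ i, i ∈ B → 0 < s' * (dist x w' - 1) → i ∉ Pal U x := by
    rw [eventually_all]
    intro i
    by_cases hi : i ∈ B
    · filter_upwards [k2 i hi] with x hx _ using hx
    · exact Eventually.of_forall fun x h3 => absurd h3 hi
  have ht := tendsto_ray m u
  obtain ⟨r, r1, r2, r3, r4, r5⟩ := ((ray_side hs hw u1).and ((ray_side hs' hw' u2).and
    ((ht.eventually hA).and ((ht.eventually hB).and (ht.eventually (h.nhd m)))))).exists
  obtain ⟨i, hi⟩ := h.ne (m + r * u)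
  rcases hT (r5 hi) with h3 | h3
  · exact r3 i h3 r1 (h.sub _ hi)
  · exact r4 i h3 r2 (h.sub _ hi)

theorem oneSide_nr {w m : ℂ} {a c : Fin k} (ha : NrC U w m a) (hc : NrC U w m c) :
    OneSide U w m {a, c} := by
  left
  rintro i (rfl | hi)
  · filter_upwards [ha.2] with x hx h1
    exact hx (by linarith)
  · rw [mem_singleton_iff] at hi; subst hi
    filter_upwards [hc.2] with x hx h1
    exact hx (by linarith)

theorem oneSide_fr {w m : ℂ} {a c : Fin k} (ha : FrC U w m a) (hc : FrC U w m c) :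
    OneSide U w m {a, c} := by
  right
  rintro i (rfl | hi)
  · filter_upwards [ha.2] with x hx h1
    exact hx (by linarith)
  · rw [mem_singleton_iff] at hi; subst hi
    filter_upwards [hc.2] with x hx h1
    exact hx (by linarith)

/-- a crossed pair of the two-pair point `w` at `m`: on one side, or exact arcs of `S(m)` with this
pair accumulate at `w` -/
theorem Irr.same_or_lock (h : Irr U T) {w m : ℂ} {a b c d : Fin k} (hw : DPt T w a b c d)
    (hm : dist m w = 1) (ha : a ∈ T m) (hc : c ∈ T m) :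
    OneSide U w m {a, c} ∨ ∃ᶠ q in 𝓝 w, Arc T m q {a, c} := by
  rcases h.nr_or_fr hw hm (h.sub _ ha) with h1 | h1 <;>
    rcases h.nr_or_fr hw.swap hm (h.sub _ hc) with h2 | h2
  · exact Or.inl (oneSide_nr h1 h2)
  · right
    have := h.locked_acc hw.swap.swap12 hm (h.sd_of_nr hw hm h1) (h.sd_of_fr hw.swap hm h2)
      (h.sub _ ha) (h.sub _ hc)
    refine this.mono fun q hq => ?_
    rw [pair_comm] at hq
    exact hq
  · right
    exact h.locked_acc hw.swap12 hm (h.sd_of_nr hw.swap hm h2) (h.sd_of_fr hw hm h1)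
      (h.sub _ hc) (h.sub _ ha)
  · exact Or.inl (oneSide_fr h1 h2)

/-- **Axis rule**, two two-pair points `w`, `w'` and a point `m` on both circles -/
theorem Irr.axis_dpt (h : Irr U T) {w w' m : ℂ} {a b c d a' b' c' d' : Fin k}
    (hw : DPt T w a b c d) (hw' : DPt T w' a' b' c' d') (hm : dist m w = 1) (hm' : dist m w' = 1)
    (n1 : w ≠ w') (n2 : w + w' ≠ 2 * m) (hT : T m = {a, c} ∪ {a', c'}) :
    (∃ᶠ q in 𝓝 w, Arc T m q {a, c}) ∨ ∃ᶠ q in 𝓝 w', Arc T m q {a', c'} := by
  have ha : a ∈ T m := by rw [hT]; simp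
  have hc : c ∈ T m := by rw [hT]; simp
  have ha' : a' ∈ T m := by rw [hT]; simp
  have hc' : c' ∈ T m := by rw [hT]; simp
  rcases h.same_or_lock hw hm ha hc with h1 | h1
  · rcases h.same_or_lock hw' hm' ha' hc' with h2 | h2
    · rcases h.axis hm hm' hT.subset h1 h2 with h3 | h3
      exacts [absurd h3 n1, absurd h3 n2]
    · exact Or.inr h2
  · exact Or.inl h1

end Vale.Agent.P032.Six
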