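import Vale.Agent.P032.R2.H659.Tie3L
import Vale.Agent.P032.R2.H659.Axis
import Vale.Agent.P032.S5.H358.NoSpec

/-!
# P032: no two-pair centre, the circles may carry T3 and crossed harmless contacts

`OkC3`: the letters of `S(z)` form a word with T3 contacts (`RawT3`), the closures of the exact arcs of
`S(z)` have at most three colours.  `no_D3`: if every two-pair centre is `OkC3` and the common points of
two centres with ends and all six colours have at most three colours (`Com4`), there is no two-pair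
centre.  `com4_of`: `Com4` from the axis rule.
-/

open Set Filter Topology Metric

noncomputable section

namespace Vale.Agent.P032.Net3

open Vale.Agent.P032.Six Vale.Agent.P032.Words Vale.Agent.P032.S5.H767 Vale.Agent.P032.S5.H349
open Vale.Agent.P032.Net.H672 Vale.Agent.P032.S5.H358


variable {U : Fin 6 → Set ℂ} {T : ℂ → Set (Fin 6)} {X : Set (Fin 6)} {z v q q' m : ℂ}
  {a b c d e f : Fin 6}

/-- the circle of `z` is a tie word without special ends -/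
structure OkC3 (U : Fin 6 → Set ℂ) (T : ℂ → Set (Fin 6)) (z : ℂ) : Prop where
  word : ∀ a b c d e f, Ctr U T z a b c d e f → RawT3 (Xs T z a b c d e f)
  ends : ∀ P : Set (Fin 6), P ⊆ T z → P.ncard = 2 → ∀ y, y ∈ closure (Ex T z P) →
    (T y).ncard ≤ 3

/-- the two exact palettes -/
theorem ctr_ends (C : Ctr U T z a b c d e f) (K : OkC3 U T z) {y : ℂ}
    (hy : y ∈ closure (Ex T z {a, b}) ∨ y ∈ closure (Ex T z {c, d})) : (T y).ncard ≤ 3 := by
  obtain ⟨⟨ab, ac, ad, ae, af⟩, ⟨bc, bd, be, bf⟩, ⟨cd, ce, cf⟩, ⟨de, df⟩, ef⟩ := nd_ne C.nd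
  rcases hy with hy | hy
  · refine K.ends _ ?_ (Set.ncard_pair ab) y hy
    rw [C.pal]; rintro i (rfl | rfl) <;> simp
  · refine K.ends _ ?_ (Set.ncard_pair cd) y hy
    rw [C.pal]; rintro i (rfl | rfl) <;> simp

/-- the common data -/
theorem marks_ok (C : Ctr U T z a b c d e f) (K : OkC3 U T z)
    (hX : X = {a, b, e}) (hcl : ∀ v, dist v z = 1 → T v = X → Cln T z v) {V : ℝ}
    (hv : En T X z (pt z V)) (hu : ∀ v', En T X z v' → v' = pt z V) (u : ℝ)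
    (h0 : u ∈ Xs T z a b c d e f 0) (h2 : u ∈ Xs T z a b c d e f 2) : ∃ n : ℤ, u = V + 6 * n := by
  obtain ⟨⟨ab, ac, ad, ae, af⟩, ⟨bc, bd, be, bf⟩, ⟨cd, ce, cf⟩, ⟨de, df⟩, ef⟩ := nd_ne C.nd
  have k2 := sub_of_closure C.irr (P := {a, b}) h2
  have hT : T (pt z u) = X := by
    symm
    refine Set.eq_of_subset_of_ncard_le ?_ ?_ (Set.toFinite _)
    · rw [hX]
      rintro i (rfl | rfl | rfl)
      · exact k2 (Or.inl rfl)
      · exact k2 (Or.inr rfl)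
      · exact h0.2
    · have : X.ncard = 3 := by
        rw [hX]; exact Set.ncard_eq_three.2 ⟨a, b, e, ab, ae, be, rfl⟩
      rw [this]; exact ctr_ends C K (Or.inl h2)
  exact pt_eq (hu _ (en_of_cln hv (dist_pt z u) hT (hcl _ (dist_pt z u) hT)))

/-- the common data, second type -/
theorem marks_ok' (C : Ctr U T z a b c d e f) (K : OkC3 U T z)
    (hX : Xᶜ = {c, d, f}) (hcl : ∀ v, dist v z = 1 → T v = Xᶜ → Cln T z v)
    (hq : En T Xᶜ z q) (u : ℝ) (h1 : u ∈ Xs T z a b c d e f 1) (h2 : u ∈ Xs T z a b c d e f 3) :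
    En T Xᶜ z (pt z u) := by
  obtain ⟨⟨ab, ac, ad, ae, af⟩, ⟨bc, bd, be, bf⟩, ⟨cd, ce, cf⟩, ⟨de, df⟩, ef⟩ := nd_ne C.nd
  have k2 := sub_of_closure C.irr (P := {c, d}) h2
  have hT : T (pt z u) = Xᶜ := by
    symm
    refine Set.eq_of_subset_of_ncard_le ?_ ?_ (Set.toFinite _)
    · rw [hX]
      rintro i (rfl | rfl | rfl)
      · exact k2 (Or.inl rfl)
      · exact k2 (Or.inr rfl)
      · exact h1.2
    · have : Xᶜ.ncard = 3 := by
        rw [hX]; exact Set.ncard_eq_three.2 ⟨c, d, f, cd, cf, df, rfl⟩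
      rw [this]; exact ctr_ends C K (Or.inr h2)
  exact en_of_cln hq (dist_pt z u) hT (hcl _ (dist_pt z u) hT)

/-- **L2** for ends: not exactly one end of each of two complementary types. -/
theorem L2_ok (h : Irr U T) (hX : X.ncard = 3) (K : OkC3 U T z)
    (hpairs : ∀ y, dist y z = 1 → (∀ᶠ q in 𝓝[sphere z 1] y, T q = T y) → T y ⊆ T z →
      T y = T z ∩ X ∨ T y = T z ∩ Xᶜ)
    (hcl : ∀ v, dist v z = 1 → T v = X ∨ T v = Xᶜ → Cln T z v)
    (hv : En T X z v) (hq : En T Xᶜ z q) :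
    (∃ v', v' ≠ v ∧ En T X z v') ∨ ∃ q', q' ≠ q ∧ En T Xᶜ z q' := by
  by_contra hcon
  push Not at hcon
  obtain ⟨hu, hu'⟩ := hcon
  obtain ⟨a, b, c, d, e, f, C, hXabe, hXcdf⟩ := exists_ctr h hX hpairs hv hq
  obtain ⟨V, rfl⟩ := exists_pt hv.2.2.2.1
  obtain ⟨Q, rfl⟩ := exists_pt hq.2.2.2.1
  refine (K.word _ _ _ _ _ _ C).L2 (V := V) (Q := Q)
    (end02 C (by rw [hv.1, hXabe]) (hcl _ hv.2.2.2.1 (Or.inl hv.1)))
    (end13 C (by rw [hq.1, hXcdf]) (hcl _ hq.2.2.2.1 (Or.inr hq.1))) ?_ ?_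
  · intro u h0 h2
    exact marks_ok C K hXabe (fun v h4 h5 => hcl v h4 (Or.inl h5)) hv
      (fun v' hv' => by by_contra hne; exact hu v' hne hv') u h0 h2
  · intro u h1 h4
    have := marks_ok' C K hXcdf (fun v h4 h5 => hcl v h4 (Or.inr h5)) hq u h1 h4
    refine pt_eq (z := z) ?_
    by_contra hne
    exact hu' _ hne this

/-- **L3** for ends: the centre is in the open triangle of the three ends. -/
theorem L3_ok (h : Irr U T) (hX : X.ncard = 3) (K : OkC3 U T z)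
    (hpairs : ∀ y, dist y z = 1 → (∀ᶠ q in 𝓝[sphere z 1] y, T q = T y) → T y ⊆ T z →
      T y = T z ∩ X ∨ T y = T z ∩ Xᶜ)
    (hcl : ∀ v, dist v z = 1 → T v = X ∨ T v = Xᶜ → Cln T z v)
    (hv : En T X z v) (hq : En T Xᶜ z q) (hq' : En T Xᶜ z q') (hne : q ≠ q')
    (hu : ∀ v', En T X z v' → v' = v) (hu' : ∀ p, En T Xᶜ z p → p = q ∨ p = q') :
    ∃ α β γ : ℝ, 0 < α ∧ 0 < β ∧ 0 < γ ∧
      (α : ℂ) * (v - z) + (β : ℂ) * (q - z) + (γ : ℂ) * (q' - z) = 0 := by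
  obtain ⟨a, b, c, d, e, f, C, hXabe, hXcdf⟩ := exists_ctr h hX hpairs hv hq
  have hvq : v ≠ q := hv.ne hX hq
  have hvq' : v ≠ q' := hv.ne hX hq'
  obtain ⟨V, rfl⟩ := exists_pt hv.2.2.2.1
  -- representatives
  have rep : ∀ {p : ℂ}, dist p z = 1 → pt z V ≠ p → ∃ Q, p = pt z Q ∧ V < Q ∧ Q < V + 6 := by
    intro p hp hVp
    obtain ⟨Q, hQ⟩ := exists_pt hp
    have hper : ∀ n : ℤ, ∀ u, pt z (u + 6 * n) = pt z u := by
      intro n
      induction n with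
      | zero => intro u; simp
      | succ i ih =>
        intro u
        have e1 : u + 6 * (((i : ℤ) + 1 : ℤ) : ℝ) = (u + 6 * ((i : ℤ) : ℝ)) + 6 := by
          push_cast; ring
        rw [e1, pt_six, ih]
      | pred i ih =>
        intro u
        have e1 : u + 6 * ((-(i : ℤ) - 1 : ℤ) : ℝ) + 6 = u + 6 * ((-(i : ℤ) : ℤ) : ℝ) := by
          push_cast; ring
        rw [← pt_six, e1, ih]
    have h1 := Int.floor_le ((Q - V) / 6)
    have h2 := Int.lt_floor_add_one ((Q - V) / 6)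
    have h4 : p = pt z (Q + 6 * ((-⌊(Q - V) / 6⌋ : ℤ) : ℝ)) := by rw [hper, hQ]
    refine ⟨Q + 6 * ((-⌊(Q - V) / 6⌋ : ℤ) : ℝ), h4, ?_, ?_⟩
    · refine lt_of_le_of_ne ?_ ?_
      · push_cast; linarith
      · intro h5
        exact hVp (by rw [h4, ← h5])
    · push_cast; linarith
  have main : ∀ {Q Q' : ℝ}, V < Q → Q < Q' → Q' < V + 6 → En T Xᶜ z (pt z Q) →
      En T Xᶜ z (pt z Q') → (∀ p, En T Xᶜ z p → p = pt z Q ∨ p = pt z Q') →
      ∃ α β γ : ℝ, 0 < α ∧ 0 < β ∧ 0 < γ ∧ (α : ℂ) * (pt z V - z) + (β : ℂ) * (pt z Q - z) +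
        (γ : ℂ) * (pt z Q' - z) = 0 := by
    intro Q Q' hVQ hQQ' hQ6 hEQ hEQ' hun
    obtain ⟨k1, k2, k4⟩ := (K.word _ _ _ _ _ _ C).L3 (V := V) (Q := Q) (Q' := Q')
      (end02 C (by rw [hv.1, hXabe]) (hcl _ hv.2.2.2.1 (Or.inl hv.1)))
      (fun u h0 h2 => marks_ok C K hXabe (fun v h4 h5 => hcl v h4 (Or.inl h5)) hv hu u h0 h2)
      (end13 C (by rw [hEQ.1, hXcdf]) (hcl _ hEQ.2.2.2.1 (Or.inr hEQ.1)))
      (end13 C (by rw [hEQ'.1, hXcdf]) (hcl _ hEQ'.2.2.2.1 (Or.inr hEQ'.1))) hVQ hQQ' hQ6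
      (fun u h1 h4 => by
        have := marks_ok' C K hXcdf (fun v h4 h5 => hcl v h4 (Or.inr h5)) hEQ u h1 h4
        rcases hun _ this with h5 | h5
        · obtain ⟨n, hn⟩ := pt_eq h5
          exact ⟨n, Or.inl hn⟩
        · obtain ⟨n, hn⟩ := pt_eq h5
          exact ⟨n, Or.inr hn⟩)
    have hpi := Real.pi_pos
    refine ⟨Real.sin (Q' * (Real.pi / 3) - Q * (Real.pi / 3)),
      Real.sin (V * (Real.pi / 3) - Q' * (Real.pi / 3)),
      Real.sin (Q * (Real.pi / 3) - V * (Real.pi / 3)), ?_, ?_, ?_, ?_⟩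
    · apply Real.sin_pos_of_pos_of_lt_pi
      · nlinarith
      · nlinarith
    · have e1 : V * (Real.pi / 3) - Q' * (Real.pi / 3) =
          (V + 6 - Q') * (Real.pi / 3) - 2 * Real.pi := by ring
      rw [e1, Real.sin_sub_two_pi]
      apply Real.sin_pos_of_pos_of_lt_pi
      · nlinarith
      · nlinarith
    · apply Real.sin_pos_of_pos_of_lt_pi
      · nlinarith
      · nlinarith
    · have := tri_id (V * (Real.pi / 3)) (Q * (Real.pi / 3)) (Q' * (Real.pi / 3))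
      unfold pt
      rw [add_sub_cancel_left, add_sub_cancel_left, add_sub_cancel_left]
      exact this
  obtain ⟨Q, hQ, hQ1, hQ2⟩ := rep hq.2.2.2.1 hvq
  obtain ⟨Q', hQ', hQ1', hQ2'⟩ := rep hq'.2.2.2.1 hvq'
  subst hQ
  subst hQ'
  rcases lt_trichotomy Q Q' with hlt | heq | hlt
  · exact main hQ1 hlt hQ2' hq hq' hu'
  · exact absurd (by rw [heq]) hne
  · obtain ⟨α, β, γ, h1, h2, h4, h5⟩ := main hQ1' hlt hQ2 hq' hq (fun p hp => (hu' p hp).symm)
    exact ⟨α, γ, β, h1, h4, h2, by linear_combination h5⟩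

/-- **L1** for the colours: `e` meets one of the two pairs. -/
theorem L1e_ok (C : Ctr U T z a b c d e f) (K : OkC3 U T z) :
    ∃ y, dist y z = 1 ∧ (T y = {a, b, e} ∨ T y = {c, d, e}) := by
  obtain ⟨⟨ab, ac, ad, ae, af⟩, ⟨bc, bd, be, bf⟩, ⟨cd, ce, cf⟩, ⟨de, df⟩, ef⟩ := nd_ne C.nd
  obtain ⟨u, h0, h2 | h2⟩ := (K.word _ _ _ _ _ _ C).L1e
  · have k2 := sub_of_closure C.irr (P := {a, b}) h2
    refine ⟨pt z u, dist_pt z u, Or.inl (Eq.symm (Set.eq_of_subset_of_ncard_le ?_ ?_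
      (Set.toFinite _)))⟩
    · rintro i (rfl | rfl | rfl)
      · exact k2 (Or.inl rfl)
      · exact k2 (Or.inr rfl)
      · exact h0.2
    · rw [Set.ncard_eq_three.2 ⟨a, b, e, ab, ae, be, rfl⟩]; exact ctr_ends C K (Or.inl h2)
  · have k2 := sub_of_closure C.irr (P := {c, d}) h2
    refine ⟨pt z u, dist_pt z u, Or.inr (Eq.symm (Set.eq_of_subset_of_ncard_le ?_ ?_
      (Set.toFinite _)))⟩
    · rintro i (rfl | rfl | rfl)
      · exact k2 (Or.inl rfl)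
      · exact k2 (Or.inr rfl)
      · exact h0.2
    · rw [Set.ncard_eq_three.2 ⟨c, d, e, cd, ce, de, rfl⟩]; exact ctr_ends C K (Or.inr h2)


/-! ### the network -/

theorem good_of_ee (h : Irr U T) (hK : ∀ z a b c d, DPt T z a b c d → OkC3 U T z)
    (hv : EE T z v) : OkC3 U T z := by
  obtain ⟨a, b, c, d, h1, h2⟩ := hv.names
  exact hK z a b c d (hv.dpt h h1 h2)

/-- the network -/
theorem net_ok (h : Irr U T) (h4 : ∀ z, (T z).ncard ≤ 4)
    (hK : ∀ z a b c d, DPt T z a b c d → OkC3 U T z) (X : Set (Fin 6)) :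
    Vale.Agent.P032.Net.H672.Net (fun z v => EE T z v ∧ T v = X)
      (fun z q => EE T z q ∧ T q = Xᶜ) := by
  have hX3 : ∀ {z v}, EE T z v ∧ T v = X → X.ncard = 3 := by
    rintro z v ⟨h1, rfl⟩; exact h1.card_v
  have hX3' : ∀ {z v}, EE T z v ∧ T v = Xᶜ → X.ncard = 3 := by
    rintro z v ⟨h1, h2⟩
    have h3 := h1.card_v
    rw [h2] at h3
    have := Set.ncard_add_ncard_compl X
    rw [Nat.card_eq_fintype_card, Fintype.card_fin] at this
    omega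
  have hc : ∀ {z v z' q}, EE T z v ∧ T v = X → EE T z' q ∧ T q = Xᶜ → T q = (T v)ᶜ := by
    rintro z v z' q ⟨-, h1⟩ ⟨-, h2⟩
    rw [h1, h2]
  have hc' : ∀ {z v z' q}, EE T z v ∧ T v = X → EE T z' q ∧ T q = Xᶜ → T v = (T q)ᶜ := by
    rintro z v z' q ⟨-, h1⟩ ⟨-, h2⟩
    rw [h1, h2, compl_compl]
  have back : ∀ {z v q v'}, EE T z v ∧ T v = X → EE T z q ∧ T q = Xᶜ → En T X z v' →
      EE T z v' ∧ T v' = X := fun hv hq hv' =>
    ⟨hv'.ee (hX3 hv) (hv.1.arc_compl hv.2), hv'.1⟩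
  have back' : ∀ {z v q v'}, EE T z v ∧ T v = X → EE T z q ∧ T q = Xᶜ → En T Xᶜ z v' →
      EE T z v' ∧ T v' = Xᶜ := fun hv hq hv' =>
    ⟨hv'.ee (ncard_compl_three (hX3 hv)) (hq.1.arc_compl hq.2), hv'.1⟩
  have h3 : ∀ {z v}, EE T z v → OkC3 U T z := fun hv => (good_of_ee h hK hv)
  have hcl : ∀ {z v q}, EE T z v ∧ T v = X → EE T z q ∧ T q = Xᶜ → ∀ m, dist m z = 1 →
      T m = X ∨ T m = Xᶜ → Vale.Agent.P032.S5.H349.Cln T z m := by
    rintro z v q hv hq m hm (h5 | h5)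
    · exact hv.1.cln h h4 hq.1 (hc hv hq) hm (h5.trans hv.2.symm)
    · exact hq.1.cln h h4 hv.1 (hc' hv hq) hm (h5.trans hq.2.symm)
  refine
    { dist_t := fun hv => hv.1.dist
      dist_c := fun hq => hq.1.dist
      ne := fun {z z' v} hv hq => ?_
      rh := fun {z v q} hv hq => ⟨⟨hv.1.rh h h4 hq.1 (hc hv hq), hv.2⟩,
        ⟨hv.1.rh' h h4 hq.1 (hc hv hq), hq.2⟩⟩
      three_t := ?_
      three_c := ?_
      sep := ?_
      L2 := ?_
      L3 := ?_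
      L3' := ?_ }
  · have h5 := (hv.1.en hv.2).ne (hX3 hv) (hq.1.en hq.2)
    exact h5 rfl
  · rintro v z₁ z₂ z₃ z₄ ⟨a1, q1, b1⟩ ⟨a2, q2, b2⟩ ⟨a3, q3, b3⟩ ⟨a4, q4, b4⟩
    exact h.en_three (hX3 a1) ⟨a1.1.en a1.2, q1, b1.1.en b1.2⟩ ⟨a2.1.en a2.2, q2, b2.1.en b2.2⟩
      ⟨a3.1.en a3.2, q3, b3.1.en b3.2⟩ ⟨a4.1.en a4.2, q4, b4.1.en b4.2⟩
  · rintro q z₁ z₂ z₃ z₄ ⟨a1, q1, b1⟩ ⟨a2, q2, b2⟩ ⟨a3, q3, b3⟩ ⟨a4, q4, b4⟩
    have e : ∀ {z v}, EE T z v ∧ T v = X → En T Xᶜᶜ z v := fun hv =>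
      hv.1.en (by rw [compl_compl]; exact hv.2)
    exact h.en_three (X := Xᶜ) (ncard_compl_three (hX3' a1))
      ⟨a1.1.en a1.2, q1, e b1⟩ ⟨a2.1.en a2.2, q2, e b2⟩
      ⟨a3.1.en a3.2, q3, e b3⟩ ⟨a4.1.en a4.2, q4, e b4⟩
  · rintro z v₁ v₂ q₁ q₂ hv₁ hv₂ hq₁ hq₂
    have e : ∀ {v q}, EE T z v ∧ T v = X → EE T z q ∧ T q = Xᶜ → T v ∩ T z = T z \ T q := by
      rintro v q ⟨-, h1⟩ ⟨-, h2⟩
      rw [h1, h2, Set.sdiff_compl, inter_comm]
    have l1 := hq₁.1.lp2 h hv₁.1 hv₂.1 (e hv₁ hq₁) (e hv₂ hq₁)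
    have l2 := hq₂.1.lp2 h hv₁.1 hv₂.1 (e hv₁ hq₂) (e hv₂ hq₂)
    have nz : ∀ {v q}, EE T z v ∧ T v = X → EE T z q ∧ T q = Xᶜ →
        cr (q - z) (v - z) ≠ 0 := by
      intro v q hv hq
      refine cr_ne_of hq.1.dist hv.1.dist ((hv.1.en hv.2).ne (hX3 hv) (hq.1.en hq.2)).symm ?_
      rw [add_comm]
      exact hv.1.anti h hq.1 (hc hv hq)
    have n11 := nz hv₁ hq₁
    have n21 := nz hv₂ hq₁
    have n12 := nz hv₁ hq₂
    have n22 := nz hv₂ hq₂
    have hP : (0 < cr (q₁ - z) (v₁ - z) * cr (q₁ - z) (v₂ - z)) ↔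
        0 < cr (q₂ - z) (v₁ - z) * cr (q₂ - z) (v₂ - z) := l1.symm.trans l2
    have hpos : 0 < (cr (q₁ - z) (v₁ - z) * cr (q₁ - z) (v₂ - z)) *
        (cr (q₂ - z) (v₁ - z) * cr (q₂ - z) (v₂ - z)) := by
      rcases lt_or_gt_of_ne (mul_ne_zero n11 n21) with h5 | h5
      · rcases lt_or_gt_of_ne (mul_ne_zero n12 n22) with h6 | h6
        · exact mul_pos_of_neg_of_neg h5 h6
        · exact absurd (hP.2 h6) (not_lt.2 h5.le)
      · exact mul_pos h5 (hP.1 h5)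
    refine hpos.trans_le (le_of_eq ?_)
    unfold cr Vale.Agent.P032.Net.H672.dt
    ring
  · intro z v q hv hq
    rcases L2_ok h (hX3 hv) (h3 hv.1) (hv.1.pairs h hv.2) (hcl hv hq) (hv.1.en hv.2)
      (hq.1.en hq.2) with ⟨v', h5, h6⟩ | ⟨q', h5, h6⟩
    · exact Or.inl ⟨v', h5, back hv hq h6⟩
    · exact Or.inr ⟨q', h5, back' hv hq h6⟩
  · intro z v q q' hv hq hq' hne hu1 hu2
    exact L3_ok h (hX3 hv) (h3 hv.1) (hv.1.pairs h hv.2) (hcl hv hq) (hv.1.en hv.2)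
      (hq.1.en hq.2) (hq'.1.en hq'.2) hne (fun v' h5 => hu1 v' (back hv hq h5))
      (fun p h5 => hu2 p (back' hv hq h5))
  · intro z q v v' hq hv hv' hne hu1 hu2
    have e : ∀ {z v}, EE T z v ∧ T v = X → T v = Xᶜᶜ := fun hv => by
      rw [compl_compl]; exact hv.2
    refine L3_ok (X := Xᶜ) h (ncard_compl_three (hX3 hv)) (h3 hv.1) (hq.1.pairs h hq.2) ?_
      (hq.1.en hq.2) (hv.1.en (e hv)) (hv'.1.en (e hv')) hne
      (fun v' h5 => hu1 v' (back' hv hq h5))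
      (fun p h5 => hu2 p (back hv hq (by rw [compl_compl] at h5; exact h5)))
    intro m hm h5
    refine hcl hv hq m hm ?_
    rw [compl_compl] at h5
    exact h5.symm

/-- the other end of an arc -/
theorem arc_ex_ok (h : Irr U T) (K : OkC3 U T z) (hv : EE T z v)
    (hq : EE T z q) (hc : T q = (T v)ᶜ) : ∃ v', AA T z v v' := by
  obtain ⟨l, hl0, hl, hE, hp, harc⟩ := far' h (K.ends _ inter_subset_left hv.card_i) hv.ore813
    hq.ore813 (by
      rw [hc, Set.disjoint_left]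
      rintro i ⟨-, h1⟩ h2
      exact h2 h1)
  exact ⟨_, _, l, hl0, hl, hv.ore813, hE, rfl, harc⟩

/-- the arc fields -/
theorem arcFields_ok (h : Irr U T) (h4 : ∀ z, (T z).ncard ≤ 4)
    (hK : ∀ z a b c d, DPt T z a b c d → OkC3 U T z) : ArcFields U T (AA T) where
  arc_ex := by
    rintro z v ⟨hv, q, hq, hc⟩
    exact arc_ex_ok h (good_of_ee h hK hv) hv hq hc
  arc_end := EE.fld_end
  arc_pair := EE.fld_pair
  arc_len := EE.fld_len h h4
  arc_uniq := EE.fld_uniq h h4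
  arc_symm := EE.fld_symm
  arc_ori := EE.fld_ori h h4
  arc_inn := EE.fld_inn h

/-- a common point of the circles of two centres with ends which have all six colours has at most
three colours -/
def Com4 (T : ℂ → Set (Fin 6)) : Prop :=
  ∀ {w v q w' v' q' m : ℂ}, EE T w v → EE T w q → T q = (T v)ᶜ → EE T w' v' → EE T w' q' →
    T q' = (T v')ᶜ → w ≠ w' → (∀ i, i ∈ T w ∨ i ∈ T w') → dist m w = 1 → dist m w' = 1 →
    w + w' ≠ 2 * m → (T v ∩ T w ∩ T w').ncard = 1 → (T v' ∩ T w' ∩ T w).ncard = 1 →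
    (T m).ncard ≤ 3

/-- the network with palettes -/
theorem dnet_ok (h : Irr U T) (h4 : ∀ z, (T z).ncard ≤ 4)
    (hK : ∀ z a b c d, DPt T z a b c d → OkC3 U T z) (h5 : Com4 T) :
    DNet T (EE T) (AA T) (ore T) (inn U T) where
  net := net_ok h h4 hK
  card_z := fun hv => hv.card_z
  card_v := fun hv => hv.card_v
  card_i := fun hv => hv.card_i'
  cov := fun hv hq hc => hv.cov h h4 hq hc
  ori := fun {z v} _ => ore_or T z v
  inn_mem := fun hv => hv.inn_mem h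
  LP1 := fun hv hq hc => hv.lp1 h h4 hq hc
  LP2 := fun hq hv hv' h1 h2 => hq.1.lp2 h hv.1 hv'.1 h1 h2
  LP3 := fun hv hq hc hv' hp hc' hcz hcw => hv.lp3 h h4 hq hc hv' hp hc' hcz hcw
  arc_ex := (arcFields_ok h h4 hK).arc_ex
  arc_end := EE.fld_end
  arc_pair := EE.fld_pair
  arc_len := EE.fld_len h h4
  arc_uniq := EE.fld_uniq h h4
  arc_symm := EE.fld_symm
  arc_ori := EE.fld_ori h h4
  arc_inn := EE.fld_inn h
  auto := fun hv hq hc hm hTm => hv.auto h h4 hq hc hm hTm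
  common := fun e1 e2 e3 e1' e2' e3' hne hcv d d' n s s' =>
    e1.common h e3 e1' e3' hne hcv d d' n s s' (h5 e1 e2 e3 e1' e2' e3' hne hcv d d' n s s')
  lemX := fun hu' hpu hpr ht hT => hu'.lemX h hpu hpr ht hT

/-- **No complementary ends**, good circles -/
theorem no_compl_ok (h : Irr U T) (h4 : ∀ z, (T z).ncard ≤ 4)
    (hK : ∀ z a b c d, DPt T z a b c d → OkC3 U T z) (h5 : Com4 T) {z v q : ℂ}
    (hv : EE T z v) (hq : EE T z q) (hc : T q = (T v)ᶜ) : False :=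
  (dnet_ok h h4 hK h5).false hv hq hc

/-! ### the start -/

/-- **Start of the network argument** -/
theorem start_ok (h : Irr U T) (h4 : ∀ z, (T z).ncard ≤ 4) (hz : DPt T z a b c d)
    (K : OkC3 U T z) : ∃ v q, EE T z v ∧ EE T z q ∧ T q = (T v)ᶜ := by
  obtain ⟨e, f, nd⟩ := hz.exists_nodup
  have C := ctr_of_dpt h hz nd
  have nd' : [a, b, c, d, f, e].Nodup := by
    have : [a, b, c, d, f, e].Perm [a, b, c, d, e, f] := by
      refine List.Perm.cons _ (List.Perm.cons _ (List.Perm.cons _ (List.Perm.cons _ ?_)))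
      exact List.Perm.swap _ _ _
    exact this.nodup_iff.2 nd
  have C' := ctr_of_dpt h hz nd'
  obtain ⟨⟨ab, ac, ad, ae, af⟩, ⟨bc, bd, be, bf⟩, ⟨cd, ce, cf⟩, ⟨de, df⟩, ef⟩ := nd_ne nd
  have he : e ∉ T z := by
    rw [hz.pal]
    simp only [mem_insert_iff, mem_singleton_iff, not_or]
    exact ⟨ae.symm, be.symm, ce.symm, de.symm⟩
  have hf : f ∉ T z := by
    rw [hz.pal]
    simp only [mem_insert_iff, mem_singleton_iff, not_or]
    exact ⟨af.symm, bf.symm, cf.symm, df.symm⟩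
  -- the two kinds of complementary pairs
  have fin1 : ∀ {V Q : ℂ}, dist V z = 1 → dist Q z = 1 → T V = {a, b, e} → T Q = {c, d, f} →
      ∃ v q, EE T z v ∧ EE T z q ∧ T q = (T v)ᶜ := by
    intro V Q hV hQ h1 h2
    exact ⟨V, Q, Cfg.ends h ⟨hz, hV, hQ, h1, h2, he, hf, ef⟩ (h4 _)⟩
  have fin2 : ∀ {V Q : ℂ}, dist V z = 1 → dist Q z = 1 → T V = {a, b, f} → T Q = {c, d, e} →
      ∃ v q, EE T z v ∧ EE T z q ∧ T q = (T v)ᶜ := by
    intro V Q hV hQ h1 h2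
    exact ⟨V, Q, Cfg.ends h ⟨hz, hV, hQ, h1, h2, hf, he, ef.symm⟩ (h4 _)⟩
  obtain ⟨y1, d1, k1⟩ := L1e_ok C K
  obtain ⟨y2, d2, k2⟩ := L1e_ok C' K
  obtain ⟨y3, g3, d3, hg3, k3⟩ := arc_end_ok h hz fun y hy => ctr_ends C K (Or.inl hy)
  obtain ⟨y4, g4, d4, hg4, k4⟩ := arc_end_ok h hz.swap fun y hy => ctr_ends C K (Or.inr hy)
  rcases C.miss hg3 with rfl | rfl
  · -- `y3 = abe`
    rcases C.miss hg4 with rfl | rfl
    · -- `y4 = cde`
      rcases k2 with k2 | k2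
      · exact fin2 d2 d4 k2 k4
      · exact fin1 d3 d2 k3 k2
    · exact fin1 d3 d4 k3 k4
  · -- `y3 = abf`
    rcases C.miss hg4 with rfl | rfl
    · exact fin2 d3 d4 k3 k4
    · rcases k1 with k1 | k1
      · exact fin1 d1 d4 k1 k4
      · exact fin2 d3 d1 k3 k1

/-- **No two-pair centre**, good circles -/
theorem no_D3 (h : Irr U T) (h4 : ∀ z, (T z).ncard ≤ 4)
    (hK : ∀ z a b c d, DPt T z a b c d → OkC3 U T z) (h5 : Com4 T) :
    ∀ z a b c d, DPt T z a b c d → False := by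
  intro z a b c d hz
  obtain ⟨v, q, hv, hq, hc⟩ := start_ok h h4 hz (hK z a b c d hz)
  exact no_compl_ok h h4 hK h5 hv hq hc


/-! ### the hypothesis `Com4` from the axis rule -/

theorem dpt_split (h : Irr U T) {w v : ℂ} {S : Set (Fin 6)} (hv : EE T w v)
    (h1 : (T v ∩ T w ∩ S).ncard = 1) (h2 : (T w ∩ S).ncard = 2) :
    ∃ a b c d, DPt T w a b c d ∧ a ∉ S ∧ b ∈ S ∧ c ∉ S ∧ d ∈ S := by
  obtain ⟨a, b, c, d, e1, e2⟩ := hv.names
  have hz := hv.dpt h e1 e2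
  -- the first pair
  have k1 : ∃ a b, DPt T w a b c d ∧ a ∉ S ∧ b ∈ S := by
    obtain ⟨x, hx⟩ := Set.ncard_eq_one.1 h1
    have hxm : x ∈ T v ∩ T w ∩ S := by rw [hx]; rfl
    have hxp : x ∈ ({a, b} : Set (Fin 6)) := by rw [← e1]; exact ⟨hxm.1.2, hxm.1.1⟩
    have key : ∀ y, y ∈ ({a, b} : Set (Fin 6)) → y ≠ x → y ∉ S := by
      intro y hy hyx hyS
      rw [← e1] at hy
      have : y ∈ T v ∩ T w ∩ S := ⟨⟨hy.2, hy.1⟩, hyS⟩
      rw [hx] at this
      exact hyx this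
    rcases hxp with rfl | hxb
    · exact ⟨b, x, hz.swap12, key b (by simp) hz.ab.symm, hxm.2⟩
    · rw [mem_singleton_iff] at hxb
      subst hxb
      exact ⟨a, x, hz, key a (by simp) hz.ab, hxm.2⟩
  obtain ⟨a', b', hz', ha', hb'⟩ := k1
  have hbw : b' ∈ T w ∩ S := ⟨by rw [hz'.pal]; simp, hb'⟩
  obtain ⟨y, hy, hyb⟩ : ∃ y ∈ T w ∩ S, y ≠ b' := by
    by_contra hcon
    push Not at hcon
    have : (T w ∩ S).ncard ≤ ({b'} : Set (Fin 6)).ncard :=
      Set.ncard_le_ncard (fun y hy => hcon y hy) (Set.toFinite _)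
    rw [Set.ncard_singleton, h2] at this
    omega
  have hcd : ¬ (c ∈ S ∧ d ∈ S) := by
    rintro ⟨hc, hd⟩
    have h3 : ({b', c, d} : Set (Fin 6)) ⊆ T w ∩ S := by
      rintro i (rfl | rfl | rfl)
      · exact hbw
      · exact ⟨by rw [hz'.pal]; simp, hc⟩
      · exact ⟨by rw [hz'.pal]; simp, hd⟩
    have h4 := Set.ncard_le_ncard h3 (Set.toFinite _)
    rw [Set.ncard_eq_three.2 ⟨b', c, d, hz'.bc, hz'.bd, hz'.cd, rfl⟩, h2] at h4
    omega
  have hyw := hy.1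
  rw [hz'.pal] at hyw
  simp only [mem_insert_iff, mem_singleton_iff] at hyw
  rcases hyw with rfl | rfl | rfl | rfl
  · exact absurd hy.2 ha'
  · exact absurd rfl hyb
  · exact ⟨a', b', d, y, hz'.swap34, ha', hb', fun hd => hcd ⟨hy.2, hd⟩, hy.2⟩
  · exact ⟨a', b', c, y, hz', ha', hb', fun hc => hcd ⟨hc, hy.2⟩, hy.2⟩

/-- **`Com4`** if two points of order at least four at distance one have at most two common colours and
there is no mixed lock at a two-pair point -/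
theorem com4_of (h : Irr U T)
    (two : ∀ {x y : ℂ}, dist y x = 1 → 4 ≤ (T y).ncard → 4 ≤ (T x).ncard → (T y ∩ T x).ncard ≤ 2)
    (nr : ∀ {w m : ℂ} {a b c d : Fin 6}, DPt T w a b c d → dist m w = 1 → 4 ≤ (T m).ncard →
      a ∈ T m → c ∈ T m → b ∉ T m → d ∉ T m → ¬ ∃ᶠ q in 𝓝 w, Arc T m q {a, c}) :
    Com4 T := by
  intro w v q w' v' q' m e1 _ _ e1' _ _ hne hcov hmw hmw' hne2 hs hs'
  by_contra hcon
  push Not at hcon
  have h4m : 4 ≤ (T m).ncard := hcon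
  have c1 := e1.card_z
  have c2 := e1'.card_z
  have t1 := two hmw h4m (by omega)
  have t2 := two hmw' h4m (by omega)
  have hun : T w ∪ T w' = univ := eq_univ_of_forall hcov
  have hcard : (T w ∩ T w').ncard = 2 := by
    have h1 := Set.ncard_union_add_ncard_inter (T w) (T w') (Set.toFinite _) (Set.toFinite _)
    rw [hun, Set.ncard_univ, Nat.card_eq_fintype_card, Fintype.card_fin, c1, c2] at h1
    omega
  have hm : T m = (T m ∩ T w) ∪ (T m ∩ T w') := by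
    rw [← inter_union_distrib_left, hun, inter_univ]
  have h6 := Set.ncard_union_add_ncard_inter (T m ∩ T w) (T m ∩ T w') (Set.toFinite _)
    (Set.toFinite _)
  rw [← hm] at h6
  have h7 : ((T m ∩ T w) ∩ (T m ∩ T w')).ncard = 0 := by omega
  have h8 : (T m ∩ T w).ncard = 2 := by omega
  have h9 : (T m ∩ T w').ncard = 2 := by omega
  have h10 : ∀ i, i ∈ T m → i ∈ T w → i ∉ T w' := by
    intro i a1 a2 a3
    rw [Set.ncard_eq_zero (Set.toFinite _)] at h7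
    have : i ∈ ((T m ∩ T w) ∩ (T m ∩ T w')) := ⟨⟨a1, a2⟩, ⟨a1, a3⟩⟩
    rw [h7] at this
    exact this
  obtain ⟨a, b, c, d, hz, ha, hb, hc, hd⟩ := dpt_split h e1 hs hcard
  obtain ⟨a', b', c', d', hz', ha', hb', hc', hd'⟩ := dpt_split h e1' hs'
    (by rw [inter_comm]; exact hcard)
  have key : ∀ {w w' : ℂ} {a b c d : Fin 6}, DPt T w a b c d → b ∈ T w' → d ∈ T w' →
      (T m ∩ T w).ncard = 2 → (∀ i, i ∈ T m → i ∈ T w → i ∉ T w') →
      T m ∩ T w = {a, c} ∧ b ∉ T m ∧ d ∉ T m := by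
    intro w w' a b c d hz hb hd h8 h10
    have hbm : b ∉ T m := fun h1 => h10 b h1 (by rw [hz.pal]; simp) hb
    have hdm : d ∉ T m := fun h1 => h10 d h1 (by rw [hz.pal]; simp) hd
    refine ⟨?_, hbm, hdm⟩
    refine Set.eq_of_subset_of_ncard_le ?_ (by rw [h8]; exact (Set.ncard_pair hz.ac).le) (Set.toFinite _)
    rintro i ⟨h1, h2⟩
    rw [hz.pal] at h2
    simp only [mem_insert_iff, mem_singleton_iff] at h2 ⊢
    rcases h2 with rfl | rfl | rfl | rfl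
    · exact Or.inl rfl
    · exact absurd h1 hbm
    · exact Or.inr rfl
    · exact absurd h1 hdm
  obtain ⟨k1, k2, k3⟩ := key hz hb hd h8 h10
  obtain ⟨k1', k2', k3'⟩ := key hz' hb' hd' h9 fun i a1 a2 a3 => h10 i a1 a3 a2
  have hT : T m = {a, c} ∪ {a', c'} := by rw [← k1, ← k1']; exact hm
  have am : a ∈ T m := by rw [hT]; simp
  have cm : c ∈ T m := by rw [hT]; simp
  have am' : a' ∈ T m := by rw [hT]; simp
  have cm' : c' ∈ T m := by rw [hT]; simp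
  rcases h.axis_dpt hz hz' hmw hmw' hne hne2 hT with h11 | h11
  · exact nr hz hmw h4m am cm k2 k3 h11
  · exact nr hz' hmw' h4m am' cm' k2' k3' h11


end Vale.Agent.P032.Net3
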