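import Vale.Agent.P032.R2.H264.Wd
import Vale.Agent.P032.R2.H137.Roots
import Vale.Agent.P032.R2.H609.Typ

/-!
# P032: the world of the root `rdS2`

`z = {a, b | c, d}` (ring `0`), `w = {a, c | e, f}` (ring `1`), `y = {a, e | b, f}` (letters only, ring `2`),
`y` and `w` on the circle of `z`; the anchor time `u0` is the time of `y`.
-/

set_option autoImplicit false

open Set Filter Topology Metric

noncomputable section

namespace Vale.Agent.P032.R2.H659

open Vale.Agent.P032.Six Vale.Agent.P032.Words Vale.Agent.P032.S5.H767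
open Vale.Agent.P032.R2.H741.Tp Vale.Agent.P032.R2.H264 Vale.Agent.P032.R2.H137

variable {U : Fin 6 → Set ℂ} {T : ℂ → Set (Fin 6)} {z y w : ℂ} {a b c d e f : Fin 6} {u0 : ℝ}

/-- the letter sets of a centre without types -/
def FU (T : ℂ → Set (Fin 6)) (z : ℂ) (a b c d e f : Fin 6) : Fin 6 → Set ℂ :=
  ![Lt T z a b c d e f 0, Lt T z a b c d e f 1, Lt T z a b c d e f 2, Lt T z a b c d e f 3, ∅, ∅]

theorem fu_closed (h : Irr U T) (l : Fin 6) : IsClosed (FU T z a b c d e f l) := by
  fin_cases l
  · exact Lt_closed (z := z) (a := a) (b := b) (c := c) (d := d) (e := e) (f := f) h 0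
  · exact Lt_closed (z := z) (a := a) (b := b) (c := c) (d := d) (e := e) (f := f) h 1
  · exact Lt_closed (z := z) (a := a) (b := b) (c := c) (d := d) (e := e) (f := f) h 2
  · exact Lt_closed (z := z) (a := a) (b := b) (c := c) (d := d) (e := e) (f := f) h 3
  · exact isClosed_empty
  · exact isClosed_empty

/-- colours -/
def xS (a b c d e f : Fin 6) (j : ℕ) : Fin 6 :=
  match j with
  | 0 => a
  | 1 => b
  | 2 => c
  | 3 => d
  | 4 => e
  | _ => f

/-- centres -/
def cS (z w y : ℂ) (r : ℕ) : ℂ :=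
  match r with
  | 0 => z
  | 1 => w
  | _ => y

/-- the data of `rdS2` -/
def datS2 (T : ℂ → Set (Fin 6)) (z w y : ℂ) (a b c d e f : Fin 6) (u0 : ℝ) : Dat where
  c := cS z w y
  x := xS a b c d e f
  F r := FU T (cS z w y r) (xS a b c d e f (rdS2.sg r 0)) (xS a b c d e f (rdS2.sg r 1))
    (xS a b c d e f (rdS2.sg r 2)) (xS a b c d e f (rdS2.sg r 3)) (xS a b c d e f (rdS2.sg r 4))
    (xS a b c d e f (rdS2.sg r 5))
  u0 := u0

theorem xS_inj (nd : [a, b, c, d, e, f].Nodup) : ∀ i < 6, ∀ j < 6,
    xS a b c d e f i = xS a b c d e f j → i = j := by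
  obtain ⟨⟨ab, ac, ad, ae, af⟩, ⟨bc, bd, be, bf⟩, ⟨cd, ce, cf⟩, ⟨de, df⟩, ef⟩ := nodup_sep nd
  intro i hi j hj h
  interval_cases i <;> interval_cases j <;>
    first
      | rfl
      | exact absurd h (by assumption)
      | exact absurd h.symm (by assumption)

theorem sgS2_lt : ∀ r < 3, ∀ j < 6, rdS2.sg r j < 6 := by decide

theorem sgS2_inj : ∀ r < 3, ∀ i < 6, ∀ j < 6, rdS2.sg r i = rdS2.sg r j → i = j := by decide

theorem wdS2 (H : WT U T) (hmin : MinF U T) (hz : DPt T z a b c d)
    (nd : [a, b, c, d, e, f].Nodup) (hyz : dist y z = 1) (hy : DPt T y a e b f)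
    (hwz : dist w z = 1) (hw : DPt T w a c e f) :
    Wd U T rdS2 (datS2 T z w y a b c d e f u0) where
  wt := H
  mn := hmin
  sgl := sgS2_lt
  sgi := sgS2_inj
  xi := xS_inj nd
  dpt := by
    intro r hr
    have hr : r < 3 := hr
    interval_cases r
    · exact hz
    · exact hw
    · exact hy
  adj := by
    intro r hr s hs h
    have hr : r < 2 := hr
    have hs : s < 2 := hs
    interval_cases r <;> interval_cases s
    · exact absurd h (by decide)
    · show dist z w = 1
      rw [dist_comm]; exact hwz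
    · exact absurd h (by decide)
    · exact absurd h (by decide)
  yhub := fun s _ _ => by show (0 : ℕ) < 2; norm_num
  yadj := by
    intro s h1 h2
    have h1 : 2 ≤ s := h1
    have h2 : s < 3 := h2
    obtain rfl : s = 2 := by omega
    show dist z y = 1
    rw [dist_comm]; exact hyz
  F0 := fun r hr => rfl
  F1 := fun r hr => rfl
  F2 := fun r hr => union_empty _
  F3 := fun r hr => union_empty _
  cl := fun r hr l => fu_closed H.irr l

end Vale.Agent.P032.R2.H659
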