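import Vale.Agent.P032.R2.H659.Cone
import Vale.Agent.P032.R2.H659.Contact

/-!
# P032: the antipode table of a two-pair point (wild)

`z = {a, b | c, d}`, `n` on `S(z)`, `n' = 2 z - n`.  `NrC U z n i` : the colour `i` is a near contact at
`n` (in `Pal U n`, absent outside `S(z)`), `FrC U z n i` : a far contact.

* `Irr.nr_or_fr`, `Irr.fr_of_nr`, `Irr.nr_of_fr` : every colour of `T z` in `Pal U n` is near or far,
  the two colours of a pair are opposite.
* `Irr.anti_nr`, `Irr.anti_fr` : a colour present at `n` and `n'` is near at one and far at the other.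
* `Irr.mate_nr`, `Irr.mate_fr` : if `a` is near (far) at `n` and `b` is present at `n'` then `b` is near
  (far) at `n'`.
* `Irr.anti_near` : `a`, `c` near at `n`: `b`, `d` absent at `n'`.
* `Irr.anti_mixed` : `a` near, `c` far at `n`: `c` absent at `n'`.
* `Irr.lock_eq`, `Irr.lock_not` : a crossed pair is mixed at most once on `S(z)`.
* `Irr.kind_mixed` : a crossed pair which is a pair of the two-pair point `y` is mixed at `y`.
* `Irr.anti_S1`, `Irr.anti_S2`, `Irr.anti_S4r` : the rows of the table.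
-/

open Set Filter Topology Metric

noncomputable section

namespace Vale.Agent.P032.Six

variable {k : ℕ} {U : Fin k → Set ℂ} {T : ℂ → Set (Fin k)} {z y n m : ℂ} {a b c d e f i : Fin k}

/-- near contact -/
def NrC (U : Fin k → Set ℂ) (z n : ℂ) (i : Fin k) : Prop :=
  i ∈ Pal U n ∧ ∀ᶠ x in 𝓝 n, 1 < dist x z → i ∉ Pal U x

/-- far contact -/
def FrC (U : Fin k → Set ℂ) (z n : ℂ) (i : Fin k) : Prop :=
  i ∈ Pal U n ∧ ∀ᶠ x in 𝓝 n, dist x z < 1 → i ∉ Pal U x

theorem Mx.nr_not_fr (h : Mx U) (h1 : NrC U z n i) (h2 : FrC U z n i) : False := by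
  obtain ⟨g, ⟨hgU, hg1, hg2⟩, hgz⟩ := exists_off (h.isOpen i) (z := z) h1.1 (inter_mem h1.2 h2.2)
  rcases lt_or_gt_of_ne hgz with h3 | h3
  · exact hg2 h3 (subset_closure hgU)
  · exact hg1 h3 (subset_closure hgU)

theorem dist_antipode (hn : dist n z = 1) : dist (2 * z - n) z = 1 := by
  rw [dist_eq_norm] at hn ⊢
  rw [← hn, ← norm_neg]; congr 1; ring

theorem antipode_antipode (z n : ℂ) : 2 * z - (2 * z - n) = n := by ring

theorem ip_antipode (u z n : ℂ) : ip u (2 * z - n - z) = -ip u (n - z) := by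
  unfold ip; simp; ring

namespace Irr

variable (h : Irr U T) (hz : DPt T z a b c d) (hn : dist n z = 1)

include h hz hn

theorem nr_or_fr (ha : a ∈ Pal U n) : NrC U z n a ∨ FrC U z n a := by
  rcases h.sides hz hn with hs | hs
  · exact Or.inl ⟨ha, hs.mono fun _ hx => hx.1⟩
  · exact Or.inr ⟨ha, hs.mono fun _ hx => hx.2⟩

theorem sd_of_nr (ha : NrC U z n a) : Sd U z n a b := by
  rcases h.sides hz hn with hs | hs
  · exact hs
  · exact absurd ⟨ha.1, hs.mono fun _ hx => hx.2⟩ fun hf => h.mx.nr_not_fr ha hf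

theorem sd_of_fr (ha : FrC U z n a) : Sd U z n b a := by
  rcases h.sides hz hn with hs | hs
  · exact absurd ⟨ha.1, hs.mono fun _ hx => hx.1⟩ fun hf => h.mx.nr_not_fr hf ha
  · exact hs

/-- the two colours of a pair: near and far -/
theorem fr_of_nr (ha : NrC U z n a) (hb : b ∈ Pal U n) : FrC U z n b :=
  ⟨hb, (h.sd_of_nr hz hn ha).mono fun _ hx => hx.2⟩

theorem nr_of_fr (ha : FrC U z n a) (hb : b ∈ Pal U n) : NrC U z n b :=
  ⟨hb, (h.sd_of_fr hz hn ha).mono fun _ hx => hx.1⟩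

/-- **(α)** near at `n`: far at the antipode -/
theorem anti_nr (ha : NrC U z n a) (ha' : a ∈ Pal U (2 * z - n)) : FrC U z (2 * z - n) a := by
  rcases h.nr_or_fr hz (dist_antipode hn) ha' with h1 | h1
  · exfalso
    obtain ⟨u, hu, hua, -⟩ := h.exists_ray_off hz.swap.swap hn
    have e1 := h.mx.near_polar hn ha.1 ha.2 u hua
    have e2 := h.mx.near_polar (dist_antipode hn) h1.1 h1.2 u hua
    rw [ip_antipode] at e2
    exact hu (by linarith)
  · exact h1

/-- **(α)** far at `n`: near at the antipode -/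
theorem anti_fr (ha : FrC U z n a) (ha' : a ∈ Pal U (2 * z - n)) : NrC U z (2 * z - n) a := by
  rcases h.nr_or_fr hz (dist_antipode hn) ha' with h1 | h1
  · exact h1
  · exfalso
    obtain ⟨u, hu, hua, -⟩ := h.exists_ray_off hz.swap.swap hn
    have e1 := h.mx.far_polar hn ha.1 ha.2 u hua
    have e2 := h.mx.far_polar (dist_antipode hn) h1.1 h1.2 u hua
    rw [ip_antipode] at e2
    exact hu (by linarith)

/-- **(ε)** `a` near at `n`, `b` at the antipode: near there -/
theorem mate_nr (ha : NrC U z n a) (hb : b ∈ Pal U (2 * z - n)) : NrC U z (2 * z - n) b := by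
  rcases h.nr_or_fr hz.swap12 (dist_antipode hn) hb with h1 | h1
  · exact h1
  · exfalso
    obtain ⟨u, hu, hua, hub⟩ := h.exists_ray_off hz.swap.swap hn
    have e1 := h.mx.near_polar hn ha.1 ha.2 u hua
    have e2 := h.mx.far_polar (dist_antipode hn) h1.1 h1.2 (-u) hub
    rw [ip_antipode, ip_neg] at e2
    exact hu (by linarith)

/-- **(ε)** `a` far at `n`, `b` at the antipode: far there -/
theorem mate_fr (ha : FrC U z n a) (hb : b ∈ Pal U (2 * z - n)) : FrC U z (2 * z - n) b := by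
  rcases h.nr_or_fr hz.swap12 (dist_antipode hn) hb with h1 | h1
  · exfalso
    obtain ⟨u, hu, hua, hub⟩ := h.exists_ray_off hz.swap.swap hn
    have e1 := h.mx.far_polar hn ha.1 ha.2 u hua
    have e2 := h.mx.near_polar (dist_antipode hn) h1.1 h1.2 (-u) hub
    rw [ip_antipode, ip_neg] at e2
    exact hu (by linarith)
  · exact h1

/-- **(β)** two crossed colours near at `n`: their mates are absent at the antipode -/
theorem anti_near (ha : NrC U z n a) (hc : NrC U z n c) :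
    b ∉ Pal U (2 * z - n) ∧ d ∉ Pal U (2 * z - n) :=
  h.horn_near hz hn (h.sd_of_nr hz.swap hn hc) (h.sd_of_nr hz hn ha) hc.1 ha.1

/-- **(γ)** `a` near and `c` far at `n`: `c` is absent at the antipode -/
theorem anti_mixed (ha : NrC U z n a) (hc : FrC U z n c) : c ∉ Pal U (2 * z - n) :=
  h.horn_locked hz.swap.swap12 hn (h.sd_of_nr hz hn ha) (h.sd_of_fr hz.swap hn hc) ha.1 hc.1

/-- a crossed pair is mixed (`a` near, `c` far) at most at one point of `S(z)` -/
theorem lock_eq (hm : dist m z = 1) (ha : NrC U z n a) (hc : FrC U z n c) (ha' : NrC U z m a)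
    (hc' : FrC U z m c) : m = n :=
  h.lock_unique hz.swap.swap12 hn hm (h.sd_of_fr hz.swap hn hc) (h.sd_of_nr hz hn ha) hc.1 ha.1
    (h.sd_of_fr hz.swap hm hc') (h.sd_of_nr hz hm ha') hc'.1 ha'.1

/-- a crossed pair is not mixed in both ways on `S(z)` -/
theorem lock_not (hm : dist m z = 1) (ha : NrC U z n a) (hc : FrC U z n c) (ha' : FrC U z m a)
    (hc' : NrC U z m c) : False :=
  h.lock_never hz.swap.swap12 hn hm (h.sd_of_fr hz.swap hn hc) (h.sd_of_nr hz hn ha) hc.1 ha.1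
    (h.sd_of_nr hz.swap hm hc') (h.sd_of_fr hz hm ha') hc'.1 ha'.1

omit hn

/-- a crossed pair of `z` which is a pair of the two-pair point `y` on `S(z)` is mixed at `y` -/
theorem kind_mixed (hy : DPt T y a c e f) (hyz : dist y z = 1) :
    (NrC U z y a ∧ FrC U z y c) ∨ (FrC U z y a ∧ NrC U z y c) := by
  have ha : a ∈ Pal U y := h.sub _ (by rw [hy.pal]; simp)
  have hc : c ∈ Pal U y := h.sub _ (by rw [hy.pal]; simp)
  have haz : a ∈ T z := by rw [hz.pal]; simp
  have hcz : c ∈ T z := by rw [hz.pal]; simp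
  rcases h.nr_or_fr hz hyz ha with h1 | h1 <;> rcases h.nr_or_fr hz.swap hyz hc with h2 | h2
  · exact absurd (h.contact_near hy.swap12 hyz (h.sub _ hcz) h2.2) fun h4 =>
      h.sd_unique haz (h.contact_near hy hyz (h.sub _ haz) h1.2) h4
  · exact Or.inl ⟨h1, h2⟩
  · exact Or.inr ⟨h1, h2⟩
  · exact absurd (h.contact_far hy.swap12 hyz (h.sub _ hcz) h2.2) fun h4 =>
      h.sd_unique haz h4 (h.contact_far hy hyz (h.sub _ haz) h1.2)

/-- **Antipode of a contact S1** `y = {a, c | b, d}`. -/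
theorem anti_S1 (hy : DPt T y a c b d) (hyz : dist y z = 1) :
    (NrC U z y a ∧ NrC U z y d ∧ FrC U z y b ∧ FrC U z y c ∧ b ∉ Pal U (2 * z - y) ∧
      c ∉ Pal U (2 * z - y)) ∨
    (FrC U z y a ∧ FrC U z y d ∧ NrC U z y b ∧ NrC U z y c ∧ a ∉ Pal U (2 * z - y) ∧
      d ∉ Pal U (2 * z - y)) := by
  have hb : b ∈ Pal U y := h.sub _ (by rw [hy.pal]; simp)
  have hd : d ∈ Pal U y := h.sub _ (by rw [hy.pal]; simp)
  rcases h.kind_mixed hz hy hyz with ⟨h1, h2⟩ | ⟨h1, h2⟩
  · have h3 := h.fr_of_nr hz hyz h1 hb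
    have h4 := h.nr_of_fr hz.swap hyz h2 hd
    have h5 := h.anti_near hz.swap34 hyz h1 h4
    exact Or.inl ⟨h1, h4, h3, h2, h5.1, h5.2⟩
  · have h3 := h.nr_of_fr hz hyz h1 hb
    have h4 := h.fr_of_nr hz.swap hyz h2 hd
    have h5 := h.anti_near hz.swap12 hyz h3 h2
    exact Or.inr ⟨h1, h4, h3, h2, h5.1, h5.2⟩

/-- **Antipode of a contact S2** `y = {a, c | b, e}`: inner (`a` near) or outer. -/
theorem anti_S2 (hy : DPt T y a c b e) (hyz : dist y z = 1) :
    (NrC U z y a ∧ FrC U z y b ∧ FrC U z y c ∧ c ∉ Pal U (2 * z - y)) ∨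
    (FrC U z y a ∧ NrC U z y b ∧ NrC U z y c ∧ a ∉ Pal U (2 * z - y) ∧ d ∉ Pal U (2 * z - y)) := by
  have hb : b ∈ Pal U y := h.sub _ (by rw [hy.pal]; simp)
  rcases h.kind_mixed hz hy hyz with ⟨h1, h2⟩ | ⟨h1, h2⟩
  · exact Or.inl ⟨h1, h.fr_of_nr hz hyz h1 hb, h2, h.anti_mixed hz hyz h1 h2⟩
  · have h3 := h.nr_of_fr hz hyz h1 hb
    have h5 := h.anti_near hz.swap12 hyz h3 h2
    exact Or.inr ⟨h1, h3, h2, h5.1, h5.2⟩

/-- **Antipode of a contact S4r** `y = {a, c | e, f}`: the far one of `a`, `c` is absent. -/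
theorem anti_S4r (hy : DPt T y a c e f) (hyz : dist y z = 1) :
    (NrC U z y a ∧ FrC U z y c ∧ c ∉ Pal U (2 * z - y)) ∨
    (FrC U z y a ∧ NrC U z y c ∧ a ∉ Pal U (2 * z - y)) := by
  rcases h.kind_mixed hz hy hyz with ⟨h1, h2⟩ | ⟨h1, h2⟩
  · exact Or.inl ⟨h1, h2, h.anti_mixed hz hyz h1 h2⟩
  · exact Or.inr ⟨h1, h2, h.anti_mixed hz.swap hyz h2 h1⟩

/-- **Outer S2, antipode**: no point `y'` of the antipode has two colours of one pair of `z`, or one
colour of each pair on different sides -/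
theorem anti_outer (hyz : dist y z = 1) (hb : NrC U z y b) (hc : NrC U z y c)
    (hxz : {i, e} ⊆ T z) (hi : i ∈ Pal U (2 * z - y)) (he : e ∈ Pal U (2 * z - y)) (hie : i ≠ e) :
    (i = b ∧ e = c ∨ i = c ∧ e = b) ∧ FrC U z (2 * z - y) b ∧ FrC U z (2 * z - y) c := by
  obtain ⟨h1, h2⟩ := h.anti_near hz.swap12 hyz hb hc
  have hiz : i ∈ T z := hxz (Or.inl rfl)
  have hez : e ∈ T z := hxz (Or.inr rfl)
  rw [hz.pal] at hiz hez
  have key : ∀ j : Fin k, j ∈ ({a, b, c, d} : Set (Fin k)) → j ∈ Pal U (2 * z - y) → j = b ∨ j = c := by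
    rintro j (rfl | rfl | rfl | h3) hj
    · exact absurd hj h1
    · exact Or.inl rfl
    · exact Or.inr rfl
    · rw [mem_singleton_iff] at h3
      subst h3
      exact absurd hj h2
  have hb' : b ∈ Pal U (2 * z - y) → FrC U z (2 * z - y) b := h.anti_nr hz.swap12 hyz hb
  have hc' : c ∈ Pal U (2 * z - y) → FrC U z (2 * z - y) c := h.anti_nr hz.swap hyz hc
  rcases key i hiz hi with rfl | rfl <;> rcases key e hez he with rfl | rfl
  · exact absurd rfl hie
  · exact ⟨Or.inl ⟨rfl, rfl⟩, hb' hi, hc' he⟩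
  · exact ⟨Or.inr ⟨rfl, rfl⟩, hb' he, hc' hi⟩
  · exact absurd rfl hie

end Irr

end Vale.Agent.P032.Six
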