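import Vale.Agent.P032.R2.H659.Horn
import Vale.Agent.P032.R2.H171.Ident

/-!
# P032: the corners of a two-pair point

`z` a two-pair point `{a, b | c, d}`, `n` on `S(z)` such that the `c`-rays are on the side of `n` and
the `b`-rays on the other side.  Then in one of the two directions orthogonal to `n` the palettes
are inside `{b, c}`, in the other one inside `{a, d}` (`Irr.corner_region`, `Irr.corner`).

* `Irr.hub_two_sides`: on the two branches of any unit circle through a two-pair point the palettes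
  are inside `{x, x'}` and inside `{w, w'}` with one colour of each pair, complementary.
* `Irr.locked`: if `b, c` are contacts at `n` (one near, one far) then one branch of `S(n)` at `z` is
  exactly `{b, c}`, the other one is inside `{a, d}`.
* `Irr.horn_far`: if `c` is a near contact at `n` and the `b`-rays are on the other side then
  `b` is not in `Pal (2 z - n)`.
-/

open Set Filter Topology Metric

noncomputable section

namespace Vale.Agent.P032.Six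

variable {k : ℕ} {U : Fin k → Set ℂ} {T : ℂ → Set (Fin k)}

/-- rays and near contacts -/
theorem Mx.near_polar (h : Mx U) {i : Fin k} {z n : ℂ} (hn : dist n z = 1) (hi : i ∈ Pal U n)
    (hs : ∀ᶠ x in 𝓝 n, 1 < dist x z → i ∉ Pal U x) :
    ∀ u, Ray (U i) z u → 0 ≤ ip u (n - z) := by
  intro u hu
  by_contra hcon
  push Not at hcon
  exact h.pal_sides hi hs (h.near hu hn hcon)

/-- rays and far contacts -/
theorem Mx.far_polar (h : Mx U) {i : Fin k} {z n : ℂ} (hn : dist n z = 1) (hi : i ∈ Pal U n)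
    (hs : ∀ᶠ x in 𝓝 n, dist x z < 1 → i ∉ Pal U x) :
    ∀ u, Ray (U i) z u → ip u (n - z) ≤ 0 := by
  intro u hu
  by_contra hcon
  push Not at hcon
  exact h.pal_sides hi (h.far hu hn hcon) hs

/-- `x` is on the side of `S(p)` into which the direction `w` points -/
def Sm (w z p x : ℂ) : Prop :=
  (0 < ip w (p - z) → dist x p < 1) ∧ (ip w (p - z) < 0 → 1 < dist x p)

/-- **Corner.** -/
theorem Irr.corner_region (h : Irr U T) {z n : ℂ} {a b c d : Fin k} (hz : DPt T z a b c d)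
    (hn : dist n z = 1) (kc : ∀ u, Ray (U c) z u → 0 ≤ ip u (n - z))
    (kb : ∀ u, Ray (U b) z u → ip u (n - z) ≤ 0) :
    ∃ (σ : ℝ) (p q : ℂ), (σ = 1 ∨ σ = -1) ∧ dist p z = 1 ∧ dist q z = 1 ∧
      ip (σ * (Complex.I * (n - z))) (p - z) ≠ 0 ∧ ip (σ * (Complex.I * (n - z))) (q - z) ≠ 0 ∧
      (∀ᶠ x in 𝓝 z, Sm (σ * (Complex.I * (n - z))) z p x → a ∉ Pal U x) ∧
      (∀ᶠ x in 𝓝 z, Sm (σ * (Complex.I * (n - z))) z q x → d ∉ Pal U x) ∧
      (∀ᶠ x in 𝓝 z, Sm (-(σ * (Complex.I * (n - z)))) z p x → b ∉ Pal U x) ∧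
      ∀ᶠ x in 𝓝 z, Sm (-(σ * (Complex.I * (n - z)))) z q x → c ∉ Pal U x := by
  obtain ⟨p0, hp0⟩ := hz.arc1
  obtain ⟨p, hp, hpn, hpn2⟩ := hp0.exists_off_line (y := n)
  obtain ⟨q0, hq0⟩ := hz.arc2
  obtain ⟨q, hq, hqn, hqn2, hqp, hqp2⟩ := hq0.exists_off_two (y := n) (y' := p)
  obtain ⟨s, hs, rc, rd⟩ := h.d0_sign hz.swap hp
  obtain ⟨t, ht, ra, rb⟩ := h.d0_sign hz hq
  have cP := cr_ne_of hp.1 hn hpn hpn2
  have cQ := cr_ne_of hq.1 hn hqn hqn2
  have cQP := cr_ne_of hq.1 hp.1 hqp hqp2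
  have hc0 := kc _ rc
  have hb0 := kb _ rb
  set N := n - z with hN
  set P := p - z with hP
  set Q := q - z with hQ
  have hs2 : s ^ 2 = 1 := by rcases hs with rfl | rfl <;> norm_num
  have ht2 : t ^ 2 = 1 := by rcases ht with rfl | rfl <;> norm_num
  have hs0 : s ≠ 0 := by rcases hs with rfl | rfl <;> norm_num
  have ht0 : t ≠ 0 := by rcases ht with rfl | rfl <;> norm_num
  rw [ip_smul, ip_I] at hc0
  rw [ip_neg, ip_smul, ip_I] at hb0
  have k1 : 0 < s * cr P N := lt_of_le_of_ne hc0 (Ne.symm (mul_ne_zero hs0 cP))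
  have k2 : 0 < t * cr Q N := lt_of_le_of_ne (by linarith) (Ne.symm (mul_ne_zero ht0 cQ))
  obtain ⟨κ, hκ, hκ0⟩ : ∃ κ : ℝ, (κ = 1 ∨ κ = -1) ∧ 0 < κ * cr Q P := by
    rcases lt_or_gt_of_ne cQP with h1 | h1
    · exact ⟨-1, Or.inr rfl, by linarith⟩
    · exact ⟨1, Or.inl rfl, by linarith⟩
  have hκ2 : κ ^ 2 = 1 := by rcases hκ with rfl | rfl <;> norm_num
  set σ := s * t * κ with hσ
  have hσ1 : σ = 1 ∨ σ = -1 := by
    rw [hσ]
    rcases hs with rfl | rfl <;> rcases ht with rfl | rfl <;> rcases hκ with rfl | rfl <;> norm_num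
  have hσ0 : σ ≠ 0 := by rcases hσ1 with h1 | h1 <;> rw [h1] <;> norm_num
  set w := (σ : ℂ) * (Complex.I * N) with hw
  have wP : ip w P = -(σ * cr P N) := by rw [hw, ip_smul, ip_I, cr_swap]; ring
  have wQ : ip w Q = -(σ * cr Q N) := by rw [hw, ip_smul, ip_I, cr_swap]; ring
  have A1 : ip w (p - z) * ip (t * (Complex.I * Q)) (p - z) < 0 := by
    rw [← hP, wP, ip_smul, ip_I]
    have e : -(σ * cr P N) * (t * cr Q P) = -(t ^ 2 * ((s * cr P N) * (κ * cr Q P))) := by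
      rw [hσ]; ring
    rw [e, ht2]
    nlinarith [mul_pos k1 hκ0]
  have A2 : ip w (q - z) * ip (-(s * (Complex.I * P))) (q - z) < 0 := by
    rw [← hQ, wQ, ip_neg, ip_smul, ip_I, cr_swap P Q]
    have e : -(σ * cr Q N) * -(s * -cr Q P) = -(s ^ 2 * ((t * cr Q N) * (κ * cr Q P))) := by
      rw [hσ]; ring
    rw [e, hs2]
    nlinarith [mul_pos k2 hκ0]
  have A3 : ip (-w) (p - z) * ip (-(t * (Complex.I * Q))) (p - z) < 0 := by
    rw [ip_neg, ip_neg]; linarith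
  have A4 : ip (-w) (q - z) * ip (s * (Complex.I * P)) (q - z) < 0 := by
    rw [ip_neg] at A2 ⊢; linarith
  refine ⟨σ, p, q, hσ1, hp.1, hq.1, ?_, ?_, h.absent_side hp ra rb A1,
    h.absent_side (a := d) (b := c) (by rwa [pair_comm]) rd (by rwa [neg_neg]) A2,
    h.absent_side (a := b) (b := a) (by rwa [pair_comm]) rb (by rwa [neg_neg]) A3,
    h.absent_side hq rc rd A4⟩
  · rw [← hP, wP]; exact neg_ne_zero.2 (mul_ne_zero hσ0 cP)
  · rw [← hQ, wQ]; exact neg_ne_zero.2 (mul_ne_zero hσ0 cQ)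

/-- a branch of `S(n)` at `z` -/
theorem branch_sm {z n p : ℂ} (hp : dist p z = 1) (τ : ℝ) :
    ∀ᶠ t : ℝ in 𝓝[>] 0, Sm (((-τ : ℝ) : ℂ) * (Complex.I * (n - z))) z p
      (n + (z - n) * cis (τ * t)) := by
  have hzp : dist z p = 1 := by rw [dist_comm]; exact hp
  have e : ip (((-τ : ℝ) : ℂ) * (Complex.I * (n - z))) (p - z) =
      -(τ * cr (z - n) (z - p)) := by
    rw [ip_smul, ip_I]
    unfold cr
    simp only [Complex.sub_re, Complex.sub_im]
    ring
  have h1 : ∀ᶠ t : ℝ in 𝓝[>] 0, τ * cr (z - n) (z - p) < 0 →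
      dist (n + (z - n) * cis (τ * t)) p < 1 := by
    by_cases h0 : τ * cr (z - n) (z - p) < 0
    · filter_upwards [arc_in hzp h0] with t ht _
      exact ht
    · exact Eventually.of_forall fun t h2 => absurd h2 h0
  have h2 : ∀ᶠ t : ℝ in 𝓝[>] 0, 0 < τ * cr (z - n) (z - p) →
      1 < dist (n + (z - n) * cis (τ * t)) p := by
    by_cases h0 : 0 < τ * cr (z - n) (z - p)
    · filter_upwards [arc_out hzp h0] with t ht _
      exact ht
    · exact Eventually.of_forall fun t h2 => absurd h2 h0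
  filter_upwards [h1, h2] with t h3 h4
  refine ⟨fun h5 => h3 ?_, fun h5 => h4 ?_⟩
  · rw [e] at h5; linarith
  · rw [e] at h5; linarith

/-- **Corner**, branches of the circle about `n` -/
theorem Irr.corner (h : Irr U T) {z n : ℂ} {a b c d : Fin k} (hz : DPt T z a b c d)
    (hn : dist n z = 1) (kc : ∀ u, Ray (U c) z u → 0 ≤ ip u (n - z))
    (kb : ∀ u, Ray (U b) z u → ip u (n - z) ≤ 0) :
    ∃ τ : ℝ, (τ = 1 ∨ τ = -1) ∧
      (∀ᶠ t : ℝ in 𝓝[>] 0, a ∉ Pal U (n + (z - n) * cis (τ * t)) ∧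
        d ∉ Pal U (n + (z - n) * cis (τ * t)) ∧ T (n + (z - n) * cis (τ * t)) ⊆ {b, c}) ∧
      ∀ᶠ t : ℝ in 𝓝[>] 0, b ∉ Pal U (n + (z - n) * cis (-τ * t)) ∧
        c ∉ Pal U (n + (z - n) * cis (-τ * t)) ∧ T (n + (z - n) * cis (-τ * t)) ⊆ {a, d} := by
  obtain ⟨σ, p, q, hσ, hp, hq, -, -, e1, e2, e3, e4⟩ := h.corner_region hz hn kc kb
  have hσ' : (((- -σ : ℝ) : ℝ) : ℂ) = (σ : ℂ) := by rw [neg_neg]
  refine ⟨-σ, ?_, ?_, ?_⟩
  · rcases hσ with h1 | h1 <;> rw [h1] <;> norm_num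
  · have b1 := branch_sm (n := n) hp (-σ)
    have b2 := branch_sm (n := n) hq (-σ)
    rw [hσ'] at b1 b2
    have ht := tendsto_arc n z (-σ)
    filter_upwards [b1, b2, ht.eventually e1, ht.eventually e2, ht.eventually (h.nhd z)]
      with t h1 h2 h3 h4 h5
    have h6 := h3 h1
    have h7 := h4 h2
    refine ⟨h6, h7, fun i hi => ?_⟩
    have h8 := h5 hi
    rw [hz.pal] at h8
    rcases h8 with rfl | rfl | rfl | h8
    · exact absurd (h.sub _ hi) h6
    · exact Or.inl rfl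
    · exact Or.inr rfl
    · rw [mem_singleton_iff] at h8; subst h8
      exact absurd (h.sub _ hi) h7
  · rw [neg_neg]
    have b1 := branch_sm (n := n) hp σ
    have b2 := branch_sm (n := n) hq σ
    have eσ : (((-σ : ℝ) : ℝ) : ℂ) * (Complex.I * (n - z)) = -(σ * (Complex.I * (n - z))) := by
      push_cast; ring
    rw [eσ] at b1 b2
    have ht := tendsto_arc n z σ
    filter_upwards [b1, b2, ht.eventually e3, ht.eventually e4, ht.eventually (h.nhd z)]
      with t h1 h2 h3 h4 h5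
    have h6 := h3 h1
    have h7 := h4 h2
    refine ⟨h6, h7, fun i hi => ?_⟩
    have h8 := h5 hi
    rw [hz.pal] at h8
    rcases h8 with rfl | rfl | rfl | h8
    · exact Or.inl rfl
    · exact absurd (h.sub _ hi) h6
    · exact absurd (h.sub _ hi) h7
    · rw [mem_singleton_iff] at h8; subst h8
      exact Or.inr rfl

/-- **Locked corner**: `c` near and `b` far at `n`, both in `Pal n`: one branch of `S(n)` at `z` is
exactly `{b, c}`, the other one is inside `{a, d}` -/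
theorem Irr.locked (h : Irr U T) {z n : ℂ} {a b c d : Fin k} (hz : DPt T z a b c d)
    (hn : dist n z = 1) (s1 : Sd U z n c d) (s2 : Sd U z n a b) (hc : c ∈ Pal U n)
    (hb : b ∈ Pal U n) : ∃ τ : ℝ, (τ = 1 ∨ τ = -1) ∧
      (∀ᶠ t : ℝ in 𝓝[>] 0, T (n + (z - n) * cis (τ * t)) = {b, c}) ∧
      ∀ᶠ t : ℝ in 𝓝[>] 0, b ∉ Pal U (n + (z - n) * cis (-τ * t)) ∧
        c ∉ Pal U (n + (z - n) * cis (-τ * t)) ∧ T (n + (z - n) * cis (-τ * t)) ⊆ {a, d} := by
  obtain ⟨τ, hτ, h1, h2⟩ := h.corner hz hn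
    (h.mx.near_polar hn hc (s1.mono fun x hx => hx.1))
    (h.mx.far_polar hn hb (s2.mono fun x hx => hx.2))
  refine ⟨τ, hτ, ?_, h2⟩
  filter_upwards [h1] with t h3
  exact h.eq_pair_of_sub (dist_arc (by rw [dist_comm]; exact hn) _) hb hc h3.2.2

/-- the rays of the colours of a pair are on both sides -/
theorem Irr.exists_ray_off (h : Irr U T) {z n : ℂ} {a b c d : Fin k} (hz : DPt T z a b c d)
    (hn : dist n z = 1) : ∃ u, ip u (n - z) ≠ 0 ∧ Ray (U a) z u ∧ Ray (U b) z (-u) := by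
  obtain ⟨q0, hq0⟩ := hz.arc2
  obtain ⟨q, hq, hqn, hqn2⟩ := hq0.exists_off_line (y := n)
  obtain ⟨t, ht, ra, rb⟩ := h.d0_sign hz hq
  refine ⟨_, ?_, ra, rb⟩
  rw [ip_smul, ip_I]
  refine mul_ne_zero ?_ (cr_ne_of hq.1 hn hqn hqn2)
  rcases ht with rfl | rfl <;> norm_num

/-- a far contact: a ray on the other side -/
theorem Irr.ray_far (h : Irr U T) {z n : ℂ} {a b c d : Fin k} (hz : DPt T z a b c d)
    (hn : dist n z = 1) (s : Sd U z n a b) (hb : b ∈ Pal U n) :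
    ∃ u, Ray (U b) z u ∧ ip u (n - z) < 0 := by
  obtain ⟨u, hu, -, hub⟩ := h.exists_ray_off hz hn
  refine ⟨-u, hub, lt_of_le_of_ne
    (h.mx.far_polar hn hb (s.mono fun _ hx => hx.2) _ hub) ?_⟩
  rw [ip_neg]
  exact neg_ne_zero.2 hu

/-- a near contact: a ray of the other colour of the pair on the other side -/
theorem Irr.ray_near (h : Irr U T) {z n : ℂ} {a b c d : Fin k} (hz : DPt T z a b c d)
    (hn : dist n z = 1) (s : Sd U z n a b) (ha : a ∈ Pal U n) :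
    ∃ u, Ray (U b) z u ∧ ip u (n - z) < 0 := by
  obtain ⟨u, hu, hua, hub⟩ := h.exists_ray_off hz hn
  have h1 := h.mx.near_polar hn ha (s.mono fun _ hx => hx.1) _ hua
  have h2 : 0 < ip u (n - z) := lt_of_le_of_ne h1 (Ne.symm hu)
  exact ⟨-u, hub, by rw [ip_neg]; linarith⟩

/-- **Horn rule**, ray form: `c` is a near contact at `n`, some `b`-ray is on the other side: `b`
is absent at the antipode -/
theorem Irr.horn_ray (h : Irr U T) {z n : ℂ} {a b c d : Fin k} (hz : DPt T z a b c d)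
    (hn : dist n z = 1) (s1 : Sd U z n c d) (hc : c ∈ Pal U n)
    (kb : ∃ u, Ray (U b) z u ∧ ip u (n - z) < 0) : b ∉ Pal U (2 * z - n) := by
  intro hb
  have hn' : dist (2 * z - n) z = 1 := by
    rw [dist_eq_norm] at hn ⊢
    rw [← hn, ← norm_neg]; congr 1; ring
  rcases h.sides hz hn' with s2 | s2
  · obtain ⟨u, hu, hu0⟩ := kb
    have h1 := h.mx.far_polar hn' hb (s2.mono fun _ hx => hx.2) u hu
    have e3 : ip u (2 * z - n - z) = -ip u (n - z) := by unfold ip; simp; ring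
    rw [e3] at h1
    linarith
  · exact h.horn hz hn s1 s2 hc hb

/-- `b` far and `c` near at `n`, both in `Pal n`: `b` is absent at the antipode -/
theorem Irr.horn_locked (h : Irr U T) {z n : ℂ} {a b c d : Fin k} (hz : DPt T z a b c d)
    (hn : dist n z = 1) (s1 : Sd U z n c d) (s2 : Sd U z n a b) (hc : c ∈ Pal U n)
    (hb : b ∈ Pal U n) : b ∉ Pal U (2 * z - n) :=
  h.horn_ray hz hn s1 hc (h.ray_far hz hn s2 hb)

/-- `a` and `c` near at `n`, both in `Pal n`: `b` and `d` are absent at the antipode -/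
theorem Irr.horn_near (h : Irr U T) {z n : ℂ} {a b c d : Fin k} (hz : DPt T z a b c d)
    (hn : dist n z = 1) (s1 : Sd U z n c d) (s2 : Sd U z n a b) (hc : c ∈ Pal U n)
    (ha : a ∈ Pal U n) : b ∉ Pal U (2 * z - n) ∧ d ∉ Pal U (2 * z - n) :=
  ⟨h.horn_ray hz hn s1 hc (h.ray_near hz hn s2 ha),
    h.horn_ray hz.swap hn s2 ha (h.ray_near hz.swap hn s1 hc)⟩

/-- the two branches of any unit circle through a two-pair point -/
theorem sep_branch {y z g : ℂ} {i l : Fin k} (hg : dist y g = 1)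
    (hs : Sd U g y i l ∨ Sd U g y l i) (hcr : cr (y - z) (y - g) ≠ 0) :
    ∃ x w, ((x = i ∧ w = l) ∨ (x = l ∧ w = i)) ∧
      (∀ᶠ t : ℝ in 𝓝[>] 0, w ∉ Pal U (z + (y - z) * cis (1 * t))) ∧
      ∀ᶠ t : ℝ in 𝓝[>] 0, x ∉ Pal U (z + (y - z) * cis (-1 * t)) := by
  have key : ∀ τ : ℝ, (τ = 1 ∨ τ = -1) → τ * cr (y - z) (y - g) < 0 → ∀ {m o : Fin k},
      Sd U g y m o → (∀ᶠ t : ℝ in 𝓝[>] 0, o ∉ Pal U (z + (y - z) * cis (τ * t))) ∧
        ∀ᶠ t : ℝ in 𝓝[>] 0, m ∉ Pal U (z + (y - z) * cis (-τ * t)) := by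
    intro τ _ h1 m o h2
    constructor
    · filter_upwards [arc_in (C := z) hg (τ := τ) h1, (tendsto_arc z y τ).eventually h2]
        with t h3 h4
      exact h4.2 h3
    · filter_upwards [arc_out (C := z) hg (τ := -τ) (by linarith),
        (tendsto_arc z y (-τ)).eventually h2] with t h3 h4
      exact h4.1 h3
  rcases lt_or_gt_of_ne hcr with h1 | h1
  · rcases hs with hs | hs
    · exact ⟨i, l, Or.inl ⟨rfl, rfl⟩, key 1 (Or.inl rfl) (by linarith) hs⟩
    · exact ⟨l, i, Or.inr ⟨rfl, rfl⟩, key 1 (Or.inl rfl) (by linarith) hs⟩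
  · rcases hs with hs | hs
    · obtain ⟨k1, k2⟩ := key (-1) (Or.inr rfl) (by linarith) hs
      rw [neg_neg] at k2
      exact ⟨l, i, Or.inr ⟨rfl, rfl⟩, k2, k1⟩
    · obtain ⟨k1, k2⟩ := key (-1) (Or.inr rfl) (by linarith) hs
      rw [neg_neg] at k2
      exact ⟨i, l, Or.inl ⟨rfl, rfl⟩, k2, k1⟩

/-- **Two sides.** On the two branches at a two-pair point `y` of a unit circle through `y` the
palettes are inside `{x, x'}` and inside `{w, w'}`, where `{x, w}`, `{x', w'}` are the two pairs -/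
theorem Irr.hub_two_sides (h : Irr U T) {y z : ℂ} {a b c d : Fin k} (hy : DPt T y a b c d)
    (hz : dist y z = 1) : ∃ x w x' w', ((x = a ∧ w = b) ∨ (x = b ∧ w = a)) ∧
      ((x' = c ∧ w' = d) ∨ (x' = d ∧ w' = c)) ∧
      (∀ᶠ t : ℝ in 𝓝[>] 0, w ∉ Pal U (z + (y - z) * cis (1 * t)) ∧
        w' ∉ Pal U (z + (y - z) * cis (1 * t)) ∧ T (z + (y - z) * cis (1 * t)) ⊆ {x, x'}) ∧
      ∀ᶠ t : ℝ in 𝓝[>] 0, x ∉ Pal U (z + (y - z) * cis (-1 * t)) ∧
        x' ∉ Pal U (z + (y - z) * cis (-1 * t)) ∧ T (z + (y - z) * cis (-1 * t)) ⊆ {w, w'} := by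
  obtain ⟨g, hg, hcr, hs⟩ := h.exists_sep hy hz
  obtain ⟨g', hg', hcr', hs'⟩ := h.exists_sep hy.swap hz
  obtain ⟨x, w, h1, h2, h3⟩ := sep_branch hg hs hcr
  obtain ⟨x', w', h1', h2', h3'⟩ := sep_branch hg' hs' hcr'
  refine ⟨x, w, x', w', h1, h1', ?_, ?_⟩
  · filter_upwards [h2, h2', (tendsto_arc z y 1).eventually (h.nhd y)] with t k1 k2 k3
    refine ⟨k1, k2, fun i hi => ?_⟩
    have k4 := k3 hi
    rw [hy.pal] at k4
    simp only [mem_insert_iff, mem_singleton_iff] at k4 ⊢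
    have k5 : i ≠ w := fun e => k1 (e ▸ h.sub _ hi)
    have k6 : i ≠ w' := fun e => k2 (e ▸ h.sub _ hi)
    rcases h1 with ⟨e1, e2⟩ | ⟨e1, e2⟩ <;> rcases h1' with ⟨e3, e4⟩ | ⟨e3, e4⟩ <;>
      rw [e2] at k5 <;> rw [e4] at k6 <;> rw [e1, e3] <;> tauto
  · filter_upwards [h3, h3', (tendsto_arc z y (-1)).eventually (h.nhd y)] with t k1 k2 k3
    refine ⟨k1, k2, fun i hi => ?_⟩
    have k4 := k3 hi
    rw [hy.pal] at k4
    simp only [mem_insert_iff, mem_singleton_iff] at k4 ⊢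
    have k5 : i ≠ x := fun e => k1 (e ▸ h.sub _ hi)
    have k6 : i ≠ x' := fun e => k2 (e ▸ h.sub _ hi)
    rcases h1 with ⟨e1, e2⟩ | ⟨e1, e2⟩ <;> rcases h1' with ⟨e3, e4⟩ | ⟨e3, e4⟩ <;>
      rw [e1] at k5 <;> rw [e3] at k6 <;> rw [e2, e4] <;> tauto

end Vale.Agent.P032.Six
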