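import Vale.Agent.P032.R2.H659.Tip

/-!
# P032: the crossing point near `0` of two nearly unit circles through `0`

`tip s u v` for `(u, v)` near `(u₀, v₀)`, unit vectors with `s * cr u₀ v₀ < 0`.
-/

open Set Filter Topology Metric

noncomputable section

namespace Vale.Agent.P032.Six

/-- the tip is at distance one from both centres -/
theorem tip_dist {s : ℝ} (hs : s = 1 ∨ s = -1) {u v : ℂ} (h0 : 0 < ‖u - v‖)
    (h2 : ‖u - v‖ ≤ 2) : ‖tip s u v - u‖ = 1 ∧ ‖tip s u v - v‖ = 1 := by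
  set D := u - v with hD
  set r := ‖D‖ with hr
  set ρ := Real.sqrt (1 - r ^ 2 / 4) with hρ
  have hs2 : s ^ 2 = 1 := by rcases hs with rfl | rfl <;> norm_num
  have hr2 : D.re ^ 2 + D.im ^ 2 = r ^ 2 := by
    have := ip_self D
    unfold ip at this
    rw [hr, ← this]; ring
  have hpos : 0 ≤ 1 - r ^ 2 / 4 := by nlinarith
  have hρ2 : ρ ^ 2 = 1 - r ^ 2 / 4 := Real.sq_sqrt hpos
  have ht : tip s u v = (u + v) / 2 + ((ρ * s / r : ℝ) : ℂ) * (Complex.I * D) := rfl
  set q := ρ * s / r with hq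
  have hq2 : q ^ 2 * r ^ 2 = ρ ^ 2 := by
    rw [hq]; field_simp; rw [hs2, mul_one]
  have e1 : tip s u v - u = -(D / 2) + (q : ℂ) * (Complex.I * D) := by
    rw [ht, hD]; ring
  have e2 : tip s u v - v = D / 2 + (q : ℂ) * (Complex.I * D) := by
    rw [ht, hD]; ring
  have n1 : ‖tip s u v - u‖ ^ 2 = 1 := by
    rw [← ip_self, e1]
    unfold ip
    simp
    nlinarith
  have n2 : ‖tip s u v - v‖ ^ 2 = 1 := by
    rw [← ip_self, e2]
    unfold ip
    simp
    nlinarith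
  exact ⟨(pow_eq_one_iff_of_nonneg (norm_nonneg _) two_ne_zero).1 n1,
    (pow_eq_one_iff_of_nonneg (norm_nonneg _) two_ne_zero).1 n2⟩

theorem cr_sq_add_ip_sq (u v : ℂ) : cr u v ^ 2 + ip u v ^ 2 = ‖u‖ ^ 2 * ‖v‖ ^ 2 := by
  rw [← ip_self, ← ip_self]
  unfold cr ip
  ring

theorem tip_zero {u v : ℂ} (hu : ‖u‖ = 1) (hv : ‖v‖ = 1) {s : ℝ} (hs : s = 1 ∨ s = -1)
    (hc : s * cr u v < 0) : tip s u v = 0 := by
  have hu2 : u.re ^ 2 + u.im ^ 2 = 1 := ip_sq hu
  have hv2 : v.re ^ 2 + v.im ^ 2 = 1 := ip_sq hv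
  have hs2 : s ^ 2 = 1 := by rcases hs with rfl | rfl <;> norm_num
  set c0 := cr u v with hc0
  set dt := ip u v with hdt
  have hcd : c0 ^ 2 + dt ^ 2 = 1 := by
    have := cr_sq_add_ip_sq u v
    rw [hu, hv] at this
    rw [hc0, hdt, this]; norm_num
  have hc1 : c0 ≠ 0 := by
    intro h; rw [h, mul_zero] at hc; exact lt_irrefl _ hc
  have hc2 : 0 < c0 ^ 2 := by positivity
  have hd1 : dt < 1 := by nlinarith
  have hd2 : -1 < dt := by nlinarith
  have hr2 : ‖u - v‖ ^ 2 = 2 - 2 * dt := by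
    rw [norm_sub_sq', hu, hv, ← hdt]; ring
  have hr0 : 0 < ‖u - v‖ := by
    rcases (norm_nonneg (u - v)).lt_or_eq with h | h
    · exact h
    · rw [← h] at hr2; nlinarith
  have hρ : 1 - ‖u - v‖ ^ 2 / 4 = (1 + dt) / 2 := by rw [hr2]; ring
  set q := Real.sqrt (1 - ‖u - v‖ ^ 2 / 4) * s / ‖u - v‖ with hq
  have hq2 : q ^ 2 * (2 - 2 * dt) = (1 + dt) / 2 := by
    rw [hq, ← hr2, ← hρ, div_pow, mul_pow, hs2, mul_one, Real.sq_sqrt (by rw [hρ]; linarith)]
    field_simp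
  have hsq : 0 < Real.sqrt (1 - ‖u - v‖ ^ 2 / 4) := Real.sqrt_pos.2 (by rw [hρ]; linarith)
  have hqc : q * c0 < 0 := by
    have e : q * c0 = Real.sqrt (1 - ‖u - v‖ ^ 2 / 4) / ‖u - v‖ * (s * c0) := by
      rw [hq]; ring
    rw [e]
    exact mul_neg_of_pos_of_neg (div_pos hsq hr0) hc
  have hqe : q * (2 * c0) = -(1 + dt) := by
    have h1 : (q * (2 * c0)) ^ 2 = (1 + dt) ^ 2 := by
      have h2 : c0 ^ 2 = (1 - dt) * (1 + dt) := by linarith
      calc (q * (2 * c0)) ^ 2 = q ^ 2 * (2 - 2 * dt) * (2 * (1 + dt)) := by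
            rw [mul_pow, mul_pow, h2]; ring
        _ = (1 + dt) ^ 2 := by rw [hq2]; ring
    have h2 : (q * (2 * c0) - (1 + dt)) * (q * (2 * c0) + (1 + dt)) = 0 := by linarith
    rcases mul_eq_zero.1 h2 with h3 | h3
    · exfalso; nlinarith
    · linarith
  have ht : tip s u v = (u + v) / 2 + (q : ℂ) * (Complex.I * (u - v)) := rfl
  have h2c : (2 * c0) ≠ 0 := by simpa using hc1
  rw [ht]
  apply Complex.ext
  · simp
    have : (2 * c0) * ((u.re + v.re) / 2 + q * (v.im - u.im)) = 0 := by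
      have e1 : (2 * c0) * ((u.re + v.re) / 2 + q * (v.im - u.im)) =
          c0 * (u.re + v.re) - (q * (2 * c0)) * (u.im - v.im) := by ring
      rw [e1, hqe, hc0, hdt]
      unfold cr ip
      linear_combination v.im * hu2 - u.im * hv2
    exact (mul_eq_zero.1 this).resolve_left h2c
  · simp
    have : (2 * c0) * ((u.im + v.im) / 2 + q * (u.re - v.re)) = 0 := by
      have e1 : (2 * c0) * ((u.im + v.im) / 2 + q * (u.re - v.re)) =
          c0 * (u.im + v.im) + (q * (2 * c0)) * (u.re - v.re) := by ring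
      rw [e1, hqe, hc0, hdt]
      unfold cr ip
      linear_combination (-v.re) * hu2 + u.re * hv2
    exact (mul_eq_zero.1 this).resolve_left h2c

theorem tendsto_tip_cross {u v : ℂ} (hu : ‖u‖ = 1) (hv : ‖v‖ = 1) {s : ℝ}
    (hs : s = 1 ∨ s = -1) (hc : s * cr u v < 0) :
    Tendsto (fun w : ℂ × ℂ => tip s w.1 w.2) (𝓝 (u, v)) (𝓝 0) := by
  have hne : ‖u - v‖ ≠ 0 := by
    intro h
    have h1 : u = v := sub_eq_zero.1 (norm_eq_zero.1 h)
    rw [h1] at hc
    have : cr v v = 0 := by unfold cr; ring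
    rw [this, mul_zero] at hc
    exact lt_irrefl _ hc
  have h1 : ContinuousAt (fun w : ℂ × ℂ => tip s w.1 w.2) (u, v) := by
    unfold tip
    refine ContinuousAt.add (by fun_prop) (ContinuousAt.mul ?_ (by fun_prop))
    refine Complex.continuous_ofReal.continuousAt.comp ?_
    refine ContinuousAt.div ?_ ?_ ?_
    · fun_prop
    · fun_prop
    · exact hne
  have h3 := h1.tendsto
  simp only [tip_zero hu hv hs hc] at h3
  exact h3

end Vale.Agent.P032.Six
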