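import Vale.Agent.P032.R2.H659.Ok3
import Vale.Agent.P032.R2.H333.Raw3
import Vale.Agent.P032.R2.H939.W2Tri
import Vale.Agent.P032.S5.H11.TopD

/-!
# P032: the world `WT`, final assembly

Two points of order at least four at distance one have at most two common colours (`WT`).

* `WT.adm_or_mk`: if every contact `{a, b, e, f}` of a two-pair point `{a, b | c, d}` is harmless with
  the pair `{a, b}` (`Same`) and exact arcs end in three-coloured points (`End3`), then every point of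
  the circle of a two-pair point is admissible or mixed;
* `WT.okC3`: the circle of a two-pair point is a word with T3 contacts;
* `WT.no_dpt_of`, `WT.empty_of`: there are no two-pair points, the world is empty.
-/

open Set Filter Topology Metric

noncomputable section

namespace Vale.Agent.P032.Six

open Vale.Agent.P032.S5.H767 Vale.Agent.P032.Words

variable {U : Fin 6 → Set ℂ} {T : ℂ → Set (Fin 6)} {z y p : ℂ} {a b c d e f : Fin 6}

/-- every contact `{a, b, e, f}` of `{a, b | c, d}` is harmless with the pair `{a, b}` -/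
def Same (T : ℂ → Set (Fin 6)) : Prop :=
  ∀ {z y : ℂ} {a b c d e f : Fin 6}, DPt T z a b c d → [a, b, c, d, e, f].Nodup → dist y z = 1 →
    T y = {a, b, e, f} → Harm T y {a, b}

/-- exact arcs of two-pair points end in three-coloured points -/
def End3 (T : ℂ → Set (Fin 6)) : Prop :=
  ∀ {z y : ℂ} {a b c d : Fin 6}, DPt T z a b c d → y ∈ closure (Ex T z {a, b}) → (T y).ncard ≤ 3

/-- with at most four colours there is a two-pair point -/
theorem exists_dpt4 (h : Irr U T) (hmin : Mn U T) (h4 : ∀ z, (T z).ncard ≤ 4) :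
    ∃ z a b c d, DPt T z a b c d := by
  by_contra hcon
  refine h.coreD_four' hmin h4 fun z v _ _ hz => ?_
  rcases hz with h5 | ⟨a, b, c, d, hD⟩
  · have := h4 z
    omega
  · exact hcon ⟨z, a, b, c, d, hD⟩

theorem raw3_of_rawM {X : Fin 4 → Set ℝ} (R : RawM X) : RawT3 X :=
  ⟨R.closed, R.cover, R.per, R.anti, R.ac, R.two, R.own, R.own', R.swap, R.dbl⟩

/-- a name of the centre from the circle is a name of the two-pair point -/
theorem dpt_of_ctr {a' b' c' d' : Fin 6} (hz : DPt T z a' b' c' d') (C : Ctr U T z a b c d e f) :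
    DPt T z a b c d := by
  obtain ⟨⟨ab, ac, ad, ae, af⟩, ⟨bc, bd, be, bf⟩, ⟨cd, ce, cf⟩, ⟨de, df⟩, ef⟩ := C.sep
  obtain ⟨p, hp⟩ := hz.arc1
  obtain ⟨p2, hp2⟩ := hz.arc2
  have s1 : ({a', b'} : Set (Fin 6)) = {a, b} ∨ ({a', b'} : Set (Fin 6)) = {c, d} := by
    have h1 := hp.mem
    rcases C.pairs p hp.1 (by rw [h1]; exact hp.2) (by
      rw [h1, hz.pal]; rintro i (rfl | rfl) <;> simp) with h2 | h2
    · left; rw [← h1, h2]
    · right; rw [← h1, h2]
  have s2 : ({c', d'} : Set (Fin 6)) = {a, b} ∨ ({c', d'} : Set (Fin 6)) = {c, d} := by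
    have h1 := hp2.mem
    rcases C.pairs p2 hp2.1 (by rw [h1]; exact hp2.2) (by
      rw [h1, hz.pal]; rintro i (rfl | rfl) <;> simp) with h2 | h2
    · left; rw [← h1, h2]
    · right; rw [← h1, h2]
  have hdis : ({a', b'} : Set (Fin 6)) ≠ {c', d'} := by
    intro h1
    have : a' ∈ ({c', d'} : Set (Fin 6)) := by rw [← h1]; simp
    rcases this with h2 | h2
    exacts [hz.ac h2, hz.ad h2]
  have key : (∃ p, Arc T z p {a, b}) ∧ ∃ p, Arc T z p {c, d} := by
    rcases s1 with s1 | s1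
    · exact ⟨⟨p, by rw [← s1]; exact hp⟩, ⟨p2, by
        rw [← s2.resolve_left fun s2 => hdis (s1.trans s2.symm)]; exact hp2⟩⟩
    · exact ⟨⟨p2, by
        rw [← s2.resolve_right fun s2 => hdis (s1.trans s2.symm)]; exact hp2⟩,
        ⟨p, by rw [← s1]; exact hp⟩⟩
  exact ⟨C.pal, ac, ad, bc, bd, ab, cd, key.1, key.2⟩

namespace Mk3

theorem swap12 (m : Mk T a b c d e f y) : Mk T b a c d e f y :=
  ⟨m.he, m.hf, m.fc, by rw [pair_comm]; exact m.nab, m.ncd⟩

theorem swap34 (m : Mk T a b c d e f y) : Mk T a b d c e f y :=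
  ⟨m.he, m.hf, m.fc, m.nab, by rw [pair_comm]; exact m.ncd⟩

theorem swap (m : Mk T a b c d e f y) : Mk T c d a b e f y :=
  ⟨m.he, m.hf, m.fc, m.ncd, m.nab⟩

end Mk3

/-- no neighbour with at most three colours carries `e` and `f`, if no palette of `S(y)` is inside
`{e, f}` -/
theorem fc_flank (C : Ctr U T z a b c d e f) {y y' : ℂ} (hy : S5.H767.Fc T y {e, f})
    (hyz : dist y z = 1) (hy'z : dist y' z = 1) (hyy : dist y' y = 1)
    (h3 : (T y').ncard ≤ 3) (he : e ∈ T y') (hf : f ∈ T y') : False := by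
  obtain ⟨⟨ab, ac, ad, ae, af⟩, ⟨bc, bd, be, bf⟩, ⟨cd, ce, cf⟩, ⟨de, df⟩, ef⟩ := C.sep
  by_cases hsub : T y' ⊆ {e, f}
  · exact hy y' hyy hsub
  · rw [not_subset] at hsub
    obtain ⟨x, hx, hxef⟩ := hsub
    have hxe : x ≠ e := fun h => hxef (Or.inl h)
    have hxf : x ≠ f := fun h => hxef (Or.inr h)
    have h1 : ({x, e, f} : Set (Fin 6)) ⊆ T y' := by
      rintro m (rfl | rfl | rfl)
      exacts [hx, he, hf]
    have h2 : ({x, e, f} : Set (Fin 6)).ncard = 3 :=
      Set.ncard_eq_three.2 ⟨x, e, f, hxe, hxf, ef, rfl⟩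
    have h4 : T y' = {x, e, f} :=
      (Set.eq_of_subset_of_ncard_le h1 (by omega) (Set.toFinite _)).symm
    have hxz : x ∈ T z := by
      by_contra h
      rcases C.miss h with h5 | h5
      exacts [hxe h5, hxf h5]
    exact lemmaFz C.irr hy'z hyz hyy hy (by rw [h4]) hxz

theorem ncard_four {i j k l : Fin 6} (nd : [i, j, k, l].Nodup) :
    ({i, j, k, l} : Set (Fin 6)).ncard = 4 := by
  simp only [List.nodup_cons, List.mem_cons, List.not_mem_nil, or_false, not_or, List.nodup_nil,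
    and_true, not_false_eq_true] at nd
  obtain ⟨⟨ij, ik, il⟩, ⟨jk, jl⟩, kl⟩ := nd
  rw [Set.ncard_insert_of_notMem, Set.ncard_insert_of_notMem, Set.ncard_pair kl]
  · simp [jk, jl]
  · simp [ij, ik, il]

theorem nd_ne6 (nd : [a, b, c, d, e, f].Nodup) :
    (a ≠ b ∧ a ≠ c ∧ a ≠ d ∧ a ≠ e ∧ a ≠ f) ∧ (b ≠ c ∧ b ≠ d ∧ b ≠ e ∧ b ≠ f) ∧
      (c ≠ d ∧ c ≠ e ∧ c ≠ f) ∧ (d ≠ e ∧ d ≠ f) ∧ e ≠ f := by
  simpa only [List.nodup_cons, List.mem_cons, List.not_mem_nil, or_false, not_or, List.nodup_nil,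
    and_true, not_false_eq_true] using nd

theorem nd_swap12 (nd : [a, b, c, d, e, f].Nodup) : [b, a, c, d, e, f].Nodup :=
  (List.Perm.swap _ _ _).nodup_iff.2 nd

theorem nd_swap34 (nd : [a, b, c, d, e, f].Nodup) : [a, b, d, c, e, f].Nodup := by
  have : [a, b, d, c, e, f].Perm [a, b, c, d, e, f] :=
    List.Perm.cons _ (List.Perm.cons _ (List.Perm.swap _ _ _))
  exact this.nodup_iff.2 nd

theorem nd_swap (nd : [a, b, c, d, e, f].Nodup) : [c, d, a, b, e, f].Nodup := by
  obtain ⟨⟨ab, ac, ad, ae, af⟩, ⟨bc, bd, be, bf⟩, ⟨cd, ce, cf⟩, ⟨de, df⟩, ef⟩ := nd_ne6 nd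
  simp [ab, ae, af, be, bf, cd, ce, cf, de, df, ef, Ne.symm ac, Ne.symm ad, Ne.symm bc,
      Ne.symm bd]

/-- two colours of the centre -/
theorem pair_cases {i j : Fin 6} {S : Set (Fin 6)} (hij : i ≠ j)
    (hi : i ∈ ({a, b, c, d} : Set (Fin 6))) (hj : j ∈ ({a, b, c, d} : Set (Fin 6)))
    (hS : S = {i, j, e, f}) : S = {a, b, e, f} ∨ S = {c, d, e, f} ∨ S = {a, c, e, f} ∨
      S = {b, c, e, f} ∨ S = {a, d, e, f} ∨ S = {b, d, e, f} := by
  have hc : S = {j, i, e, f} := by
    rw [hS]; ext m; simp only [mem_insert_iff, mem_singleton_iff]; tauto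
  rcases hi with rfl | rfl | rfl | rfl <;> rcases hj with rfl | rfl | rfl | rfl
  · exact absurd rfl hij
  · exact Or.inl hS
  · exact Or.inr (Or.inr (Or.inl hS))
  · exact Or.inr (Or.inr (Or.inr (Or.inr (Or.inl hS))))
  · exact Or.inl hc
  · exact absurd rfl hij
  · exact Or.inr (Or.inr (Or.inr (Or.inl hS)))
  · exact Or.inr (Or.inr (Or.inr (Or.inr (Or.inr hS))))
  · exact Or.inr (Or.inr (Or.inl hc))
  · exact Or.inr (Or.inr (Or.inr (Or.inl hc)))
  · exact absurd rfl hij
  · exact Or.inr (Or.inl hS)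
  · exact Or.inr (Or.inr (Or.inr (Or.inr (Or.inl hc))))
  · exact Or.inr (Or.inr (Or.inr (Or.inr (Or.inr hc))))
  · exact Or.inr (Or.inl hc)
  · exact absurd rfl hij

namespace WT

/-- a contact with the colours of one pair is exceptional -/
theorem hx_same (_ : WT U T) (hS : Same T) (hE : End3 T) (hz : DPt T z a b c d)
    (nd : [a, b, c, d, e, f].Nodup) (hyz : dist y z = 1) (hT : T y = {a, b, e, f}) :
    Hx T z a b e f y := by
  obtain ⟨⟨ab, ac, ad, ae, af⟩, ⟨bc, bd, be, bf⟩, ⟨cd, ce, cf⟩, ⟨de, df⟩, ef⟩ := nd_ne6 nd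
  refine ⟨hT, (hS hz nd hyz hT).h1, fun hcl => ?_⟩
  have h1 := hE hz hcl
  rw [hT, ncard_four (by simp [ab, ae, af, be, bf, ef])] at h1
  omega

/-- a contact with colours of both pairs is mixed -/
theorem mk_mixed (H : WT U T) (hmin : MinF U T) (hS : Same T) (hz : DPt T z a b c d)
    (nd : [a, b, c, d, e, f].Nodup) (hyz : dist y z = 1) (hT : T y = {a, c, e, f}) :
    Mk T a b c d e f y := by
  have h := H.irr
  obtain ⟨⟨ab, ac, ad, ae, af⟩, ⟨bc, bd, be, bf⟩, ⟨cd, ce, cf⟩, ⟨de, df⟩, ef⟩ := nd_ne6 nd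
  have hef : ({e, f} : Set (Fin 6)) ⊆ T y := by
    rw [hT]; rintro i (rfl | rfl) <;> simp
  refine ⟨hef (by simp), hef (by simp), ?_, fun h1 => ?_, fun h1 => ?_⟩
  · intro w hw hwef
    have hwy : T w ⊆ T y := hwef.trans hef
    have hno : ∀ i ∈ T w, i = e ∨ i = f := fun i hi => hwef hi
    have nd4 : [a, c, e, f].Nodup := by simp [ac, ae, af, ce, cf, ef]
    rcases H.contact_mixed hmin nd4 hT with hD | hD | hD | ⟨A, hA⟩
    · -- S4r
      have hzy : dist z y = 1 := by rw [dist_comm]; exact hyz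
      have h1 : Harm T z {a, c} := by
        refine hS (z := y) (y := z) (a := a) (b := c) (c := e) (d := f) (e := b) (f := d) hD ?_
          hzy ?_
        · simp [ab, ac, ad, ae, af, Ne.symm bc, cd, ce, cf, Ne.symm be, Ne.symm bf, Ne.symm de,
            Ne.symm df, ef, bd]
        · rw [hz.pal]; ext i; simp only [mem_insert_iff, mem_singleton_iff]; tauto
      obtain ⟨g, hg⟩ := hz.arc1
      have h2 := h1.h1 g hg.1 (by rw [hg.mem, hz.pal]; rintro i (rfl | rfl) <;> simp)
      have h3 : c ∈ T g := h2 (by simp)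
      rw [hg.mem] at h3
      rcases h3 with h3 | h3
      · exact ac h3.symm
      · exact bc h3.symm
    · rcases H.inside hD hw hwy with h1 | h1
      · rcases hno a (by rw [h1]; simp) with h2 | h2
        exacts [ae h2, af h2]
      · rcases hno c (by rw [h1]; simp) with h2 | h2
        exacts [ce h2, cf h2]
    · rcases H.inside hD hw hwy with h1 | h1
      · rcases hno a (by rw [h1]; simp) with h2 | h2
        exacts [ae h2, af h2]
      · rcases hno c (by rw [h1]; simp) with h2 | h2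
        exacts [ce h2, cf h2]
    · have h1 := hA.h1 w hw hwy
      rcases H.hmix hmin hz nd hyz hT hA with h2 | h2 | h2 | h2
      · rcases hno a (h1 (by rw [h2]; simp)) with h3 | h3
        exacts [ae h3, af h3]
      · rcases hno a (h1 (by rw [h2]; simp)) with h3 | h3
        exacts [ae h3, af h3]
      · rcases hno c (h1 (by rw [h2]; simp)) with h3 | h3
        exacts [ce h3, cf h3]
      · rcases hno c (h1 (by rw [h2]; simp)) with h3 | h3
        exacts [ce h3, cf h3]
  · have h2 : b ∈ T y := h1 (by simp)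
    rw [hT] at h2
    rcases h2 with h2 | h2 | h2 | h2
    exacts [ab h2.symm, bc h2, be h2, bf h2]
  · have h2 : d ∈ T y := h1 (by simp)
    rw [hT] at h2
    rcases h2 with h2 | h2 | h2 | h2
    exacts [ad h2.symm, cd h2.symm, de h2, df h2]

/-- **every point of the circle of a two-pair point is admissible or mixed** -/
theorem adm_or_mk (H : WT U T) (hmin : MinF U T) (hS : Same T) (hE : End3 T)
    (hz : DPt T z a b c d) (nd : [a, b, c, d, e, f].Nodup) (hyz : dist y z = 1) :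
    Adm T z a b c d e f y ∨ Mk T a b c d e f y := by
  rcases Nat.lt_or_ge (T y).ncard 4 with h3 | h4
  · exact Or.inl (Or.inl (by omega))
  have h4 : (T y).ncard = 4 := by have := H.le4 hz.card.ge hyz; omega
  obtain ⟨i, j, hij, hi, hj, hTy⟩ := H.contact_pal hz nd hyz h4
  have k1 : T y = {a, b, e, f} → Adm T z a b c d e f y := fun hT =>
    Or.inr (Or.inl (H.hx_same hS hE hz nd hyz hT))
  have k2 : T y = {c, d, e, f} → Adm T z a b c d e f y := fun hT =>
    Or.inr (Or.inr (H.hx_same hS hE hz.swap (nd_swap nd) hyz hT))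
  have n2 : [b, a, c, d, e, f].Nodup := nd_swap12 nd
  have n3 : [a, b, d, c, e, f].Nodup := nd_swap34 nd
  have n4 : [b, a, d, c, e, f].Nodup := nd_swap34 n2
  have m1 : T y = {a, c, e, f} → Mk T a b c d e f y := fun hT =>
    H.mk_mixed hmin hS hz nd hyz hT
  have m2 : T y = {b, c, e, f} → Mk T a b c d e f y := fun hT => by
    have k : Mk T b a c d e f y := H.mk_mixed hmin hS hz.swap12 n2 hyz hT
    exact Mk3.swap12 k
  have m3 : T y = {a, d, e, f} → Mk T a b c d e f y := fun hT => by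
    have k : Mk T a b d c e f y := H.mk_mixed hmin hS hz.swap34 n3 hyz hT
    exact Mk3.swap34 k
  have m4 : T y = {b, d, e, f} → Mk T a b c d e f y := fun hT => by
    have k : Mk T b a d c e f y := H.mk_mixed hmin hS hz.swap12.swap34 n4 hyz hT
    have k' : Mk T b a c d e f y := Mk3.swap34 k
    exact Mk3.swap12 k'
  rw [hz.pal] at hi hj
  rcases pair_cases hij hi hj hTy with hT | hT | hT | hT | hT | hT
  · exact Or.inl (k1 hT)
  · exact Or.inl (k2 hT)
  · exact Or.inr (m1 hT)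
  · exact Or.inr (m2 hT)
  · exact Or.inr (m3 hT)
  · exact Or.inr (m4 hT)

/-- four-coloured points of the circle have no palette inside `{e, f}` -/
theorem fc_four (H : WT U T) (hmin : MinF U T) (hS : Same T) (hE : End3 T)
    (hz : DPt T z a b c d) (nd : [a, b, c, d, e, f].Nodup) (hyz : dist y z = 1)
    (h4 : 4 ≤ (T y).ncard) : S5.H767.Fc T y {e, f} := by
  obtain ⟨⟨ab, ac, ad, ae, af⟩, ⟨bc, bd, be, bf⟩, ⟨cd, ce, cf⟩, ⟨de, df⟩, ef⟩ := nd_ne6 nd
  rcases H.adm_or_mk hmin hS hE hz nd hyz with (h1 | h1 | h1) | h1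
  · omega
  · refine h1.face (by rintro i (rfl | rfl) <;> simp) fun h2 => ?_
    rcases h2 (show a ∈ ({a, b} : Set (Fin 6)) by simp) with h3 | h3
    exacts [ae h3, af h3]
  · refine h1.face (by rintro i (rfl | rfl) <;> simp) fun h2 => ?_
    rcases h2 (show c ∈ ({c, d} : Set (Fin 6)) by simp) with h3 | h3
    exacts [ce h3, cf h3]
  · exact h1.fc

theorem four_hx (nd : [a, b, c, d, e, f].Nodup) (h : Hx T z a b e f y) : 4 ≤ (T y).ncard := by
  obtain ⟨⟨ab, ac, ad, ae, af⟩, ⟨bc, bd, be, bf⟩, ⟨cd, ce, cf⟩, ⟨de, df⟩, ef⟩ := nd_ne6 nd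
  rw [h.1, ncard_four (by simp [ab, ae, af, be, bf, ef])]

/-- **the circle of a two-pair point is a word with T3 contacts** -/
theorem okC3 (H : WT U T) (hmin : MinF U T) (hS : Same T) (hE : End3 T)
    (hz : DPt T z a b c d) : Net3.OkC3 U T z where
  word := by
    intro a' b' c' d' e' f' C
    have hz' := dpt_of_ctr hz C
    refine raw3_of_rawM (C.raw3_mix (fun y hy => H.adm_or_mk hmin hS hE hz' C.nd hy) ?_ ?_)
    · intro y y' hy hy' hyy h1 h2
      exact H.no_tri hmin hz' hy hy' (by rw [dist_comm]; exact hyy) (four_hx C.nd h1)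
        (four_hx (nd_swap C.nd) h2)
    · intro y y' hy hy' hyy h1 h2 h3 h4
      rcases Nat.lt_or_ge (T y).ncard 4 with h5 | h5
      · exact fc_flank C (H.fc_four hmin hS hE hz' C.nd hy' h2) hy' hy hyy (by omega) h1.he h1.hf
      · exact H.no_tri hmin hz' hy hy' (by rw [dist_comm]; exact hyy) h5 h2
  ends := by
    intro P hP hP2 y hy
    have hpr : ∀ y, y ∈ Ex T z P → P = {a, b} ∨ P = {c, d} := by
      intro y hy
      have h1 := ex_self hy
      rcases H.irr.twoPairs hz y hy.1 (by rw [h1]; exact hy.2) (by rw [h1]; exact hP) with h2 | h2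
      · left; rw [← h1, h2]
      · right; rw [← h1, h2]
    rcases hpr _ (closure_nonempty_iff.1 ⟨y, hy⟩).some_mem with rfl | rfl
    · exact hE hz hy
    · exact hE hz.swap hy

/-- no mixed lock -/
theorem no_mixed (H : WT U T) (hmin : MinF U T) (hE : End3 T) {w m : ℂ}
    (hw : DPt T w a b c d) (hm : dist m w = 1) (h4 : 4 ≤ (T m).ncard) (ha : a ∈ T m) (hc : c ∈ T m)
    (hb : b ∉ T m) (hd : d ∉ T m) : ¬ ∃ᶠ q in 𝓝 w, Arc T m q {a, c} := by
  intro hfr
  have h := H.irr
  have hm4 : (T m).ncard = 4 := by have := H.le4 hw.card.ge hm; omega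
  obtain ⟨e, f, nd⟩ := exists_missing939 hw
  obtain ⟨⟨ab, ac, ad, ae, af⟩, ⟨bc, bd, be, bf⟩, ⟨cd, ce, cf⟩, ⟨de, df⟩, ef⟩ := nd_ne6 nd
  have hcl : w ∈ closure (Ex T m {a, c}) := by
    rw [mem_closure_iff_frequently]
    exact hfr.mono fun q hq => ⟨hq.1, hq.2⟩
  have hacm : ({a, c} : Set (Fin 6)) ⊆ T m := by
    rintro i (rfl | rfl)
    exacts [ha, hc]
  obtain ⟨q, hq⟩ := hfr.exists
  have hTq := hq.mem
  have hTm : T m = {a, c, e, f} := by
    refine Set.eq_of_subset_of_ncard_le (fun i hi => ?_) ?_ (Set.toFinite _)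
    · rcases all_six nd i with h1 | h1 | h1 | h1 | h1 | h1
      · simp [h1]
      · exact absurd (h1 ▸ hi) hb
      · simp [h1]
      · exact absurd (h1 ▸ hi) hd
      · simp [h1]
      · simp [h1]
    · rw [hm4, ncard_four (by simp [ac, ae, af, ce, cf, ef])]
  rcases H.cases hmin hm4 with ⟨A, hA⟩ | ⟨p, q', r, s, hD⟩
  · have h1 := hA.h1 q hq.1 (by rw [hTq]; exact hacm)
    rw [hTq] at h1
    have h2 : A = {a, c} := Set.eq_of_subset_of_ncard_le h1 (by
      rw [Set.ncard_pair ac, hA.cardA]) (Set.toFinite _)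
    exact H.no_hmix_ac hmin hw nd hm hTm (h2 ▸ hA)
  · have h1 : (T w).ncard ≤ 3 := by
      rcases h.twoPairs hD q hq.1 (by rw [hTq]; exact hq.2) (by rw [hTq]; exact hacm) with h2 | h2
      · rw [hTq] at h2
        rw [h2] at hcl
        exact hE hD hcl
      · rw [hTq] at h2
        rw [h2] at hcl
        exact hE hD.swap hcl
    rw [hw.card] at h1
    omega

/-- **there are no two-pair points** -/
theorem no_dpt_of (H : WT U T) (hmin : MinF U T) (h4 : ∀ z, (T z).ncard ≤ 4) (hS : Same T)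
    (hE : End3 T) : ∀ z a b c d, DPt T z a b c d → False :=
  Net3.no_D3 H.irr h4 (fun _ _ _ _ _ hz => H.okC3 hmin hS hE hz)
    (Net3.com4_of H.irr H.two fun hw hm h4 ha hc hb hd => H.no_mixed hmin hE hw hm h4 ha hc hb hd)

/-- **the world `WT` is empty** -/
theorem empty_of (H : WT U T) (hmin : Mn U T) (h4 : ∀ z, (T z).ncard ≤ 4) (hS : Same T)
    (hE : End3 T) : False := by
  have hmin' : MinF U T := fun z hz s hs hne => hmin z hz s hs hne
  obtain ⟨z, a, b, c, d, hz⟩ := exists_dpt4 H.irr hmin h4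
  exact H.no_dpt_of hmin' h4 hS hE z a b c d hz

end WT

end Vale.Agent.P032.Six
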