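import Vale.Agent.P032.R2.H659.Tip
import Vale.Agent.P032.S5.H824.Two

/-!
# P032: the horn rule

`Irr.horn`: at a two-pair point `z = {a, b | c, d}` it is impossible that `c` is a near contact in
the direction `n` and `b` is a near contact in the opposite direction (one colour of each pair).
-/

open Set Filter Topology Metric

noncomputable section

namespace Vale.Agent.P032.Six

variable {k : ℕ} {U : Fin k → Set ℂ} {T : ℂ → Set (Fin k)}

/-- a colour of `Pal V` is present inside or outside -/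
theorem Mx.pal_sides (h : Mx U) {i : Fin k} {z V : ℂ} (hi : i ∈ Pal U V)
    (h1 : ∀ᶠ x in 𝓝 V, 1 < dist x z → i ∉ Pal U x)
    (h2 : ∀ᶠ x in 𝓝 V, dist x z < 1 → i ∉ Pal U x) : False := by
  obtain ⟨g, ⟨hgU, hgN⟩, hgz⟩ := exists_off (h.isOpen i) (z := z) hi (h1.and h2)
  rcases lt_or_gt_of_ne hgz with h3 | h3
  · exact hgN.2 h3 (subset_closure hgU)
  · exact hgN.1 h3 (subset_closure hgU)

/-- the region near `z` beyond an exact `ab`-arc on the side away from the `a`-ray has no `a` -/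
theorem Irr.absent_side (h : Irr U T) {z p u w : ℂ} {a b : Fin k} (hp : Arc T z p {a, b})
    (ra : Ray (U a) z u) (rb : Ray (U b) z (-u)) (hs : ip w (p - z) * ip u (p - z) < 0) :
    ∀ᶠ x in 𝓝 z, ((0 < ip w (p - z) → dist x p < 1) ∧ (ip w (p - z) < 0 → 1 < dist x p)) →
      a ∉ Pal U x := by
  rcases lt_trichotomy (ip u (p - z)) 0 with h1 | h1 | h1
  · have h2 : 0 < ip w (p - z) := by nlinarith
    have h3 := h.sd_center (a := b) (b := a) (by rwa [pair_comm])
      (h.mx.sd_of_rays' ra rb hp.1 h1)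
    filter_upwards [h3] with x h4 h5
    exact h4.2 (h5.1 h2)
  · rw [h1, mul_zero] at hs
    exact absurd hs (lt_irrefl _)
  · have h2 : ip w (p - z) < 0 := by nlinarith
    have h3 := h.sd_center hp (h.mx.sd_of_rays ra rb hp.1 h1)
    filter_upwards [h3] with x h4 h5
    exact h4.1 (h5.2 h2)

/-- **Horn rule.** -/
theorem Irr.horn (h : Irr U T) {z n : ℂ} {a b c d : Fin k} (hz : DPt T z a b c d)
    (hn : dist n z = 1) (s1 : Sd U z n c d) (s2 : Sd U z (2 * z - n) b a)
    (hc : c ∈ Pal U n) (hb : b ∈ Pal U (2 * z - n)) : False := by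
  obtain ⟨p0, hp0⟩ := hz.arc1
  obtain ⟨p, hp, hpn, hpn2⟩ := hp0.exists_off_line (y := n)
  obtain ⟨q0, hq0⟩ := hz.arc2
  obtain ⟨q, hq, hqn, hqn2, hqp, hqp2⟩ := hq0.exists_off_two (y := n) (y' := p)
  obtain ⟨s, hs, rc, rd⟩ := h.d0_sign hz.swap hp
  obtain ⟨t, ht, ra, rb⟩ := h.d0_sign hz hq
  have hn' : dist (2 * z - n) z = 1 := by
    rw [dist_eq_norm] at hn ⊢
    rw [← hn, ← norm_neg]; congr 1; ring
  have cP := cr_ne_of hp.1 hn hpn hpn2
  have cQ := cr_ne_of hq.1 hn hqn hqn2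
  have cQP := cr_ne_of hq.1 hp.1 hqp hqp2
  set N := n - z with hN
  set P := p - z with hP
  set Q := q - z with hQ
  have hN1 : ‖N‖ = 1 := by rw [hN, ← dist_eq_norm]; exact hn
  have hP1 : ‖P‖ = 1 := by rw [hP, ← dist_eq_norm]; exact hp.1
  have hQ1 : ‖Q‖ = 1 := by rw [hQ, ← dist_eq_norm]; exact hq.1
  have hs2 : s ^ 2 = 1 := by rcases hs with rfl | rfl <;> norm_num
  have ht2 : t ^ 2 = 1 := by rcases ht with rfl | rfl <;> norm_num
  -- `c` is near at `n`
  have k1 : 0 < s * cr P N := by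
    have e1 : ip (s * (Complex.I * P)) (n - z) = s * cr P N := by rw [ip_smul, ip_I]
    rcases lt_trichotomy (s * cr P N) 0 with h1 | h1 | h1
    · refine (h.mx.pal_sides hc (s1.mono fun x hx => hx.1) (h.mx.near rc hn ?_)).elim
      rw [e1]; exact h1
    · rcases mul_eq_zero.1 h1 with h2 | h2
      · rw [h2] at hs2; norm_num at hs2
      · exact absurd h2 cP
    · exact h1
  -- `b` is near at `2 z - n`
  have k2 : 0 < t * cr Q N := by
    have e1 : ip (-(t * (Complex.I * Q))) (2 * z - n - z) = t * cr Q N := by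
      have e2 : 2 * z - n - z = -N := by rw [hN]; ring
      rw [e2, ip_neg, ip_smul, ip_I]
      unfold cr
      simp
      ring
    rcases lt_trichotomy (t * cr Q N) 0 with h1 | h1 | h1
    · refine (h.mx.pal_sides hb (s2.mono fun x hx => hx.1) (h.mx.near rb hn' ?_)).elim
      rw [e1]; exact h1
    · rcases mul_eq_zero.1 h1 with h2 | h2
      · rw [h2] at ht2; norm_num at ht2
      · exact absurd h2 cQ
    · exact h1
  -- the direction of the ray between `c` and `b`
  obtain ⟨κ, hκ, hκ0⟩ : ∃ κ : ℝ, (κ = 1 ∨ κ = -1) ∧ 0 < κ * cr Q P := by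
    rcases lt_or_gt_of_ne cQP with h1 | h1
    · exact ⟨-1, Or.inr rfl, by linarith⟩
    · exact ⟨1, Or.inl rfl, by linarith⟩
  set σ := s * t * κ with hσ
  have hσ1 : σ = 1 ∨ σ = -1 := by
    rw [hσ]
    rcases hs with rfl | rfl <;> rcases ht with rfl | rfl <;> rcases hκ with rfl | rfl <;> norm_num
  set w := (σ : ℂ) * (Complex.I * N) with hw
  have wP : ip w P = -(σ * cr P N) := by rw [hw, ip_smul, ip_I, cr_swap]; ring
  have wQ : ip w Q = -(σ * cr Q N) := by rw [hw, ip_smul, ip_I, cr_swap]; ring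
  have hκ2 : κ ^ 2 = 1 := by rcases hκ with rfl | rfl <;> norm_num
  have A1 : ip w (p - z) * ip (t * (Complex.I * Q)) (p - z) < 0 := by
    rw [← hP, wP, ip_smul, ip_I]
    have e : -(σ * cr P N) * (t * cr Q P) = -(t ^ 2 * ((s * cr P N) * (κ * cr Q P))) := by
      rw [hσ]; ring
    rw [e, ht2]
    nlinarith [mul_pos k1 hκ0]
  have A2 : ip w (q - z) * ip (-(s * (Complex.I * P))) (q - z) < 0 := by
    rw [← hQ, wQ, ip_neg, ip_smul, ip_I, cr_swap P Q]
    have e : -(σ * cr Q N) * -(s * -cr Q P) = -(s ^ 2 * ((t * cr Q N) * (κ * cr Q P))) := by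
      rw [hσ]; ring
    rw [e, hs2]
    nlinarith [mul_pos k2 hκ0]
  have B1 := h.absent_side (w := w) hp ra rb A1
  have B2 := h.absent_side (a := d) (b := c) (w := w) (u := -(s * (Complex.I * P)))
    (by rwa [pair_comm]) rd (by rwa [neg_neg]) A2
  -- events at the tip
  have C1 := tip_side hN1 hσ1 hw hP1
  have C2 := tip_side hN1 hσ1 hw hQ1
  have C3 := tip_dir hN1 hσ1 hw (η := 1 / 4) (by norm_num) le_rfl
  have hcont : Tendsto (fun v : ℂ × ℂ => z + tip σ v.1 v.2) (𝓝 (N, -N)) (𝓝 z) := by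
    have := (tendsto_tip (s := σ) hN1).const_add z
    rwa [add_zero] at this
  have C4 := hcont.eventually (B1.and (B2.and (h.nhd z)))
  have C := C1.and (C2.and (C3.and C4))
  rw [nhds_prod_eq, Filter.eventually_prod_iff] at C
  obtain ⟨pa, hpa, pb, hpb, hC⟩ := C
  -- points of `U c` and `U b`
  have t1 : Tendsto (fun g : ℂ => g - z) (𝓝 n) (𝓝 N) := by
    have : Continuous fun g : ℂ => g - z := by fun_prop
    exact this.tendsto n
  have t2 : Tendsto (fun g : ℂ => g - z) (𝓝 (2 * z - n)) (𝓝 (-N)) := by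
    have : Continuous fun g : ℂ => g - z := by fun_prop
    have h2 := this.tendsto (2 * z - n)
    have e2 : 2 * z - n - z = -N := by rw [hN]; ring
    rwa [e2] at h2
  obtain ⟨g, ⟨hgU, hg1, hg2⟩, hgz⟩ := exists_off (h.mx.isOpen c) (z := z) hc
    ((t1.eventually hpa).and s1)
  obtain ⟨g', ⟨hgU', hg1', hg2'⟩, hgz'⟩ := exists_off (h.mx.isOpen b) (z := z) hb
    ((t2.eventually hpb).and s2)
  have hg3 : dist g z < 1 := by
    rcases lt_or_gt_of_ne hgz with h3 | h3
    · exact h3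
    · exact absurd (subset_closure hgU) (hg2.1 h3)
  have hg3' : dist g' z < 1 := by
    rcases lt_or_gt_of_ne hgz' with h3 | h3
    · exact h3
    · exact absurd (subset_closure hgU') (hg2'.1 h3)
  obtain ⟨D1, D2, D3, D4, D5, D6⟩ := hC hg1 hg1'
  rw [dist_eq_norm] at hg3 hg3'
  have D1 := D1 hg3 hg3'
  have D2 := D2 hg3 hg3'
  obtain ⟨D3a, D3b, -⟩ := D3 hg3 hg3'
  simp only at D1 D2 D3a D3b D4 D5 D6
  set x := tip σ (g - z) (g' - z) with hx
  have ex : ∀ y : ℂ, dist (z + x) y = ‖x - (y - z)‖ := by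
    intro y
    rw [dist_eq_norm]; congr 1; ring
  have ha' : a ∉ Pal U (z + x) := D4 (by rw [ex p]; exact D1)
  have hd' : d ∉ Pal U (z + x) := D5 (by rw [ex q]; exact D2)
  have hc' : c ∉ Pal U (z + x) := h.mx.notMem' hgU (by rw [dist_comm, ex g]; exact D3a)
  have hb' : b ∉ Pal U (z + x) := h.mx.notMem' hgU' (by rw [dist_comm, ex g']; exact D3b)
  obtain ⟨i, hi⟩ := h.ne (z + x)
  have h6 := D6 hi
  rw [hz.pal] at h6
  rcases h6 with rfl | rfl | rfl | h6
  · exact ha' (h.sub _ hi)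
  · exact hb' (h.sub _ hi)
  · exact hc' (h.sub _ hi)
  · rw [mem_singleton_iff] at h6
    subst h6
    exact hd' (h.sub _ hi)

end Vale.Agent.P032.Six
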