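import Vale.Agent.P032.R2.H659.Corner
import Vale.Agent.P032.R2.H659.Cross

/-!
# P032: the order rule at a corner of a two-pair point

`Irr.order_rule`: `z = {a, b | c, d}`.  The line (through `z`, normal `m`) of a contact of `c` is never
strictly on the `c`-side of the line (normal `n`) of a contact of `b`.
-/

open Set Filter Topology Metric

noncomputable section

namespace Vale.Agent.P032.Six

variable {k : ℕ} {U : Fin k → Set ℂ} {T : ℂ → Set (Fin k)}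

theorem bracket_pos {X α β Cm Cn μ K η : ℝ} (hX : 0 < X) (hμ : 0 < μ) (hμ1 : μ ≤ 1)
    (hm : μ ≤ Cm) (hn : μ ≤ Cn) (hm1 : Cm ≤ 1) (hn1 : Cn ≤ 1) (hη : 0 ≤ η)
    (hηK : η ≤ μ * K / 8) (hα : α ≤ η * X) (hβ : -(η * X) ≤ β) (hK : K * X ≤ |α| + |β|) :
    μ * K / 2 * X ≤ β * Cm - α * Cn := by
  have h1 : |α| ≤ (η * X - α) + η * X := by
    rw [abs_le]; constructor <;> nlinarith
  have h2 : |β| ≤ (β + η * X) + η * X := by
    rw [abs_le]; constructor <;> nlinarith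
  have h3 : (K - 2 * η) * X ≤ (β + η * X) + (η * X - α) := by nlinarith
  have h4 : μ * (β + η * X) ≤ Cm * (β + η * X) :=
    mul_le_mul_of_nonneg_right hm (by linarith)
  have h5 : μ * (η * X - α) ≤ Cn * (η * X - α) :=
    mul_le_mul_of_nonneg_right hn (by linarith)
  have h6 : μ * ((K - 2 * η) * X) ≤ μ * ((β + η * X) + (η * X - α)) :=
    mul_le_mul_of_nonneg_left h3 hμ.le
  have h7 : 0 ≤ η * X := by positivity
  have h8 : Cm * (η * X) ≤ 1 * (η * X) := mul_le_mul_of_nonneg_right hm1 h7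
  have h9 : Cn * (η * X) ≤ 1 * (η * X) := mul_le_mul_of_nonneg_right hn1 h7
  have h10 : μ * (2 * η * X) ≤ 1 * (2 * η * X) :=
    mul_le_mul_of_nonneg_right hμ1 (by nlinarith)
  have h11 : η * X ≤ μ * K / 8 * X := mul_le_mul_of_nonneg_right hηK hX.le
  nlinarith

/-- coordinates with respect to two lines -/
theorem ip_lines (m n x P : ℂ) : cr n m * ip x P = ip x m * cr n P - ip x n * cr m P := by
  unfold cr ip; ring

theorem abs_cr_le (a b : ℂ) : |cr a b| ≤ ‖a‖ * ‖b‖ := by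
  have h1 := cr_sq_add_ip_sq a b
  have h2 : cr a b ^ 2 ≤ (‖a‖ * ‖b‖) ^ 2 := by
    rw [mul_pow]; nlinarith [sq_nonneg (ip a b)]
  exact abs_le_of_sq_le_sq h2 (by positivity)

/-- two coordinates control the norm -/
theorem norm_le_lines {m n x : ℂ} (hm : ‖m‖ = 1) (hn : ‖n‖ = 1) :
    |cr n m| * ‖x‖ ≤ |ip x m| + |ip x n| := by
  have h0 := ip_lines m n x x
  rw [ip_self] at h0
  have h1 : |cr n m| * ‖x‖ ^ 2 ≤ |ip x m| * ‖x‖ + |ip x n| * ‖x‖ := by
    have e : |cr n m| * ‖x‖ ^ 2 = |cr n m * ‖x‖ ^ 2| := by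
      rw [abs_mul, abs_of_nonneg (by positivity : (0 : ℝ) ≤ ‖x‖ ^ 2)]
    rw [e, h0]
    have k1 := abs_cr_le n x
    have k2 := abs_cr_le m x
    rw [hn, one_mul] at k1
    rw [hm, one_mul] at k2
    calc |ip x m * cr n x - ip x n * cr m x| ≤ |ip x m * cr n x| + |ip x n * cr m x| :=
          abs_sub _ _
      _ ≤ |ip x m| * ‖x‖ + |ip x n| * ‖x‖ := by
          rw [abs_mul, abs_mul]
          gcongr
  rcases (norm_nonneg x).lt_or_eq with h2 | h2
  · nlinarith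
  · rw [← h2, mul_zero]; positivity

/-- the side of `S(P)` on which a small vector between two lines lies -/
theorem side_of_lines {m n x P u : ℂ} {s μ η : ℝ} (hs : s = 1 ∨ s = -1) (hm : ‖m‖ = 1)
    (hn : ‖n‖ = 1) (hP : ‖P‖ = 1) (hu : u = s * (Complex.I * P)) (hx : 0 < ‖x‖) (hμ : 0 < μ)
    (h1 : μ ≤ ip u m) (h2 : μ ≤ ip u n) (hη : 0 ≤ η) (hηK : η ≤ μ * |cr n m| / 8)
    (hα : ip x m ≤ η * ‖x‖) (hβ : -(η * ‖x‖) ≤ ip x n) (hxμ : ‖x‖ < μ) (hc : cr n m ≠ 0) :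
    (0 < s * cr n m → ‖x - P‖ < 1) ∧ (s * cr n m < 0 → 1 < ‖x - P‖) := by
  have hs2 : s ^ 2 = 1 := by rcases hs with rfl | rfl <;> norm_num
  have hs1 : |s| = 1 := by rcases hs with rfl | rfl <;> simp
  have hu1 : ‖u‖ = 1 := by
    rw [hu, norm_mul, norm_mul, Complex.norm_I, hP, Complex.norm_real, Real.norm_eq_abs, hs1]
    norm_num
  have e1 : cr n P = -(s * ip u n) := by
    have : ip u n = s * cr P n := by rw [hu, ip_smul, ip_I]
    rw [this]
    have e : -(s * (s * cr P n)) = -(s ^ 2 * cr P n) := by ring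
    rw [e, hs2]
    unfold cr; ring
  have e2 : cr m P = -(s * ip u m) := by
    have : ip u m = s * cr P m := by rw [hu, ip_smul, ip_I]
    rw [this]
    have e : -(s * (s * cr P m)) = -(s ^ 2 * cr P m) := by ring
    rw [e, hs2]
    unfold cr; ring
  have hm1 : ip u m ≤ 1 := by
    have := (abs_le.1 (abs_ip_le u m)).2
    rwa [hu1, hm, one_mul] at this
  have hn1 : ip u n ≤ 1 := by
    have := (abs_le.1 (abs_ip_le u n)).2
    rwa [hu1, hn, one_mul] at this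
  have hK0 : 0 < |cr n m| := abs_pos.2 hc
  have key := bracket_pos hx hμ (h1.trans hm1) h1 h2 hm1 hn1 hη hηK hα hβ
    (norm_le_lines (x := x) hm hn)
  have e3 : cr n m * ip x P = s * (ip x n * ip u m - ip x m * ip u n) := by
    rw [ip_lines m n x P, e1, e2]; ring
  have e4 : (s * cr n m) * ip x P = ip x n * ip u m - ip x m * ip u n := by
    have : (s * cr n m) * ip x P = s * (cr n m * ip x P) := by ring
    rw [this, e3, ← mul_assoc, ← sq, hs2, one_mul]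
  have e5 : |s * cr n m| = |cr n m| := by rw [abs_mul, hs1, one_mul]
  have h12 := norm_sub_sq' x P
  rw [hP] at h12
  have h13 := norm_nonneg (x - P)
  constructor
  · intro h0
    rw [abs_of_pos h0] at e5
    have h3 : μ / 2 * ‖x‖ ≤ ip x P := by
      by_contra hcon
      push Not at hcon
      have h4 : (s * cr n m) * ip x P < (s * cr n m) * (μ / 2 * ‖x‖) :=
        mul_lt_mul_of_pos_left hcon h0
      rw [e4] at h4
      rw [← e5] at key
      nlinarith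
    have h17 : ‖x - P‖ ^ 2 < 1 := by nlinarith
    nlinarith
  · intro h0
    rw [abs_of_neg h0] at e5
    have h3 : ip x P ≤ -(μ / 2 * ‖x‖) := by
      by_contra hcon
      push Not at hcon
      have h4 : (s * cr n m) * ip x P < (s * cr n m) * -(μ / 2 * ‖x‖) :=
        mul_lt_mul_of_neg_left hcon h0
      rw [e4] at h4
      rw [← e5] at key
      nlinarith
    have h17 : 1 < ‖x - P‖ ^ 2 := by nlinarith [mul_pos hμ hx]
    nlinarith

/-- a point at distance one from a point near `ε * m` -/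
theorem near_line {x u u0 m : ℂ} {ε η : ℝ} (hε : ε = 1 ∨ ε = -1) (hu0 : u0 = ε * m)
    (x1 : ‖x - u‖ = 1) (hg : ε * (‖u‖ - 1) < 0) (hu : ‖u0 - u‖ < η / 2) (hx : ‖x‖ < η) :
    ip x m ≤ η * ‖x‖ := by
  have hε2 : ε ^ 2 = 1 := by rcases hε with rfl | rfl <;> norm_num
  have hx0 := norm_nonneg x
  have a1 := norm_sub_sq' x u
  rw [x1] at a1
  have a2 : ip x m = ε * ip x u + ε * ip x (u0 - u) := by
    have : ip x m = ε ^ 2 * ip x m := by rw [hε2, one_mul]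
    rw [this, hu0]
    unfold ip; simp; ring
  have a3 := abs_ip_le x (u0 - u)
  have a4 : |ε * ip x (u0 - u)| ≤ ‖x‖ * ‖u0 - u‖ := by
    rw [abs_mul]
    have : |ε| = 1 := by rcases hε with rfl | rfl <;> simp
    rw [this, one_mul]; exact a3
  have a5 := (abs_le.1 a4).2
  have a6 : ε * ip x u ≤ ‖x‖ ^ 2 / 2 := by
    have a7 : ε * ip x u = ε * ‖x‖ ^ 2 / 2 + ε * (‖u‖ - 1) * (‖u‖ + 1) / 2 := by
      have : 2 * ip x u = ‖x‖ ^ 2 + ‖u‖ ^ 2 - 1 := by linarith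
      have e : ε * ip x u = ε * (2 * ip x u) / 2 := by ring
      rw [e, this]; ring
    have a8 : ε * (‖u‖ - 1) * (‖u‖ + 1) ≤ 0 :=
      mul_nonpos_of_nonpos_of_nonneg hg.le (by have := norm_nonneg u; linarith)
    have a9 : ε * ‖x‖ ^ 2 ≤ ‖x‖ ^ 2 := by
      rcases hε with rfl | rfl <;> nlinarith [sq_nonneg ‖x‖]
    rw [a7]; linarith
  have a10 : ‖x‖ * ‖u0 - u‖ ≤ ‖x‖ * (η / 2) := mul_le_mul_of_nonneg_left hu.le hx0
  have a11 : ‖x‖ ^ 2 / 2 ≤ ‖x‖ * (η / 2) := by nlinarith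
  rw [a2]; linarith

theorem near_line' {x u u0 m : ℂ} {ε η : ℝ} (hε : ε = 1 ∨ ε = -1) (hu0 : u0 = ε * m)
    (x1 : ‖x - u‖ = 1) (hg : 0 < ε * (‖u‖ - 1)) (hu : ‖u0 - u‖ < η / 2) (hx : ‖x‖ < η) :
    -(η * ‖x‖) ≤ ip x m := by
  have h1 := near_line (x := x) (u := u) (u0 := u0) (m := -m) (ε := -ε) (η := η)
    (by rcases hε with rfl | rfl <;> norm_num) (by rw [hu0]; push_cast; ring) x1 (by linarith)
    hu hx
  have h2 : ip x (-m) = -ip x m := by unfold ip; simp; ring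
  rw [h2] at h1
  linarith

/-- a point at distance one from a point off the unit circle is not `0` -/
theorem ne_zero_of_off {x u : ℂ} (x1 : ‖x - u‖ = 1) (hu : ‖u‖ ≠ 1) : 0 < ‖x‖ := by
  rcases (norm_nonneg x).lt_or_eq with h1 | h1
  · exact h1
  · exfalso
    have h2 : x = 0 := norm_eq_zero.1 h1.symm
    rw [h2, zero_sub, norm_neg] at x1
    exact hu x1

/-- the events near a pair of unit vectors -/
theorem ev_pair {u0 v0 : ℂ} (hu0 : ‖u0‖ = 1) (hv0 : ‖v0‖ = 1) {s' : ℝ} (hs' : s' = 1 ∨ s' = -1)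
    (hs0 : s' * cr u0 v0 < 0) {η : ℝ} (hη : 0 < η) {z : ℂ} {E : ℂ → Prop} (hE : ∀ᶠ x in 𝓝 z, E x) :
    ∃ pa pb : ℂ → Prop, (∀ᶠ u in 𝓝 u0, pa u) ∧ (∀ᶠ v in 𝓝 v0, pb v) ∧
      ∀ u v, pa u → pb v → ‖tip s' u v - u‖ = 1 ∧ ‖tip s' u v - v‖ = 1 ∧ ‖tip s' u v‖ < η ∧
        ‖u0 - u‖ < η / 2 ∧ ‖v0 - v‖ < η / 2 ∧ E (z + tip s' u v) := by
  have ctip := tendsto_tip_cross hu0 hv0 hs' hs0
  have hcr1 : cr u0 v0 ≠ 0 := by
    intro h; rw [h, mul_zero] at hs0; exact lt_irrefl _ hs0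
  have e1 : ∀ᶠ w : ℂ × ℂ in 𝓝 (u0, v0), ‖tip s' w.1 w.2‖ < η := by
    have h1 := ctip.norm
    rw [norm_zero] at h1
    exact h1.eventually (Iio_mem_nhds hη)
  have e2 : ∀ᶠ w : ℂ × ℂ in 𝓝 (u0, v0), ‖u0 - w.1‖ < η / 2 := by
    have h1 : Tendsto (fun w : ℂ × ℂ => ‖u0 - w.1‖) (𝓝 (u0, v0)) (𝓝 ‖u0 - u0‖) := by
      have : Continuous fun w : ℂ × ℂ => ‖u0 - w.1‖ := by fun_prop
      exact this.tendsto (u0, v0)
    rw [sub_self, norm_zero] at h1
    exact h1.eventually (Iio_mem_nhds (by linarith))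
  have e3 : ∀ᶠ w : ℂ × ℂ in 𝓝 (u0, v0), ‖v0 - w.2‖ < η / 2 := by
    have h1 : Tendsto (fun w : ℂ × ℂ => ‖v0 - w.2‖) (𝓝 (u0, v0)) (𝓝 ‖v0 - v0‖) := by
      have : Continuous fun w : ℂ × ℂ => ‖v0 - w.2‖ := by fun_prop
      exact this.tendsto (u0, v0)
    rw [sub_self, norm_zero] at h1
    exact h1.eventually (Iio_mem_nhds (by linarith))
  have hD0 : 0 < ‖u0 - v0‖ ∧ ‖u0 - v0‖ < 2 := by
    have k1 := cr_sq_add_ip_sq u0 v0
    rw [hu0, hv0] at k1
    have k2 : 0 < cr u0 v0 ^ 2 := by positivity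
    have k3 := norm_sub_sq' u0 v0
    rw [hu0, hv0] at k3
    have k4 := norm_nonneg (u0 - v0)
    have k5 : -1 < ip u0 v0 := by nlinarith
    have k6 : ip u0 v0 < 1 := by nlinarith
    constructor
    · rcases k4.lt_or_eq with h | h
      · exact h
      · rw [← h] at k3; nlinarith
    · by_contra hcon
      push Not at hcon
      nlinarith
  have hDt : Tendsto (fun w : ℂ × ℂ => ‖w.1 - w.2‖) (𝓝 (u0, v0)) (𝓝 ‖u0 - v0‖) := by
    have : Continuous fun w : ℂ × ℂ => ‖w.1 - w.2‖ := by fun_prop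
    exact this.tendsto (u0, v0)
  have e4 := hDt.eventually (Ioi_mem_nhds hD0.1)
  have e5 := hDt.eventually (Iio_mem_nhds hD0.2)
  have hz0 : Tendsto (fun w : ℂ × ℂ => z + tip s' w.1 w.2) (𝓝 (u0, v0)) (𝓝 z) := by
    have := ctip.const_add z
    rwa [add_zero] at this
  have C := e1.and (e2.and (e3.and (e4.and (e5.and (hz0.eventually hE)))))
  rw [nhds_prod_eq, Filter.eventually_prod_iff] at C
  obtain ⟨pa, hpa, pb, hpb, hC⟩ := C
  refine ⟨pa, pb, hpa, hpb, fun u v hu hv => ?_⟩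
  obtain ⟨D1, D2, D3, D4, D5, D6⟩ := hC hu hv
  obtain ⟨x1, x2⟩ := tip_dist hs' D4 (le_of_lt D5)
  exact ⟨x1, x2, D1, D2, D3, D6⟩

/-- the end of the proof of the order rule -/
theorem Irr.order_fin (h : Irr U T) {z p q m n x : ℂ} {a b c d : Fin k} (hz : DPt T z a b c d)
    {s t : ℝ} (hs : s = 1 ∨ s = -1) (ht : t = 1 ∨ t = -1)
    {uc ub : ℂ} (huc : uc = s * (Complex.I * (p - z))) (hub : ub = -(t * (Complex.I * (q - z))))
    (hm : ‖m‖ = 1) (hn : ‖n‖ = 1) (hord : 0 < cr ub uc * cr n m) {μ η : ℝ} (hμ0 : 0 < μ)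
    (m1 : μ ≤ ip uc m) (m2 : μ ≤ ip uc n) (m3 : μ ≤ -ip ub m) (m4 : μ ≤ -ip ub n)
    (hP1 : ‖p - z‖ = 1) (hQ1 : ‖q - z‖ = 1) (hη : 0 ≤ η) (hηK : η ≤ μ * |cr n m| / 8)
    (hα : ip x m ≤ η * ‖x‖) (hβ : -(η * ‖x‖) ≤ ip x n) (hxμ : ‖x‖ < μ) (hx0 : 0 < ‖x‖)
    (hcr : cr n m ≠ 0) (D6 : Sm ub z p (z + x) → a ∉ Pal U (z + x))
    (D7 : Sm uc z q (z + x) → d ∉ Pal U (z + x)) (D8 : T (z + x) ⊆ T z)
    (hc' : c ∉ Pal U (z + x)) (hb' : b ∉ Pal U (z + x)) : False := by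
  have S1 := side_of_lines (u := uc) hs hm hn hP1 huc hx0 hμ0 m1 m2 hη hηK hα hβ hxμ hcr
  have S2 := side_of_lines (s := t) (u := -ub) ht hm hn hQ1 (by rw [hub, neg_neg]) hx0 hμ0
    (by rw [ip_neg]; exact m3) (by rw [ip_neg]; exact m4) hη hηK hα hβ hxμ hcr
  have hΔP : cr ub uc = s * ip ub (p - z) := by rw [huc]; unfold cr ip; simp; ring
  have hΔQ : cr ub uc = t * ip uc (q - z) := by rw [hub]; unfold cr ip; simp; ring
  have ex : ∀ y : ℂ, dist (z + x) y = ‖x - (y - z)‖ := by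
    intro y
    rw [dist_eq_norm]; congr 1; ring
  have h2 : 0 < (ip ub (p - z)) * (s * cr n m) := by
    have : (ip ub (p - z)) * (s * cr n m) = cr ub uc * cr n m := by rw [hΔP]; ring
    rw [this]; exact hord
  have h3 : 0 < (ip uc (q - z)) * (t * cr n m) := by
    have : (ip uc (q - z)) * (t * cr n m) = cr ub uc * cr n m := by rw [hΔQ]; ring
    rw [this]; exact hord
  have sP : Sm ub z p (z + x) := by
    constructor
    · intro h1
      rw [ex p]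
      exact S1.1 ((pos_iff_pos_of_mul_pos h2).1 h1)
    · intro h1
      rw [ex p]
      exact S1.2 ((neg_iff_neg_of_mul_pos h2).1 h1)
  have sQ : Sm uc z q (z + x) := by
    constructor
    · intro h1
      rw [ex q]
      exact S2.1 ((pos_iff_pos_of_mul_pos h3).1 h1)
    · intro h1
      rw [ex q]
      exact S2.2 ((neg_iff_neg_of_mul_pos h3).1 h1)
  have ha' := D6 sP
  have hd' := D7 sQ
  obtain ⟨i, hi⟩ := h.ne (z + x)
  have h6 := D8 hi
  rw [hz.pal] at h6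
  rcases h6 with rfl | rfl | rfl | h6
  · exact ha' (h.sub _ hi)
  · exact hb' (h.sub _ hi)
  · exact hc' (h.sub _ hi)
  · rw [mem_singleton_iff] at h6
    subst h6
    exact hd' (h.sub _ hi)

/-- **Order rule**, with given exact arcs and rays -/
theorem Irr.order_aux (h : Irr U T) {z p q m n : ℂ} {a b c d : Fin k} (hz : DPt T z a b c d)
    (hp : Arc T z p {a, b}) (hq : Arc T z q {c, d}) {s t ε ε' : ℝ} (hs : s = 1 ∨ s = -1)
    (ht : t = 1 ∨ t = -1) (hε : ε = 1 ∨ ε = -1) (hε' : ε' = 1 ∨ ε' = -1)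
    {uc ub : ℂ} (huc : uc = s * (Complex.I * (p - z))) (hub : ub = -(t * (Complex.I * (q - z))))
    (rc : Ray (U c) z uc) (rd : Ray (U d) z (-uc)) (rb : Ray (U b) z ub) (ra : Ray (U a) z (-ub))
    (hm : ‖m‖ = 1) (hn : ‖n‖ = 1) (C1 : 0 < ip uc m) (B1 : ip ub m < 0) (C2 : 0 < ip uc n)
    (B2 : ip ub n < 0) (hord : 0 < cr ub uc * cr n m)
    (hc : ∃ᶠ g in 𝓝 (z + ε * m), g ∈ U c ∧ ε * (‖g - z‖ - 1) < 0)
    (hb : ∃ᶠ g in 𝓝 (z + ε' * n), g ∈ U b ∧ 0 < ε' * (‖g - z‖ - 1)) : False := by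
  have hP1 : ‖p - z‖ = 1 := by rw [← dist_eq_norm]; exact hp.1
  have hQ1 : ‖q - z‖ = 1 := by rw [← dist_eq_norm]; exact hq.1
  have hε1 : ‖(ε : ℂ)‖ = 1 := by
    rw [Complex.norm_real, Real.norm_eq_abs]; rcases hε with rfl | rfl <;> simp
  have hε1' : ‖(ε' : ℂ)‖ = 1 := by
    rw [Complex.norm_real, Real.norm_eq_abs]; rcases hε' with rfl | rfl <;> simp
  have hu0 : ‖(ε : ℂ) * m‖ = 1 := by rw [norm_mul, hε1, hm, one_mul]
  have hv0 : ‖(ε' : ℂ) * n‖ = 1 := by rw [norm_mul, hε1', hn, one_mul]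
  have hcr : cr n m ≠ 0 := by
    intro h0; rw [h0, mul_zero] at hord; exact lt_irrefl _ hord
  have hcr1 : cr ((ε : ℂ) * m) ((ε' : ℂ) * n) ≠ 0 := by
    have hcr0 : cr ((ε : ℂ) * m) ((ε' : ℂ) * n) = -(ε * ε' * cr n m) := by
      unfold cr; simp; ring
    rw [hcr0]
    refine neg_ne_zero.2 (mul_ne_zero (mul_ne_zero ?_ ?_) hcr)
    · rcases hε with rfl | rfl <;> norm_num
    · rcases hε' with rfl | rfl <;> norm_num
  obtain ⟨s', hs', hs0⟩ : ∃ s' : ℝ, (s' = 1 ∨ s' = -1) ∧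
      s' * cr ((ε : ℂ) * m) ((ε' : ℂ) * n) < 0 := by
    rcases lt_or_gt_of_ne hcr1 with h1 | h1
    · exact ⟨1, Or.inl rfl, by linarith⟩
    · exact ⟨-1, Or.inr rfl, by linarith⟩
  -- constants
  obtain ⟨μ, hμ0, m1, m2, m3, m4⟩ : ∃ μ : ℝ, 0 < μ ∧ μ ≤ ip uc m ∧ μ ≤ ip uc n ∧
      μ ≤ -ip ub m ∧ μ ≤ -ip ub n :=
    ⟨min (min (ip uc m) (ip uc n)) (min (-ip ub m) (-ip ub n)),
      lt_min (lt_min C1 C2) (lt_min (by linarith) (by linarith)),
      (min_le_left _ _).trans (min_le_left _ _), (min_le_left _ _).trans (min_le_right _ _),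
      (min_le_right _ _).trans (min_le_left _ _), (min_le_right _ _).trans (min_le_right _ _)⟩
  have hK0 : 0 < |cr n m| := abs_pos.2 hcr
  have hη0 : 0 < min (μ * |cr n m| / 8) μ := lt_min (by positivity) hμ0
  have hΔP : cr ub uc = s * ip ub (p - z) := by rw [huc]; unfold cr ip; simp; ring
  have hΔQ : cr ub uc = t * ip uc (q - z) := by rw [hub]; unfold cr ip; simp; ring
  have hP0 : ip ub (p - z) ≠ 0 := by
    intro h0; rw [hΔP, h0, mul_zero, zero_mul] at hord; exact lt_irrefl _ hord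
  have hQ0 : ip uc (q - z) ≠ 0 := by
    intro h0; rw [hΔQ, h0, mul_zero, zero_mul] at hord; exact lt_irrefl _ hord
  have B1' := h.absent_side (w := ub) hp ra (by rwa [neg_neg]) (by
    rw [ip_neg]; nlinarith [mul_self_pos.2 hP0])
  have B2' := h.absent_side (a := d) (b := c) (w := uc) (u := -uc) (by rwa [pair_comm]) rd
    (by rwa [neg_neg]) (by rw [ip_neg]; nlinarith [mul_self_pos.2 hQ0])
  obtain ⟨pa, pb, hpa, hpb, hC⟩ := ev_pair hu0 hv0 hs' hs0 hη0 (B1'.and (B2'.and (h.nhd z)))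
  have t1 : ∀ v : ℂ, Tendsto (fun g : ℂ => g - z) (𝓝 (z + v)) (𝓝 v) := by
    intro v
    have : Continuous fun g : ℂ => g - z := by fun_prop
    have h2 := this.tendsto (z + v)
    rwa [add_sub_cancel_left] at h2
  obtain ⟨g, ⟨hgU, hgs⟩, hga⟩ := (hc.and_eventually ((t1 _).eventually hpa)).exists
  obtain ⟨g', ⟨hgU', hgs'⟩, hga'⟩ := (hb.and_eventually ((t1 _).eventually hpb)).exists
  obtain ⟨x1, x2, hx1, D2, D3, D6, D7, D8⟩ := hC _ _ hga hga'
  have hx0 : 0 < ‖tip s' (g - z) (g' - z)‖ := ne_zero_of_off x1 (by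
    intro h1; rw [h1, sub_self, mul_zero] at hgs; exact lt_irrefl _ hgs)
  have hα := near_line hε rfl x1 hgs D2 hx1
  have hβ := near_line' hε' rfl x2 hgs' D3 hx1
  exact h.order_fin hz hs ht huc hub hm hn hord hμ0 m1 m2 m3 m4 hP1 hQ1 hη0.le
    (min_le_left _ _) hα hβ (hx1.trans_le (min_le_right _ _)) hx0 hcr D6 D7 D8
    (h.mx.notMem' hgU (by
      rw [dist_eq_norm, ← norm_neg, ← x1]; congr 1; ring))
    (h.mx.notMem' hgU' (by
      rw [dist_eq_norm, ← norm_neg, ← x2]; congr 1; ring))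

end Vale.Agent.P032.Six
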