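import Vale.Agent.P032.R2.H659.Top4
import Vale.Agent.P032.R2.H492.Out2

/-!
# P032: the second certificate from three roots

`z = {a, b | c, d}`, `y = {a, e | b, f}` and `w = {a, c | e, f}` on the circle of `z`, `w = pt z u0`.

* `BoxA`, `BoxC`: the points of the circle at `u0 + 2` and `u0 + 4` do not both have `a, b` and not both
  `c, d`;
* `BoxN`: no such `z, y, w` if the two points have different pairs;
* `WT.certS2_of`: `CertS2 T`.
-/

set_option autoImplicit false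

open Set Filter Topology Metric

noncomputable section

namespace Vale.Agent.P032.Six

open S5.H767 (pt dist_pt pt_six)

variable {U : Fin 6 → Set ℂ} {T : ℂ → Set (Fin 6)} {z y w p : ℂ} {a b c d e f : Fin 6}

/-- root `R2A` -/
def BoxA (T : ℂ → Set (Fin 6)) : Prop :=
  ∀ {z y : ℂ} {a b c d e f : Fin 6} {u0 : ℝ}, DPt T z a b c d → [a, b, c, d, e, f].Nodup →
    dist y z = 1 → DPt T y a e b f → DPt T (pt z u0) a c e f →
    (a ∈ T (pt z (u0 + 2)) ∧ b ∈ T (pt z (u0 + 2))) →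
    (a ∈ T (pt z (u0 + 4)) ∧ b ∈ T (pt z (u0 + 4))) → False

/-- root `R2C` -/
def BoxC (T : ℂ → Set (Fin 6)) : Prop :=
  ∀ {z y : ℂ} {a b c d e f : Fin 6} {u0 : ℝ}, DPt T z a b c d → [a, b, c, d, e, f].Nodup →
    dist y z = 1 → DPt T y a e b f → DPt T (pt z u0) a c e f →
    (c ∈ T (pt z (u0 + 2)) ∧ d ∈ T (pt z (u0 + 2))) →
    (c ∈ T (pt z (u0 + 4)) ∧ d ∈ T (pt z (u0 + 4))) → False

/-- root `S2n` -/
def BoxN (T : ℂ → Set (Fin 6)) : Prop :=
  ∀ {z y : ℂ} {a b c d e f : Fin 6} {u0 : ℝ}, DPt T z a b c d → [a, b, c, d, e, f].Nodup →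
    dist y z = 1 → DPt T y a e b f → DPt T (pt z u0) a c e f →
    (∀ i, i = a ∨ i = b → ∀ j, j = a ∨ j = b → i ∈ T (pt z (u0 + 2)) → j ∈ T (pt z (u0 + 4)) →
      False) →
    (∀ i, i = c ∨ i = d → ∀ j, j = c ∨ j = d → i ∈ T (pt z (u0 + 2)) → j ∈ T (pt z (u0 + 4)) →
      False) → False

namespace WT

/-- a point of the circle with both colours of a pair has no colour of the other pair -/
theorem pair_only659 (H : WT U T) (hz : DPt T z a b c d) (nd : [a, b, c, d, e, f].Nodup)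
    (hp : dist p z = 1) (ha : a ∈ T p) (hb : b ∈ T p) : c ∉ T p ∧ d ∉ T p := by
  obtain ⟨⟨ab, ac, ad, ae, af⟩, ⟨bc, bd, be, bf⟩, ⟨cd, ce, cf⟩, ⟨de, df⟩, ef⟩ := nodup_sep nd
  have haz : a ∈ T z := by rw [hz.pal]; simp
  have hbz : b ∈ T z := by rw [hz.pal]; simp
  have key : ∀ i, a ≠ i → b ≠ i → i ∈ T z → i ∉ T p := by
    intro i h1 h2 hiz hip
    rcases Nat.lt_or_ge (T p).ncard 4 with hlt | hge
    · have hss : {a, b} ⊂ T p := by
        refine ⟨?_, fun h3 => ?_⟩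
        · rintro j (rfl | hj)
          · exact ha
          · rw [mem_singleton_iff] at hj; rw [hj]; exact hb
        · rcases h3 hip with h5 | h5
          · exact h1 h5.symm
          · rw [mem_singleton_iff] at h5; exact h2 h5.symm
      obtain ⟨g, hg, hTp⟩ := H.irr.third hz hp (by omega) hss
      rw [hTp] at hip
      rcases hip with h5 | h5 | h5
      · exact h1 h5.symm
      · exact h2 h5.symm
      · rw [mem_singleton_iff] at h5; exact hg (h5 ▸ hiz)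
    · have h5 := H.le4 hz.card.ge hp
      exact H.no_three hp (by omega) hz.card ab h1 h2 ⟨ha, haz⟩ ⟨hb, hbz⟩ ⟨hip, hiz⟩
  exact ⟨key c ac bc (by rw [hz.pal]; simp), key d ad bd (by rw [hz.pal]; simp)⟩

/-- **The second certificate.** -/
theorem certS2_of (H : WT U T) (hmin : MinF U T) (A : BoxA T) (C : BoxC T) (N : BoxN T) :
    CertS2 T := by
  intro z y w a b c d e f hz nd hyz hy hwz hw
  obtain ⟨⟨ab, ac, ad, ae, af⟩, ⟨bc, bd, be, bf⟩, ⟨cd, ce, cf⟩, ⟨de, df⟩, ef⟩ := nodup_sep nd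
  obtain ⟨u0, rfl⟩ := exists_ptc hwz
  have nd' : [c, d, a, b, e, f].Nodup := nodup_swap609 nd
  have p2 := H.f_out2 hmin hz nd (Or.inl rfl) hw
  have p4 := H.f_out2 hmin hz nd (Or.inr rfl) hw
  rw [show u0 + 2 * (1 : ℝ) = u0 + 2 by ring] at p2
  have e4 : pt z (u0 + 2 * (-1 : ℝ)) = pt z (u0 + 4) := by
    rw [← pt_six z (u0 + 2 * (-1 : ℝ))]
    congr 1; ring
  rw [e4] at p4
  have d2 := dist_pt z (u0 + 2)
  have d4 := dist_pt z (u0 + 4)
  have n2 : a ∈ T (pt z (u0 + 2)) → b ∈ T (pt z (u0 + 2)) →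
      c ∉ T (pt z (u0 + 2)) ∧ d ∉ T (pt z (u0 + 2)) := H.pair_only659 hz nd d2
  have n4 : a ∈ T (pt z (u0 + 4)) → b ∈ T (pt z (u0 + 4)) →
      c ∉ T (pt z (u0 + 4)) ∧ d ∉ T (pt z (u0 + 4)) := H.pair_only659 hz nd d4
  have m2 : c ∈ T (pt z (u0 + 2)) → d ∈ T (pt z (u0 + 2)) →
      a ∉ T (pt z (u0 + 2)) ∧ b ∉ T (pt z (u0 + 2)) := H.pair_only659 hz.swap nd' d2
  have m4 : c ∈ T (pt z (u0 + 4)) → d ∈ T (pt z (u0 + 4)) →
      a ∉ T (pt z (u0 + 4)) ∧ b ∉ T (pt z (u0 + 4)) := H.pair_only659 hz.swap nd' d4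
  rcases p2 with h2 | h2 <;> rcases p4 with h4 | h4
  · exact A hz nd hyz hy hw h2 h4
  · obtain ⟨k1, k2⟩ := n2 h2.1 h2.2
    obtain ⟨l1, l2⟩ := m4 h4.1 h4.2
    refine N hz nd hyz hy hw (fun i _ j hj _ h => ?_) fun i hi j _ h _ => ?_
    · rcases hj with rfl | rfl
      exacts [l1 h, l2 h]
    · rcases hi with rfl | rfl
      exacts [k1 h, k2 h]
  · obtain ⟨k1, k2⟩ := m2 h2.1 h2.2
    obtain ⟨l1, l2⟩ := n4 h4.1 h4.2
    refine N hz nd hyz hy hw (fun i hi j _ h _ => ?_) fun i _ j hj _ h => ?_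
    · rcases hi with rfl | rfl
      exacts [k1 h, k2 h]
    · rcases hj with rfl | rfl
      exacts [l1 h, l2 h]
  · exact C hz nd hyz hy hw h2 h4

end WT

end Vale.Agent.P032.Six
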