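import Vale.Agent.P032.R2.H659.S2H
import Vale.Agent.P032.R2.H741.R2A.Top

/-!
# P032: the box `R2A`

At a contact `{a, c | e, f}` of `z = {a, b | c, d}` the two places beside it do not both have `a, b`.
-/

set_option autoImplicit false

open Set Filter Topology Metric

noncomputable section

namespace Vale.Agent.P032.R2.H659

open Vale.Agent.P032.Six Vale.Agent.P032.Words Vale.Agent.P032.S5.H767
open Vale.Agent.P032.R2.H741.Tp Vale.Agent.P032.R2.H264 Vale.Agent.P032.R2.H137

variable {U : Fin 6 → Set ℂ} {T : ℂ → Set (Fin 6)}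

theorem crtA : Crt rdR2 exA R2.H741.R2A.inv where
  hst := R2.H741.R2A.inv_st
  start := R2.H741.R2A.top_start
  step := R2.H741.R2A.top_step
  fin := R2.H741.R2A.top_fin

/-- **The box `R2A`.** -/
theorem boxA (H : WT U T) (hmin : MinF U T) : BoxA T := boxA_of (fr_R2 H hmin) crtA

end Vale.Agent.P032.R2.H659
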