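import Vale.Agent.P032.R2.H659.S2F
import Vale.Agent.P032.R2.H492.PMS
import Vale.Agent.P032.R2.H301.FieldT
import Vale.Agent.P032.R2.H413.SemF

/-!
# P032: the hypotheses of the fields for the root `rdS2`
-/

set_option autoImplicit false

open Set Filter Topology Metric

noncomputable section

namespace Vale.Agent.P032.R2.H659

open Vale.Agent.P032.Six Vale.Agent.P032.Words Vale.Agent.P032.S5.H767
open Vale.Agent.P032.R2.H741.Tp Vale.Agent.P032.R2.H264 Vale.Agent.P032.R2.H137
open Vale.Agent.P032.R2.H492 (YH)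

variable {U : Fin 6 → Set ℂ} {T : ℂ → Set (Fin 6)} {z y w : ℂ} {a b c d e f : Fin 6} {u0 : ℝ}

theorem yhS2 (h0 : pt z u0 = y) : YH rdS2 (datS2 T z w y a b c d e f u0) where
  hp := fun s _ _ => by show (1 : ℕ) < 2; norm_num
  s0 := by
    intro s h1 h2
    have h1 : 2 ≤ s := h1
    have h2 : s < 3 := h2
    obtain rfl : s = 2 := by omega
    rfl
  s1 := by
    intro s h1 h2
    have h1 : 2 ≤ s := h1
    have h2 : s < 3 := h2
    obtain rfl : s = 2 := by omega
    rfl
  s2 := by
    intro s h1 h2
    have h1 : 2 ≤ s := h1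
    have h2 : s < 3 := h2
    obtain rfl : s = 2 := by omega
    rfl
  s3 := by
    intro s h1 h2
    have h1 : 2 ≤ s := h1
    have h2 : s < 3 := h2
    obtain rfl : s = 2 := by omega
    rfl
  anc := by
    intro s h1 h2 _
    have h1 : 2 ≤ s := h1
    have h2 : s < 3 := h2
    obtain rfl : s = 2 := by omega
    exact h0

theorem apS2 (hy : DPt T y a e b f) (h0 : pt z u0 = y) :
    ∀ r < rdS2.R, ∀ p < 2, rdS2.ap r = p + 1 →
      DPt T (pt ((datS2 T z w y a b c d e f u0).c r) u0)
        ((datS2 T z w y a b c d e f u0).x (rdS2.sg r (2 * p)))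
        ((datS2 T z w y a b c d e f u0).x (rdS2.sg r 4))
        ((datS2 T z w y a b c d e f u0).x (rdS2.sg r (2 * p + 1)))
        ((datS2 T z w y a b c d e f u0).x (rdS2.sg r 5)) ∨
      DPt T (pt ((datS2 T z w y a b c d e f u0).c r) u0)
        ((datS2 T z w y a b c d e f u0).x (rdS2.sg r (2 * p)))
        ((datS2 T z w y a b c d e f u0).x (rdS2.sg r 5))
        ((datS2 T z w y a b c d e f u0).x (rdS2.sg r (2 * p + 1)))
        ((datS2 T z w y a b c d e f u0).x (rdS2.sg r 4)) := by
  intro r hr p hp h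
  have hr : r < 2 := hr
  interval_cases r
  · interval_cases p
    · left
      have h1 : DPt T (pt z u0) a e b f := by rw [h0]; exact hy
      exact h1
    · exact absurd h (by decide)
  · interval_cases p
    · exact absurd h (by decide)
    · exact absurd h (by decide)

theorem adS2 (hy : DPt T y a e b f) (h0 : pt z u0 = y) :
    ∀ r < rdS2.R, ∀ n < 16, rdS2.ad r = n + 1 →
      DPt T (pt ((datS2 T z w y a b c d e f u0).c r) u0)
        ((datS2 T z w y a b c d e f u0).x (pc rdS2 r n 0))
        ((datS2 T z w y a b c d e f u0).x (pc rdS2 r n 1))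
        ((datS2 T z w y a b c d e f u0).x (pc rdS2 r n 2))
        ((datS2 T z w y a b c d e f u0).x (pc rdS2 r n 3)) := by
  intro r hr n hn h
  have hr : r < 2 := hr
  interval_cases r
  · have h2 : (1 : ℕ) = n + 1 := h
    obtain rfl : n = 0 := by omega
    have h1 : DPt T (pt z u0) a e b f := by rw [h0]; exact hy
    exact h1
  · have h2 : (0 : ℕ) = n + 1 := h
    omega

/-- the time of a point of a circle -/
theorem exists_u0 (hyz : dist y z = 1) : ∃ u0 : ℝ, pt z u0 = y := by
  obtain ⟨v, hv⟩ := exists_ptc hyz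
  exact ⟨v, hv.symm⟩

end Vale.Agent.P032.R2.H659
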