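import Vale.Agent.P032.R2.H659.S2R
import Vale.Agent.P032.R2.H609.S2n

/-!
# P032: the halves of the box `S2n`

`BoxH`: colours `a, b` at `u0 + 2` and `c, d` at `u0 + 4`; `BoxH'`: the reverse; `exH`: the clauses about
the first instant; `fr_R2`, `fr_S2n`: the systems `rdR2`, `rdS2n` describe the situation.
-/

set_option autoImplicit false

open Set Filter Topology Metric

noncomputable section

namespace Vale.Agent.P032.Six

open S5.H767 (pt dist_pt pt_six)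

variable {U : Fin 6 → Set ℂ} {T : ℂ → Set (Fin 6)} {z y w p : ℂ} {a b c d e f : Fin 6}

/-- root `S2n`, `a, b` at `u0 + 2` and `c, d` at `u0 + 4` -/
def BoxH (T : ℂ → Set (Fin 6)) : Prop :=
  ∀ {z y : ℂ} {a b c d e f : Fin 6} {u0 : ℝ}, DPt T z a b c d → [a, b, c, d, e, f].Nodup →
    dist y z = 1 → DPt T y a e b f → DPt T (pt z u0) a c e f →
    (a ∈ T (pt z (u0 + 2)) ∧ b ∈ T (pt z (u0 + 2))) →
    (c ∈ T (pt z (u0 + 4)) ∧ d ∈ T (pt z (u0 + 4))) → False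

/-- root `S2n`, `c, d` at `u0 + 2` and `a, b` at `u0 + 4` -/
def BoxH' (T : ℂ → Set (Fin 6)) : Prop :=
  ∀ {z y : ℂ} {a b c d e f : Fin 6} {u0 : ℝ}, DPt T z a b c d → [a, b, c, d, e, f].Nodup →
    dist y z = 1 → DPt T y a e b f → DPt T (pt z u0) a c e f →
    (c ∈ T (pt z (u0 + 2)) ∧ d ∈ T (pt z (u0 + 2))) →
    (a ∈ T (pt z (u0 + 4)) ∧ b ∈ T (pt z (u0 + 4))) → False

/-- **The second certificate from four boxes.** -/
theorem WT.certS2_of4 (H : WT U T) (hmin : MinF U T) (A : BoxA T) (C : BoxC T) (N : BoxH T)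
    (N' : BoxH' T) : CertS2 T := by
  intro z y w a b c d e f hz nd hyz hy hwz hw
  obtain ⟨u0, rfl⟩ := exists_ptc hwz
  have p2 := H.f_out2 hmin hz nd (Or.inl rfl) hw
  have p4 := H.f_out2 hmin hz nd (Or.inr rfl) hw
  rw [show u0 + 2 * (1 : ℝ) = u0 + 2 by ring] at p2
  have e4 : pt z (u0 + 2 * (-1 : ℝ)) = pt z (u0 + 4) := by
    rw [← pt_six z (u0 + 2 * (-1 : ℝ))]
    congr 1; ring
  rw [e4] at p4
  rcases p2 with h2 | h2 <;> rcases p4 with h4 | h4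
  · exact A hz nd hyz hy hw h2 h4
  · exact N hz nd hyz hy hw h2 h4
  · exact N' hz nd hyz hy hw h2 h4
  · exact C hz nd hyz hy hw h2 h4

end Vale.Agent.P032.Six

namespace Vale.Agent.P032.R2.H659

open Vale.Agent.P032.Six Vale.Agent.P032.Words Vale.Agent.P032.S5.H767
open Vale.Agent.P032.R2.H741.Tp Vale.Agent.P032.R2.H264 Vale.Agent.P032.R2.H137

/-- `a, b` at `(0, 2)` and `c, d` at `(0, 4)` -/
def exH : List (List ℕ) := [[2 * aC 0 2 0], [2 * aC 0 2 1], [2 * aC 0 4 2], [2 * aC 0 4 3]]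

theorem hd_exH {S : Sem} (h2 : S.C 0 2 0 ∧ S.C 0 2 1) (h4 : S.C 0 4 2 ∧ S.C 0 4 3) :
    ∀ c ∈ exH, Hd (val S) c := by
  intro c hc
  unfold exH at hc
  simp only [List.mem_cons, List.not_mem_nil, or_false] at hc
  rcases hc with rfl | rfl | rfl | rfl
  · exact hd_unit (by norm_num) (by norm_num) h2.1
  · exact hd_unit (by norm_num) (by norm_num) h2.2
  · exact hd_unit (by norm_num) (by norm_num) h4.1
  · exact hd_unit (by norm_num) (by norm_num) h4.2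

theorem sem_exH {U : Fin 6 → Set ℂ} {T : ℂ → Set (Fin 6)} {G : RD} {D : Dat} {L0 L K : Sl G}
    {u : ℝ} (h2 : D.x 0 ∈ T (pt (D.c 0) (u + 2)) ∧ D.x 1 ∈ T (pt (D.c 0) (u + 2)))
    (h4 : D.x 2 ∈ T (pt (D.c 0) (u + 4)) ∧ D.x 3 ∈ T (pt (D.c 0) (u + 4))) :
    ∀ c ∈ exH, Hd (val (semAt U T G D L0 u L K)) c :=
  hd_exH ⟨sem_C2.2 h2.1, sem_C2.2 h2.2⟩ ⟨sem_C4.2 h4.1, sem_C4.2 h4.2⟩

variable {U : Fin 6 → Set ℂ} {T : ℂ → Set (Fin 6)}

theorem boxH_of (fr : Fr U T rdS2n) {inv : List (List ℕ)} (C : Crt rdS2n exH inv) : BoxH T := by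
  intro z y a b c d e f u0 hz nd hyz hy hw h2 h4
  obtain ⟨D, W, rfl, rfl, rfl, rfl, rfl, rfl⟩ := fr hz nd hyz hy hw
  exact W.no_rootE (E := fun S => ∀ c ∈ exH, Hd (val S) c) (fun _ _ _ _ => sem_exH h2 h4) C.hst
    C.start C.step C.fin

theorem fr_R2 (H : WT U T) (hmin : MinF U T) : Fr U T rdR2 :=
  fun hz nd hyz hy hw => ⟨_, R2.H609.hpR2 H hmin hz nd hyz hy hw, rfl, rfl, rfl, rfl, rfl, rfl⟩

theorem fr_S2n (H : WT U T) (hmin : MinF U T) : Fr U T rdS2n :=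
  fun hz nd hyz hy hw => ⟨_, R2.H609.hpS2n H hmin hz nd hyz hy hw, rfl, rfl, rfl, rfl, rfl, rfl⟩

end Vale.Agent.P032.R2.H659
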