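import Vale.Agent.P032.R2.H659.S2W
import Vale.Agent.P032.R2.H741.TpS

/-!
# P032: certificates for the start words, in the form of `no_words`

`crt_mk`: the four parts of a word certificate; `lits`: a word as unit clauses.
-/

set_option autoImplicit false

namespace Vale.Agent.P032.R2.H659

open Vale.Agent.P032.R2.H741.Tp Vale.Agent.P032.R2.H137
open Vale.Agent.P032.R2.H805.Step

/-- a certificate with the clauses `ex` and the word `un` about the first instant -/
theorem crt_mk {G : RD} {ex un inv : List (List ℕ)} (g : goodb G = true)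
    (hst : ∀ c ∈ inv, ∀ j ∈ c, j / 2 < 704 * (G.R + G.Y) ∧ isSt (j / 2 % 704) = true)
    (start : ∀ {S : Sem}, Ax G S → (∀ f : CI, f.ok G = true → Hd (val S) (f.cl G)) →
      (∀ c ∈ ex, Hd (val S) c) → (∀ c ∈ un, Hd (val S) c) →
      ∀ c ∈ inv, Hd (val S) (c.map nxl))
    (step : ∀ {S : Sem}, Ax G S → (∀ c ∈ inv, Hd (val S) c) →
      ∀ c ∈ inv, Hd (val S) (c.map nxl))
    (fin : ∀ {S : Sem}, (∀ f : CS, f.ok G = true → Hd (val S) (f.cl G)) →
      (∀ f : CB, f.ok G = true → Hd (val S) (f.cl G)) → ¬ ∀ c ∈ inv, Hd (val S) c) :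
    Crt G (ex ++ un) inv where
  hst := hst
  start _ F F' F'' h := start (ax_of g F F') (ci_of g F'')
    (fun c hc => h c (List.mem_append_left _ hc)) (fun c hc => h c (List.mem_append_right _ hc))
  step _ F F' := step (ax_of g F F')
  fin _ F F' := fin (cs_of g F) (cb_of g F')

/-- a word of literals as unit clauses -/
def lits (u : List ℕ) : List (List ℕ) := u.map fun j => [j]

theorem hd_lits {S : Sem} {u : List ℕ} (h : ∀ j ∈ u, Hd (val S) [j]) :
    ∀ c ∈ lits u, Hd (val S) c := by
  intro c hc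
  obtain ⟨j, hj, rfl⟩ := List.mem_map.1 hc
  exact h j hj

end Vale.Agent.P032.R2.H659
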