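import Vale.Agent.P032.R2.H659.S2H

/-!
# P032: roots split over the start words

`no_rootL`: 264's `no_rootE` for a fixed limit `L0` at the anchor time; `no_words`: a cover of the start
words and one certificate for every word; `boxH_of_words`, `boxN_of_words`, `boxC_of_words`.
The clauses of a word are about the initial letters (`I r k l`).
-/

set_option autoImplicit false

open Set Filter Topology Metric

noncomputable section

namespace Vale.Agent.P032.R2.H659

open Vale.Agent.P032.Six Vale.Agent.P032.Words Vale.Agent.P032.S5.H767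
open Vale.Agent.P032.R2.H741.Tp Vale.Agent.P032.R2.H264 Vale.Agent.P032.R2.H137

variable {U : Fin 6 → Set ℂ} {T : ℂ → Set (Fin 6)} {G : RD} {D : Dat}

/-- **No root**, for a fixed limit at the anchor time -/
theorem no_rootL (W : Hp U T G D) {L0 : Sl G}
    (hL0 : LimL (posX (cen G D) (lts G D)) (Good (cen G D)) D.u0 L0) {E : Sem → Prop}
    (hE : ∀ K : Sl G, LimR (posX (cen G D) (lts G D)) (Good (cen G D)) D.u0 K →
      E (semAt U T G D L0 D.u0 L0 K))
    {inv : List (List ℕ)}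
    (hst : ∀ c ∈ inv, ∀ j ∈ c, j / 2 < 704 * (G.R + G.Y) ∧ R2.H264.isSt (j / 2 % 704) = true)
    (start : ∀ S, SF G S → TF G S → IF G S → E S → ∀ c ∈ inv, Hd (val S) (c.map R2.H264.nxl))
    (step : ∀ S, SF G S → TF G S → (∀ c ∈ inv, Hd (val S) c) →
      ∀ c ∈ inv, Hd (val S) (c.map R2.H264.nxl))
    (fin : ∀ S, SF G S → BF G S → ¬ ∀ c ∈ inv, Hd (val S) c) : False := by
  have R := W.rings
  have hL1 := limL_add_one hL0
  refine no_cert W.wt.irr R hL0 hst ?_ ?_ ?_
  · intro K hK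
    exact start _ (W.sF hL0) (W.tF le_rfl (by linarith) hL0 hK) Hp.iF (hE _ hK)
  · intro u h1 h2 L K hL hK h
    exact step _ (W.sF hL) (W.tF h1.le h2 hL hK) h
  · exact fin _ (W.sF hL1) W.bF

/-- the clauses are about the initial letters -/
def Iw (u : List (List ℕ)) : Prop := ∀ c ∈ u, ∀ j ∈ c, 380 ≤ j / 2 % 704 ∧ j / 2 % 704 < 404

/-- the same, decidable -/
def iw (u : List (List ℕ)) : Bool :=
  u.all fun c => c.all fun j => Nat.ble 380 (j / 2 % 704) && Nat.blt (j / 2 % 704) 404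

theorem Iw.of {u : List (List ℕ)} (h : iw u = true) : Iw u := by
  intro c hc j hj
  unfold iw at h
  rw [List.all_eq_true] at h
  have h1 := h c hc
  rw [List.all_eq_true] at h1
  have h2 := h1 j hj
  rw [Bool.and_eq_true, Nat.ble_eq, Nat.blt_eq] at h2
  exact h2

/-- the initial letters do not depend on the instant -/
theorem hd_iw {u : List (List ℕ)} (h : Iw u) {L0 L K L' K' : Sl G} {v v' : ℝ}
    (h1 : ∀ c ∈ u, Hd (val (semAt U T G D L0 v L K)) c) :
    ∀ c ∈ u, Hd (val (semAt U T G D L0 v' L' K')) c := by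
  intro c hc
  refine (hd_congr fun j hj => ?_).1 (h1 c hc)
  obtain ⟨h2, h3⟩ := h c hc j hj
  unfold val
  rw [ev_I h2 h3, ev_I h2 h3]
  exact Iff.rfl

/-- **No root, split over the start words** -/
theorem no_words (W : Hp U T G D) {ex : List (List ℕ)}
    (hex : ∀ L0 K : Sl G, ∀ c ∈ ex, Hd (val (semAt U T G D L0 D.u0 L0 K)) c)
    {words : List (List (List ℕ))} (hI : ∀ u ∈ words, Iw u)
    (cover : ∀ S, SF G S → TF G S → IF G S → (∀ c ∈ ex, Hd (val S) c) →
      ∃ u ∈ words, ∀ c ∈ u, Hd (val S) c)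
    (C : ∀ u ∈ words, ∃ inv, Crt G (ex ++ u) inv) : False := by
  have R := W.rings
  obtain ⟨L0, -, -, hL0⟩ := (R.sys W.wt.irr).exists_limL D.u0
  obtain ⟨K0, -, -, hK0⟩ := (R.sys W.wt.irr).exists_limR D.u0
  obtain ⟨u, hu, h1⟩ := cover _ (W.sF hL0) (W.tF le_rfl (by linarith) hL0 hK0) Hp.iF (hex L0 K0)
  obtain ⟨inv, c⟩ := C u hu
  refine no_rootL W hL0 (E := fun S => ∀ c ∈ ex ++ u, Hd (val S) c) (fun K _ c hc => ?_) c.hst
    c.start c.step c.fin
  rcases List.mem_append.1 hc with h2 | h2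
  · exact hex L0 K c h2
  · exact hd_iw (hI u hu) h1 c h2

theorem boxH_of_words (fr : Fr U T rdS2n) {words : List (List (List ℕ))}
    (hI : ∀ u ∈ words, Iw u)
    (cover : ∀ S, SF rdS2n S → TF rdS2n S → IF rdS2n S → (∀ c ∈ exH, Hd (val S) c) →
      ∃ u ∈ words, ∀ c ∈ u, Hd (val S) c)
    (C : ∀ u ∈ words, ∃ inv, Crt rdS2n (exH ++ u) inv) : BoxH T := by
  intro z y a b c d e f u0 hz nd hyz hy hw h2 h4
  obtain ⟨D, W, rfl, rfl, rfl, rfl, rfl, rfl⟩ := fr hz nd hyz hy hw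
  exact no_words W (fun _ _ => sem_exH h2 h4) hI cover C

theorem boxN_of_words (fr : Fr U T rdS2n) {words : List (List (List ℕ))}
    (hI : ∀ u ∈ words, Iw u)
    (cover : ∀ S, SF rdS2n S → TF rdS2n S → IF rdS2n S → (∀ c ∈ exN, Hd (val S) c) →
      ∃ u ∈ words, ∀ c ∈ u, Hd (val S) c)
    (C : ∀ u ∈ words, ∃ inv, Crt rdS2n (exN ++ u) inv) : BoxN T := by
  intro z y a b c d e f u0 hz nd hyz hy hw h h'
  obtain ⟨D, W, rfl, rfl, rfl, rfl, rfl, rfl⟩ := fr hz nd hyz hy hw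
  exact no_words W (fun _ _ => sem_exN h h') hI cover C

theorem boxC_of_words (fr : Fr U T rdR2) {words : List (List (List ℕ))}
    (hI : ∀ u ∈ words, Iw u)
    (cover : ∀ S, SF rdR2 S → TF rdR2 S → IF rdR2 S → (∀ c ∈ exC, Hd (val S) c) →
      ∃ u ∈ words, ∀ c ∈ u, Hd (val S) c)
    (C : ∀ u ∈ words, ∃ inv, Crt rdR2 (exC ++ u) inv) : BoxC T := by
  intro z y a b c d e f u0 hz nd hyz hy hw h2 h4
  obtain ⟨D, W, rfl, rfl, -, -, rfl, rfl⟩ := fr hz nd hyz hy hw
  exact no_words W (fun _ _ => sem_exC h2 h4) hI cover C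

end Vale.Agent.P032.R2.H659
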