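import Vale.Agent.P032.R2.H659.Tie3

/-!
# Words on a circle with T3 contacts: passing an instant with marks

The middle positions of T3 contacts (set `D`) get a letter `μ ∈ {e, f}`.
-/

namespace Vale.Agent.P032.Words

open Set Filter Topology

/-- the letter of the mark `k`, before (`k ∉ S`) or after (`k ∈ S`) -/
def sel (a b : Fin 6 → Fin 4) (S : Finset (Fin 6)) (k : Fin 6) : Fin 4 := if k ∈ S then b k else a k

open Classical in
/-- the hexagon with the marks `M`, the middle positions `D` -/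
noncomputable def hexG (X : Fin 4 → Set ℝ) (u : ℝ) (M D : Finset (Fin 6)) (a b : Fin 6 → Fin 4)
    (S : Finset (Fin 6)) (μ : Fin 4) : Hx := fun k =>
  if k ∈ M then sel a b S k else if k ∈ D then μ else stT X u k

/-- the data of an instant with marks -/
structure Inst (X : Fin 4 → Set ℝ) (u : ℝ) (M D : Finset (Fin 6)) (a b : Fin 6 → Fin 4) :
    Prop where
  raw : RawT3 X
  mark : ∀ k ∈ M, Mark X (a k) (b k) (u + (k.val : ℝ))
  ty : ∀ k ∈ M, Ty (a k) (b k)
  free : ∀ k ∉ M, ∀ x y, u + (k.val : ℝ) ∈ X x → u + (k.val : ℝ) ∈ X y → Fr x y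
  mid0 : ∀ k ∈ D, u + (k.val : ℝ) ∈ X 0
  mid1 : ∀ k ∈ D, u + (k.val : ℝ) ∈ X 1
  dis : ∀ k ∈ D, k ∉ M
  nb : ∀ k ∈ D, k - 1 ∈ M ∧ k + 1 ∈ M
  three : ∀ k ∈ M, k + 1 ∉ M → k + 1 ∉ D → u + (k.val : ℝ) ∈ X 3 → u + (k.val : ℝ) + 1 ∈ X 0 →
    u + (k.val : ℝ) + 1 ∈ X 1 → u + (k.val : ℝ) + 2 ∈ X 0 → u + (k.val : ℝ) + 2 ∈ X 2 → False
  three' : ∀ k ∈ M, k - 1 ∉ M → k - 1 ∉ D → u + (k.val : ℝ) ∈ X 3 → u + (k.val : ℝ) - 1 ∈ X 0 →
    u + (k.val : ℝ) - 1 ∈ X 1 → u + (k.val : ℝ) - 2 ∈ X 0 → u + (k.val : ℝ) - 2 ∈ X 2 → False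

/-- the letter `μ` is allowed at the middle positions -/
def Pr (D : Finset (Fin 6)) (a b : Fin 6 → Fin 4) (S : Finset (Fin 6)) (μ : Fin 4) : Prop :=
  (μ = 0 ∨ μ = 1) ∧ ∀ k ∈ D, sel a b S (k - 1) ≠ μ ∧ sel a b S (k + 1) ≠ μ

section
variable {X : Fin 4 → Set ℝ} {u : ℝ} {M D : Finset (Fin 6)} {a b : Fin 6 → Fin 4}
  {S : Finset (Fin 6)} {μ ν : Fin 4}

theorem Inst.hM (_I : Inst X u M D a b) {k : Fin 6} (hk : k ∈ M) :
    hexG X u M D a b S μ k = sel a b S k := by
  simp only [hexG, if_pos hk]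

theorem Inst.hD (I : Inst X u M D a b) {k : Fin 6} (hk : k ∈ D) :
    hexG X u M D a b S μ k = μ := by
  simp only [hexG, if_neg (I.dis k hk), if_pos hk]

theorem Inst.hN (_I : Inst X u M D a b) {k : Fin 6} (hk : k ∉ M) (hk' : k ∉ D) :
    hexG X u M D a b S μ k = stT X u k := by
  simp only [hexG, if_neg hk, if_neg hk']

theorem sel_or (k : Fin 6) : sel a b S k = a k ∨ sel a b S k = b k := by
  unfold sel
  split_ifs
  · exact Or.inr rfl
  · exact Or.inl rfl

theorem Inst.mem (I : Inst X u M D a b) (hμ : μ = 0 ∨ μ = 1) (k : Fin 6) :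
    u + (k.val : ℝ) ∈ X (hexG X u M D a b S μ k) := by
  by_cases h1 : k ∈ M
  · rw [I.hM h1]
    rcases sel_or (a := a) (b := b) (S := S) k with h | h <;> rw [h]
    · exact (I.mark k h1).mem_a
    · exact (I.mark k h1).mem_b
  · by_cases h2 : k ∈ D
    · rw [I.hD h2]
      rcases hμ with rfl | rfl
      · exact I.mid0 k h2
      · exact I.mid1 k h2
    · rw [I.hN h1 h2]
      exact I.raw.st_mem u k

theorem Inst.ne (I : Inst X u M D a b) (hp : Pr D a b S μ) (k : Fin 6) :
    hexG X u M D a b S μ k ≠ hexG X u M D a b S μ (k + 1) := by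
  have w := I.raw
  by_cases h1 : k ∈ M
  · have m1 := I.mark k h1
    rw [I.hM h1]
    by_cases h2 : k + 1 ∈ M
    · have m2 := I.mark _ h2
      rw [I.hM h2]
      exact w.mark_mark (I.ty k h1) (I.ty _ h2) m1.mem_a m1.mem_b
        ((w.mem_add u k _).mp m2.mem_a) ((w.mem_add u k _).mp m2.mem_b) (sel_or k) (sel_or _)
    · by_cases h3 : k + 1 ∈ D
      · rw [I.hD h3]
        have := (hp.2 _ h3).1
        rwa [add_sub_cancel_right] at this
      · rw [I.hN h2 h3]
        have e : stT X u (k + 1) = lamT X (u + (k.val : ℝ) + 1) := w.lam_add u k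
        rw [e]
        exact (w.mark_ne (I.ty k h1) m1.mem_a m1.mem_b (sel_or k)).1 (I.three k h1 h2 h3)
  · by_cases h2 : k + 1 ∈ M
    · have m2 := I.mark _ h2
      rw [I.hM h2]
      by_cases h3 : k ∈ D
      · rw [I.hD h3]
        exact (hp.2 _ h3).2.symm
      · rw [I.hN h1 h3]
        have e0 : stT X u k = lamT X (u + (k.val : ℝ)) := rfl
        have em : u + ((k + 1).val : ℝ) ∈ X (a (k + 1)) := m2.mem_a
        have em' : u + ((k + 1).val : ℝ) ∈ X (b (k + 1)) := m2.mem_b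
        have hk1 : k + 1 - 1 = k := add_sub_cancel_right k 1
        have t3 := I.three' (k + 1) h2 (by rw [hk1]; exact h1) (by rw [hk1]; exact h3)
        have q1 : ∀ l, u + ((k + 1).val : ℝ) ∈ X l ↔ u + (k.val : ℝ) + 1 ∈ X l := w.mem_add u k
        have per : ∀ (x : ℝ) l, x + 6 ∈ X l ↔ x ∈ X l := fun x l => w.per l x
        -- the same facts at the representative `u + k + 1`
        have key : ∀ (l : Fin 4) (j : ℝ), (j = 1 ∨ j = 2) →
            (u + ((k + 1).val : ℝ) - j ∈ X l ↔ u + (k.val : ℝ) + 1 - j ∈ X l) := by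
          intro l j _
          by_cases h5 : k = 5
          · subst h5
            have e1 : ((5 : Fin 6) + 1).val = 0 := rfl
            have e2 : (5 : Fin 6).val = 5 := rfl
            rw [e1, e2]
            have e3 : u + ((5 : ℕ) : ℝ) + 1 - j = (u + ((0 : ℕ) : ℝ) - j) + 6 := by
              push_cast; ring
            rw [e3, w.per]
          · have e1 : (k + 1).val = k.val + 1 := by
              have : k.val ≠ 5 := fun h => h5 (Fin.ext h)
              have h6 := k.isLt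
              rw [Fin.val_add_one_of_lt]
              rw [Fin.lt_def]
              show k.val < 5
              omega
            rw [e1]
            have e3 : u + (k.val : ℝ) + 1 - j = u + ((k.val + 1 : ℕ) : ℝ) - j := by
              push_cast; ring
            rw [e3]
        have := (w.mark_ne (v := u + (k.val : ℝ) + 1) (I.ty _ h2) ((q1 _).mp em) ((q1 _).mp em')
          (sel_or (a := a) (b := b) (S := S) (k + 1))).2 (fun z1 z2 z3 z4 z5 =>
            t3 ((q1 _).mpr z1) ((key _ 1 (Or.inl rfl)).mpr z2) ((key _ 1 (Or.inl rfl)).mpr z3)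
              ((key _ 2 (Or.inr rfl)).mpr z4) ((key _ 2 (Or.inr rfl)).mpr z5))
        have e : u + (k.val : ℝ) + 1 - 1 = u + (k.val : ℝ) := by ring
        rw [e] at this
        rw [e0]
        exact this.symm
    · by_cases h3 : k + 1 ∈ D
      · have := (I.nb _ h3).1
        rw [add_sub_cancel_right] at this
        exact absurd this h1
      · by_cases h4 : k ∈ D
        · exact absurd (I.nb _ h4).2 h2
        · rw [I.hN h1 h4, I.hN h2 h3]
          exact w.st_ne u k

theorem Inst.leg (I : Inst X u M D a b) (hp : Pr D a b S μ) :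
    Leg4 (hexG X u M D a b S μ) := I.raw.leg u _ (I.mem hp.1) (I.ne hp)

theorem fr01 {x y : Fin 4} (hx : x = 0 ∨ x = 1) (hy : y = 0 ∨ y = 1) : Fr x y := by
  rcases hx with rfl | rfl <;> rcases hy with rfl | rfl <;> rfl

/-- the letter at the middle positions is free -/
theorem Inst.mid_free (I : Inst X u M D a b) (hp : Pr D a b S μ) (hq : Pr D a b S ν) :
    cp (hexG X u M D a b S μ) = cp (hexG X u M D a b S ν) := by
  refine I.raw.cmp_eq cp_step Fr.refl u (I.mem hp.1) (I.mem hq.1) (I.ne hp) (I.ne hq) fun k => ?_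
  by_cases h1 : k ∈ M
  · rw [I.hM h1, I.hM h1]; exact Fr.refl _
  · by_cases h2 : k ∈ D
    · rw [I.hD h2, I.hD h2]; exact fr01 hp.1 hq.1
    · rw [I.hN h1 h2, I.hN h1 h2]; exact Fr.refl _

theorem RawT3.tr (w : RawT3 X) {g : Hx} (hg : ∀ k, u + ((k : Fin 6).val : ℝ) ∈ X (g k))
    (k : Fin 6) : u + 1 + (k.val : ℝ) ∈ X (rot g k) := by
  have := hg (k + 1)
  rw [w.mem_add] at this
  have e : u + 1 + (k.val : ℝ) = u + (k.val : ℝ) + 1 := by ring
  rw [e]
  exact this

/-- the same for the rotated hexagons -/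
theorem Inst.mid_free_rot (I : Inst X u M D a b) (hp : Pr D a b S μ) (hq : Pr D a b S ν) :
    cp (rot (hexG X u M D a b S μ)) = cp (rot (hexG X u M D a b S ν)) := by
  refine I.raw.cmp_eq cp_step Fr.refl (u + 1) (I.raw.tr (I.mem hp.1)) (I.raw.tr (I.mem hq.1))
    (fun k => I.ne hp (k + 1)) (fun k => I.ne hq (k + 1)) fun k => ?_
  show Fr (hexG X u M D a b S μ (k + 1)) (hexG X u M D a b S ν (k + 1))
  by_cases h1 : k + 1 ∈ M
  · rw [I.hM h1, I.hM h1]; exact Fr.refl _
  · by_cases h2 : k + 1 ∈ D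
    · rw [I.hD h2, I.hD h2]; exact fr01 hp.1 hq.1
    · rw [I.hN h1 h2, I.hN h1 h2]; exact Fr.refl _

/-- at a middle position only `e` and `f` occur -/
theorem Inst.mid_only (I : Inst X u M D a b) {k : Fin 6} (hk : k ∈ D) {x : Fin 4}
    (hx : u + (k.val : ℝ) ∈ X x) : x = 0 ∨ x = 1 := by
  rcases I.raw.two _ x 0 1 hx (I.mid0 k hk) (I.mid1 k hk) with h | h | h
  · exact Or.inl h
  · exact absurd h (by decide)
  · exact Or.inr h.symm

/-- the letters on the left of the instant -/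
theorem Inst.left (I : Inst X u M D a b) : ∀ᶠ v in 𝓝[<] u,
    (∀ k, u + (k.val : ℝ) ∈ X (stT X v k)) ∧ ∀ k ∈ M, stT X v k = a k := by
  have h0 := (I.raw.near u).filter_mono (nhdsWithin_le_nhds (s := Iio u))
  have h1 : ∀ᶠ v in 𝓝[<] u, ∀ k : Fin 6, k ∈ M → v + (k.val : ℝ) ∉ X (b k) := by
    rw [eventually_all]
    intro k
    by_cases h1 : k ∈ M
    · filter_upwards [(tendsto_add_left u (k.val : ℝ)).eventually (I.mark k h1).left] with v hv _
      exact hv
    · exact Eventually.of_forall fun v h => absurd h h1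
  filter_upwards [h0, h1] with v hv hv'
  refine ⟨fun k => hv k _ (I.raw.st_mem v k), fun k hk => ?_⟩
  rcases (I.mark k hk).only _ (hv k _ (I.raw.st_mem v k)) with h3 | h3
  · exact h3
  · exact absurd (h3 ▸ I.raw.st_mem v k) (hv' k hk)

/-- the letters on the right of the instant -/
theorem Inst.right (I : Inst X u M D a b) : ∀ᶠ v in 𝓝[>] u,
    (∀ k, u + (k.val : ℝ) ∈ X (stT X v k)) ∧ ∀ k ∈ M, stT X v k = b k := by
  have h0 := (I.raw.near u).filter_mono (nhdsWithin_le_nhds (s := Ioi u))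
  have h1 : ∀ᶠ v in 𝓝[>] u, ∀ k : Fin 6, k ∈ M → v + (k.val : ℝ) ∉ X (a k) := by
    rw [eventually_all]
    intro k
    by_cases h1 : k ∈ M
    · filter_upwards [(tendsto_add_right u (k.val : ℝ)).eventually (I.mark k h1).right] with v hv _
      exact hv
    · exact Eventually.of_forall fun v h => absurd h h1
  filter_upwards [h0, h1] with v hv hv'
  refine ⟨fun k => hv k _ (I.raw.st_mem v k), fun k hk => ?_⟩
  rcases (I.mark k hk).only _ (hv k _ (I.raw.st_mem v k)) with h3 | h3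
  · exact absurd (h3 ▸ I.raw.st_mem v k) (hv' k hk)
  · exact h3

/-- comparison of a selection at `u` which agrees on `M` -/
theorem Inst.fr_of (I : Inst X u M D a b) {g : Hx} (hg : ∀ k, u + ((k : Fin 6).val : ℝ) ∈ X (g k))
    (hM : ∀ k ∈ M, g k = sel a b S k) (hμ : μ = 0 ∨ μ = 1) (k : Fin 6) :
    Fr (g k) (hexG X u M D a b S μ k) := by
  by_cases h1 : k ∈ M
  · rw [I.hM h1, hM k h1]; exact Fr.refl _
  · exact I.free k h1 _ _ (hg k) (I.mem hμ k)

theorem Inst.cp_left (I : Inst X u M D a b) (hp : Pr D a b ∅ μ) :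
    ∀ᶠ v in 𝓝[<] u, cp (stT X v) = cp (hexG X u M D a b ∅ μ) := by
  filter_upwards [I.left] with v hv
  exact I.raw.cmp_eq cp_step Fr.refl u hv.1 (I.mem hp.1) (I.raw.st_ne v) (I.ne hp)
    (I.fr_of hv.1 (fun k hk => by rw [hv.2 k hk]; simp [sel]) hp.1)

theorem Inst.cp_right (I : Inst X u M D a b) (hp : Pr D a b M μ) :
    ∀ᶠ v in 𝓝[>] u, cp (stT X v) = cp (hexG X u M D a b M μ) := by
  filter_upwards [I.right] with v hv
  exact I.raw.cmp_eq cp_step Fr.refl u hv.1 (I.mem hp.1) (I.raw.st_ne v) (I.ne hp)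
    (I.fr_of hv.1 (fun k hk => by rw [hv.2 k hk]; simp [sel, hk]) hp.1)

theorem Inst.cp_left_one (I : Inst X u M D a b) (hp : Pr D a b ∅ μ) :
    ∀ᶠ v in 𝓝[<] (u + 1), cp (stT X v) = cp (rot (hexG X u M D a b ∅ μ)) := by
  have h1 := tendsto_add_left (u + 1) (-1)
  have e : u + 1 + -1 = u := by ring
  rw [e] at h1
  filter_upwards [h1.eventually I.left] with v hv
  have e : stT X v = rot (stT X (v + -1)) := by
    rw [← I.raw.st_add_one]; congr 1; ring
  rw [e]
  refine I.raw.cmp_eq cp_step Fr.refl (u + 1) (I.raw.tr hv.1) (I.raw.tr (I.mem hp.1)) ?_ ?_ ?_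
  · intro k; exact I.raw.st_ne (v + -1) (k + 1)
  · intro k; exact I.ne hp (k + 1)
  · intro k
    exact I.fr_of hv.1 (fun k hk => by rw [hv.2 k hk]; simp [sel]) hp.1 (k + 1)

theorem Inst.upd (I : Inst X u M D a b) {k : Fin 6} (hk : k ∈ M) (hkS : k ∉ S) :
    hexG X u M D a b S μ k = a k ∧
      hexG X u M D a b (insert k S) μ = Function.update (hexG X u M D a b S μ) k (b k) := by
  refine ⟨by rw [I.hM hk]; simp [sel, hkS], ?_⟩
  funext j
  by_cases hj : j = k
  · subst hj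
    rw [Function.update_self, I.hM hk]
    simp [sel]
  · rw [Function.update_of_ne hj]
    by_cases h1 : j ∈ M
    · rw [I.hM h1, I.hM h1]
      unfold sel
      by_cases h2 : j ∈ S
      · rw [if_pos h2, if_pos (Finset.mem_insert_of_mem h2)]
      · rw [if_neg h2, if_neg]
        rw [Finset.mem_insert, not_or]
        exact ⟨hj, h2⟩
    · by_cases h2 : j ∈ D
      · rw [I.hD h2, I.hD h2]
      · rw [I.hN h1 h2, I.hN h1 h2]

end

end Vale.Agent.P032.Words
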