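import Vale.Agent.P032.R2.H659.Tie3V

/-!
# Words on a circle with T3 contacts: the facts L1, L2, L3

The same statements as in `Words/H349/TieL.lean`, `Words/H349/TieSym.lean`, for `RawT3`.
-/

namespace Vale.Agent.P032.Words.Tie3

open Set Filter Topology

/-- **L1**: if `e` has no common points with `A` and with `C` there is no word. -/
theorem L1 {X : Fin 4 → Set ℝ} (w : RawT3 X) (h02 : ∀ u, u ∈ X 0 → u ∉ X 2)
    (h03 : ∀ u, u ∈ X 0 → u ∉ X 3) (h23 : ∀ u, u ∈ X 2 → u ∉ X 3) : False := by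
  have hstep : ∀ (h : Fin 6 → Fin 4) k l, Leg4 h → Leg4 (Function.update h k l) →
      (fun x y : Fin 4 => fr1 x.val y.val = true) (h k) l →
      (fun g => cN T1 (code g)) (Function.update h k l) = (fun g => cN T1 (code g)) h :=
    fun h k l h1 h2 h3 => step_of_chk chkFree1 h k l h1 h2 h3
  have hrefl : ∀ x : Fin 4, (fun x y : Fin 4 => fr1 x.val y.val = true) x x := by
    intro x; simp [fr1]
  have hfree : ∀ u ∈ (univ : Set ℝ), ∀ k : Fin 6, ∀ a b : Fin 4, u + (k.val : ℝ) ∈ X a →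
      u + (k.val : ℝ) ∈ X b → fr1 a.val b.val = true := by
    intro u _ k a b ha hb
    generalize u + (k.val : ℝ) = v at ha hb
    fin_cases a <;> fin_cases b <;> first
      | rfl
      | exact absurd hb (h02 _ ha)
      | exact absurd hb (h03 _ ha)
      | exact absurd hb (h23 _ ha)
      | exact absurd ha (h02 _ hb)
      | exact absurd ha (h03 _ hb)
      | exact absurd ha (h23 _ hb)
  have key := w.const_Ioo (cmp := fun g => cN T1 (code g)) hstep hrefl isPreconnected_univ hfree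
    (mem_univ (0 : ℝ)) (mem_univ (0 + 1))
  rw [w.st_add_one] at key
  exact rot_of_chk chkRot1 (w.leg_st 0) key.symm


section main
variable {X : Fin 4 → Set ℝ}

/-- From the value on the right of `a` to the value on the left of `b`. -/
theorem left_of_right (w : RawT3 X) {a b : ℝ} (hab : a < b)
    (hf : ∀ u ∈ Ioo a b, ∀ k : Fin 6, ∀ x y, u + (k.val : ℝ) ∈ X x → u + (k.val : ℝ) ∈ X y → Fr x y)
    {q : ℕ} (hq : ∀ᶠ v in 𝓝[>] a, cp (stT X v) = q) : ∀ᶠ v in 𝓝[<] b, cp (stT X v) = q := by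
  have h1 : ∀ᶠ v in 𝓝[<] b, v ∈ Ioo a b := Ioo_mem_nhdsLT hab
  have h2 : ∀ᶠ v in 𝓝[>] a, v ∈ Ioo a b := Ioo_mem_nhdsGT hab
  obtain ⟨x, hx1, hx2⟩ := (hq.and h2).exists
  filter_upwards [h1] with v hv
  rw [← hx1]
  exact w.const_Ioo (free := Fr) (cmp := cp) cp_step Fr.refl (isPreconnected_Ioo) hf hv hx2

/-- the mark `V` is the only one of its type at the positions of `V` -/
theorem vu_zero {V : ℝ} (hVu : ∀ u, u ∈ X 0 → u ∈ X 2 → ∃ n : ℤ, u = V + 6 * n) (k : Fin 6)
    (h0 : V + (k.val : ℝ) ∈ X 0) (h2 : V + (k.val : ℝ) ∈ X 2) : k = 0 := by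
  obtain ⟨n, hn⟩ := hVu _ h0 h2
  have : (0 : ℝ) + (k.val : ℝ) = 0 + ((0 : Fin 6).val : ℝ) + 6 * (n : ℝ) := by
    have : (((0 : Fin 6).val : ℕ) : ℝ) = 0 := by simp
    rw [this]; linarith
  exact (eq_of_mod le_rfl one_pos le_rfl one_pos this).2

/-- there is no mark of the type of `V` at the positions of `V + r`, `0 < r < 1` -/
theorem vu_pos {V r : ℝ} (hVu : ∀ u, u ∈ X 0 → u ∈ X 2 → ∃ n : ℤ, u = V + 6 * n) (h0 : 0 < r)
    (h1 : r < 1) (k : Fin 6) (e0 : V + r + (k.val : ℝ) ∈ X 0) (e2 : V + r + (k.val : ℝ) ∈ X 2) :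
    False := by
  obtain ⟨n, hn⟩ := hVu _ e0 e2
  have : r + (k.val : ℝ) = 0 + ((0 : Fin 6).val : ℝ) + 6 * (n : ℝ) := by
    have : (((0 : Fin 6).val : ℕ) : ℝ) = 0 := by simp
    rw [this]; linarith
  exact h0.ne' (eq_of_mod h0.le h1 le_rfl one_pos this).1

/-- **L2**: exactly one end `e|A` and exactly one end `f|C` is impossible. -/
theorem L2 (w : RawT3 X) (h23 : ∀ u, u ∈ X 2 → u ∉ X 3) {V : ℝ} (hV : VMark X V)
    (hVu : ∀ u, u ∈ X 0 → u ∈ X 2 → ∃ n : ℤ, u = V + 6 * n)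
    {k : Fin 6} {r : ℝ} (hr0 : 0 ≤ r) (hr1 : r < 1) (hQ : QMark X (V + r + (k.val : ℝ)))
    (hQu : ∀ u, u ∈ X 1 → u ∈ X 3 → ∃ n : ℤ, u = V + r + (k.val : ℝ) + 6 * n) : False := by
  have hfree : ∀ (s : ℝ), 0 ≤ s → s < 1 → ∀ (j : Fin 6) (x y : Fin 4), V + s + (j.val : ℝ) ∈ X x →
      V + s + (j.val : ℝ) ∈ X y → ¬ (s = 0 ∧ j = 0) → ¬ (s = r ∧ j = k) → Fr x y := by
    intro s hs0 hs1 j x y hx hy n1 n2
    rcases nonfree h23 hx hy with h | ⟨h0, h2⟩ | ⟨h1, h3⟩
    · exact h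
    · obtain ⟨n, hn⟩ := hVu _ h0 h2
      have : s + (j.val : ℝ) = 0 + ((0 : Fin 6).val : ℝ) + 6 * (n : ℝ) := by
        have : (((0 : Fin 6).val : ℕ) : ℝ) = 0 := by simp
        rw [this]; linarith
      exact absurd (eq_of_mod hs0 hs1 le_rfl one_pos this) n1
    · obtain ⟨n, hn⟩ := hQu _ h1 h3
      exact absurd (eq_of_mod hs0 hs1 hr0 hr1 (by linarith)) n2
  have hk0 : ¬ (r = 0 ∧ k = 0) := by
    rintro ⟨h1, h2⟩
    subst h2
    have e : V + r + (((0 : Fin 6).val : ℕ) : ℝ) = V := by rw [h1]; simp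
    rw [e] at hQ
    have hV0 : V ∈ X 0 := by rcases hV with h | h; exacts [h.mem_a, h.mem_b]
    rcases hQ with h | h <;> rcases h.only _ hV0 with h' | h' <;> exact absurd h' (by decide)
  have seg := fun {a b : ℝ} (hab : a < b) hf {p q : ℕ} hp hq =>
    w.seg (free := Fr) (cmp := cp) cp_step Fr.refl (a := a) (b := b) hab hf (p := p) (q := q) hp hq
  rcases eq_or_lt_of_le hr0 with h0 | h0
  · -- tie
    subst h0
    have hkne : k ≠ 0 := fun h => hk0 ⟨rfl, h⟩
    obtain ⟨q, F, hq, hF, hq20, hF20, hor⟩ := jumpV3 (L := [k]) w (by simp)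
      (by simpa using fun h => hkne h.symm) hV
      (by intro j hj; rw [List.mem_singleton] at hj; subst hj; simpa using hQ)
      (by
        intro j hj hj0 x y hx hy
        rw [List.mem_singleton] at hj
        exact hfree 0 le_rfl one_pos j x y (by simpa using hx) (by simpa using hy)
          (fun h => hj0 h.2) (fun h => hj h.2)) (vu_zero hVu)
    have := seg (a := V) (b := V + 1) (by linarith) (by
      intro u hu j x y hx hy
      refine hfree (u - V) (by linarith [hu.1]) (by linarith [hu.2]) j x y ?_ ?_ ?_ ?_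
      · have e : V + (u - V) = u := by ring
        rw [e]; exact hx
      · have e : V + (u - V) = u := by ring
        rw [e]; exact hy
      · rintro ⟨h1, -⟩; linarith [hu.1]
      · rintro ⟨h1, -⟩; linarith [hu.1]) hq hF
    subst this
    rcases hor with ⟨p, hp20, hvr, hre⟩ | ⟨F', hF'20, hvr, hre⟩
    · exact no_one hp20 hF20 hvr hre
    · exact no_one hq20 hF'20 hvr hre
  · obtain ⟨q, F, hq, hF, hq20, hF20, hor⟩ := jumpV3 (L := []) w (by simp)
      (by simp) hV (by intro j hj; simp at hj)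
      (by
        intro j _ hj0 x y hx hy
        exact hfree 0 le_rfl one_pos j x y (by simpa using hx) (by simpa using hy)
          (fun h => hj0 h.2) (fun h => h0.ne h.1)) (vu_zero hVu)
    have hvr : relN vr q F = true := by
      rcases hor with ⟨p, hp20, hvr, hre⟩ | ⟨F', hF'20, hvr, hre⟩
      · have : p = q := hre
        rw [← this]; exact hvr
      · have : F = F' := hre
        rw [this]; exact hvr
    have hl : ∀ᶠ v in 𝓝[<] (V + r), cp (stT X v) = q :=
      left_of_right w (by linarith) (by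
        intro u hu j x y hx hy
        refine hfree (u - V) (by linarith [hu.1]) (by linarith [hu.2]) j x y ?_ ?_ ?_ ?_
        · have e : V + (u - V) = u := by ring
          rw [e]; exact hx
        · have e : V + (u - V) = u := by ring
          rw [e]; exact hy
        · rintro ⟨h1, -⟩; linarith [hu.1]
        · rintro ⟨h1, -⟩; linarith [hu.2]) hq
    obtain ⟨q2, hq2, hre2⟩ := jumpQ3 (L := [k]) w (by simp)
      (by intro j hj; rw [List.mem_singleton] at hj; subst hj; exact hQ)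
      (by
        intro j hj x y hx hy
        rw [List.mem_singleton] at hj
        exact hfree r hr0 hr1 j x y hx hy (fun h => h0.ne' h.1) (fun h => hj h.2))
      (vu_pos hVu h0 hr1) hl
    have := seg (a := V + r) (b := V + 1) (by linarith) (by
      intro u hu j x y hx hy
      refine hfree (u - V) (by linarith [hu.1]) (by linarith [hu.2]) j x y ?_ ?_ ?_ ?_
      · have e : V + (u - V) = u := by ring
        rw [e]; exact hx
      · have e : V + (u - V) = u := by ring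
        rw [e]; exact hy
      · rintro ⟨h1, -⟩; linarith [hu.1]
      · rintro ⟨h1, -⟩; linarith [hu.1]) hq2 hF
    subst this
    exact no_one hq20 hF20 hvr hre2

end main

variable {X : Fin 4 → Set ℝ}

/-- The positions of the two ends `f|C` relative to the single end `e|A`. -/
theorem L3aux (w : RawT3 X) (h23 : ∀ u, u ∈ X 2 → u ∉ X 3) {V : ℝ} (hV : VMark X V)
    (hVu : ∀ u, u ∈ X 0 → u ∈ X 2 → ∃ n : ℤ, u = V + 6 * n)
    {k l : Fin 6} {r s : ℝ} (hr0 : 0 ≤ r) (hrs : r ≤ s) (hs1 : s < 1)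
    (hQ : QMark X (V + r + (k.val : ℝ))) (hQ' : QMark X (V + s + (l.val : ℝ)))
    (hne : ¬ (r = s ∧ k = l))
    (hQu : ∀ u, u ∈ X 1 → u ∈ X 3 → ∃ n : ℤ, u = V + r + (k.val : ℝ) + 6 * n ∨
      u = V + s + (l.val : ℝ) + 6 * n) : pat k.val l.val = true ∨
      (r = 0 ∧ 0 < s ∧ k ≠ 0 ∧ pat l.val (k - 1).val = true) ∨
      (r = 0 ∧ s = 0 ∧ k ≠ 0 ∧ l ≠ 0 ∧ pat (k - 1).val (l - 1).val = true) := by
  have hr1 : r < 1 := lt_of_le_of_lt hrs hs1
  have hs0 : 0 ≤ s := hr0.trans hrs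
  have hfree : ∀ (t : ℝ), 0 ≤ t → t < 1 → ∀ (j : Fin 6) (x y : Fin 4), V + t + (j.val : ℝ) ∈ X x →
      V + t + (j.val : ℝ) ∈ X y → ¬ (t = 0 ∧ j = 0) → ¬ (t = r ∧ j = k) → ¬ (t = s ∧ j = l) →
      Fr x y := by
    intro t ht0 ht1 j x y hx hy n1 n2 n3
    rcases nonfree h23 hx hy with h | ⟨h0, h2⟩ | ⟨h1, h3⟩
    · exact h
    · obtain ⟨n, hn⟩ := hVu _ h0 h2
      have : t + (j.val : ℝ) = 0 + ((0 : Fin 6).val : ℝ) + 6 * (n : ℝ) := by
        have : (((0 : Fin 6).val : ℕ) : ℝ) = 0 := by simp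
        rw [this]; linarith
      exact absurd (eq_of_mod ht0 ht1 le_rfl one_pos this) n1
    · obtain ⟨n, hn | hn⟩ := hQu _ h1 h3
      · exact absurd (eq_of_mod ht0 ht1 hr0 hr1 (by linarith)) n2
      · exact absurd (eq_of_mod ht0 ht1 hs0 hs1 (by linarith)) n3
  -- free on open intervals
  have hio : ∀ a b : ℝ, 0 ≤ a → b ≤ 1 → (∀ t ∈ Ioo a b, t ≠ r ∧ t ≠ s) →
      ∀ u ∈ Ioo (V + a) (V + b), ∀ j : Fin 6, ∀ x y, u + (j.val : ℝ) ∈ X x →
      u + (j.val : ℝ) ∈ X y → Fr x y := by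
    intro a b ha hb hab u hu j x y hx hy
    have hu1 : a < u - V := by linarith [hu.1]
    have hu2 : u - V < b := by linarith [hu.2]
    have hn := hab (u - V) ⟨hu1, hu2⟩
    have e : V + (u - V) = u := by ring
    refine hfree (u - V) (by linarith) (by linarith) j x y ?_ ?_ ?_ ?_ ?_
    · rw [e]; exact hx
    · rw [e]; exact hy
    · rintro ⟨h1, -⟩; linarith
    · rintro ⟨h1, -⟩; exact hn.1 h1
    · rintro ⟨h1, -⟩; exact hn.2 h1
  have hV0 : V ∈ X 0 := by rcases hV with h | h; exacts [h.mem_a, h.mem_b]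
  have hno : ∀ (t : ℝ) (j : Fin 6), QMark X (V + t + (j.val : ℝ)) → ¬ (t = 0 ∧ j = 0) := by
    rintro t j hj ⟨h1, h2⟩
    subst h2
    have e : V + t + (((0 : Fin 6).val : ℕ) : ℝ) = V := by rw [h1]; simp
    rw [e] at hj
    rcases hj with h | h <;> rcases h.only _ hV0 with h' | h' <;> exact absurd h' (by decide)
  have hk0 := hno r k hQ
  have hl0 := hno s l hQ'
  have fin : ∀ {a : ℝ} {q F : ℕ}, 0 ≤ a → a < 1 → (∀ t ∈ Ioo a 1, t ≠ r ∧ t ≠ s) →
      (∀ᶠ v in 𝓝[>] (V + a), cp (stT X v) = q) → (∀ᶠ v in 𝓝[<] (V + 1), cp (stT X v) = F) →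
      q = F := by
    intro a q F ha ha1 hh hq hF
    exact w.seg (free := Fr) (cmp := cp) cp_step Fr.refl (a := V + a) (b := V + 1) (by linarith)
      (hio a 1 ha le_rfl hh) hq hF
  rcases eq_or_lt_of_le hr0 with h0 | h0
  · have hkne : k ≠ 0 := fun h => hk0 ⟨h0.symm, h⟩
    rcases eq_or_lt_of_le hs0 with g0 | g0
    · -- both at time 0
      have hlne : l ≠ 0 := fun h => hl0 ⟨g0.symm, h⟩
      have hkl : k ≠ l := fun h => hne ⟨h0.symm.trans g0, h⟩
      obtain ⟨q, F, hq, hF, hq20, hF20, hor⟩ := jumpV3 (L := [k, l]) w (u := V)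
        (by simp [hkl])
        (by
          simp only [List.mem_cons, List.not_mem_nil, or_false, not_or]
          exact ⟨hkne.symm, hlne.symm⟩) hV
        (by
          intro j hj
          simp only [List.mem_cons, List.not_mem_nil, or_false] at hj
          rcases hj with rfl | rfl
          · rw [← h0, add_zero] at hQ; exact hQ
          · rw [← g0, add_zero] at hQ'; exact hQ')
        (by
          intro j hj hj0 x y hx hy
          simp only [List.mem_cons, List.not_mem_nil, or_false, not_or] at hj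
          exact hfree 0 le_rfl one_pos j x y (by simpa using hx) (by simpa using hy)
            (fun h => hj0 h.2) (fun h => hj.1 h.2) (fun h => hj.2 h.2)) (vu_zero hVu)
      have := fin (a := 0) le_rfl one_pos (fun t ht => ⟨by rw [← h0]; exact ht.1.ne',
        by rw [← g0]; exact ht.1.ne'⟩) (by rw [add_zero]; exact hq) hF
      subst this
      rcases hor with ⟨p, hp20, hvr, hre⟩ | ⟨F', hF'20, hvr, hre⟩
      · exact Or.inl (pat_of hp20 hF20 hvr hre)
      · exact Or.inr (Or.inr ⟨h0.symm, g0.symm, hkne, hlne, pat_of hq20 hF'20 hvr hre⟩)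
    · obtain ⟨q, F, hq, hF, hq20, hF20, hor⟩ := jumpV3 (L := [k]) w (u := V)
        (by simp)
        (by
          simp only [List.mem_cons, List.not_mem_nil, or_false]
          exact hkne.symm) hV
        (by
          intro j hj
          simp only [List.mem_cons, List.not_mem_nil, or_false] at hj
          subst hj
          rw [← h0, add_zero] at hQ; exact hQ)
        (by
          intro j hj hj0 x y hx hy
          simp only [List.mem_cons, List.not_mem_nil, or_false] at hj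
          exact hfree 0 le_rfl one_pos j x y (by simpa using hx) (by simpa using hy)
            (fun h => hj0 h.2) (fun h => hj h.2) (fun h => g0.ne h.1)) (vu_zero hVu)
      have hl := left_of_right w (a := V + 0) (b := V + s) (by linarith)
        (hio 0 s le_rfl hs1.le (fun t ht => ⟨by rw [← h0]; exact ht.1.ne', ht.2.ne⟩))
        (by rw [add_zero]; exact hq)
      obtain ⟨q2, hq2, hre2⟩ := jumpQ3 (L := [l]) w (by simp)
        (by intro j hj; rw [List.mem_singleton] at hj; subst hj; exact hQ')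
        (by
          intro j hj x y hx hy
          rw [List.mem_singleton] at hj
          exact hfree s hs0 hs1 j x y hx hy (fun h => g0.ne' h.1)
            (fun h => g0.ne' (h.1.trans h0.symm)) (fun h => hj h.2)) (vu_pos hVu g0 hs1) hl
      have := fin (a := s) hs0 hs1 (fun t ht => ⟨by rw [← h0]; exact (g0.trans ht.1).ne',
        ht.1.ne'⟩) hq2 hF
      subst this
      rcases hor with ⟨p, hp20, hvr, hre⟩ | ⟨F', hF'20, hvr, hre⟩
      · exact Or.inl (pat_of hp20 hF20 hvr (Reach.append hre hre2))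
      · exact Or.inr (Or.inl ⟨h0.symm, g0, hkne,
          pat_of hq20 hF'20 hvr (Reach.append hre2 hre)⟩)
  · left
    have g0 : 0 < s := lt_of_lt_of_le h0 hrs
    obtain ⟨q, F, hq, hF, hq20, hF20, hor⟩ := jumpV3 (L := []) w (u := V) (by simp)
      (by simp) hV (by intro j hj; simp at hj)
      (by
        intro j _ hj0 x y hx hy
        exact hfree 0 le_rfl one_pos j x y (by simpa using hx) (by simpa using hy)
          (fun h => hj0 h.2) (fun h => h0.ne h.1) (fun h => g0.ne h.1)) (vu_zero hVu)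
    have hvr : relN vr q F = true := by
      rcases hor with ⟨p, hp20, hvr, hre⟩ | ⟨F', hF'20, hvr, hre⟩
      · have : p = q := hre
        rw [← this]; exact hvr
      · have : F = F' := hre
        rw [this]; exact hvr
    have hl := left_of_right w (a := V + 0) (b := V + r) (by linarith)
      (hio 0 r le_rfl hr1.le (fun t ht => ⟨ht.2.ne, (lt_of_lt_of_le ht.2 hrs).ne⟩))
      (by rw [add_zero]; exact hq)
    rcases eq_or_lt_of_le hrs with e | e
    · -- tie at `r = s`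
      subst e
      have hkl : k ≠ l := fun h => hne ⟨rfl, h⟩
      obtain ⟨q2, hq2, hre2⟩ := jumpQ3 (L := [k, l]) w (by simp [hkl])
        (by
          intro j hj
          simp only [List.mem_cons, List.not_mem_nil, or_false] at hj
          rcases hj with rfl | rfl
          · exact hQ
          · exact hQ')
        (by
          intro j hj x y hx hy
          simp only [List.mem_cons, List.not_mem_nil, or_false, not_or] at hj
          exact hfree r hr0 hr1 j x y hx hy (fun h => h0.ne' h.1)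
            (fun h => hj.1 h.2) (fun h => hj.2 h.2)) (vu_pos hVu h0 hr1) hl
      have := fin (a := r) hr0 hr1 (fun t ht => ⟨ht.1.ne', ht.1.ne'⟩) hq2 hF
      subst this
      exact pat_of hq20 hF20 hvr hre2
    · obtain ⟨q2, hq2, hre2⟩ := jumpQ3 (L := [k]) w (by simp)
        (by intro j hj; rw [List.mem_singleton] at hj; subst hj; exact hQ)
        (by
          intro j hj x y hx hy
          rw [List.mem_singleton] at hj
          exact hfree r hr0 hr1 j x y hx hy (fun h => h0.ne' h.1)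
            (fun h => hj h.2) (fun h => e.ne h.1)) (vu_pos hVu h0 hr1) hl
      have hl2 := left_of_right w (a := V + r) (b := V + s) (by linarith)
        (hio r s hr0 hs1.le (fun t ht => ⟨ht.1.ne', ht.2.ne⟩)) hq2
      obtain ⟨q3, hq3, hre3⟩ := jumpQ3 (L := [l]) w (by simp)
        (by intro j hj; rw [List.mem_singleton] at hj; subst hj; exact hQ')
        (by
          intro j hj x y hx hy
          rw [List.mem_singleton] at hj
          exact hfree s hs0 hs1 j x y hx hy (fun h => g0.ne' h.1)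
            (fun h => e.ne' h.1) (fun h => hj h.2)) (vu_pos hVu g0 hs1) hl2
      have := fin (a := s) hs0 hs1 (fun t ht => ⟨(e.trans ht.1).ne', ht.1.ne'⟩) hq3 hF
      subst this
      exact pat_of hq20 hF20 hvr (Reach.append hre2 hre3)

theorem sub_one_val : ∀ k : Fin 6, k ≠ 0 → k.val = (k - 1).val + 1 := by decide

/-- **L3**: if there is exactly one end `V` of type `e|A` and there are exactly two ends `Q`, `Q'` of
type `f|C`, in `(V, V + 6)`, then the centre lies in the open triangle of the three ends. -/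
theorem L3 (w : RawT3 X) (h23 : ∀ u, u ∈ X 2 → u ∉ X 3) (anti : ∀ u, u ∈ X 2 → u + 3 ∉ X 3)
    {V Q Q' : ℝ} (hV : VMark X V)
    (hVu : ∀ u, u ∈ X 0 → u ∈ X 2 → ∃ n : ℤ, u = V + 6 * n)
    (hQ : QMark X Q) (hQ' : QMark X Q') (h1 : V < Q) (h2 : Q < Q') (h3 : Q' < V + 6)
    (hQu : ∀ u, u ∈ X 1 → u ∈ X 3 → ∃ n : ℤ, u = Q + 6 * n ∨ u = Q' + 6 * n) :
    Q < V + 3 ∧ V + 3 < Q' ∧ Q' < Q + 3 := by
  have hV2 : V ∈ X 2 := by rcases hV with h | h; exacts [h.mem_b, h.mem_a]
  have hQ3 : Q ∈ X 3 := by rcases hQ with h | h; exacts [h.mem_b, h.mem_a]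
  have hQ3' : Q' ∈ X 3 := by rcases hQ' with h | h; exacts [h.mem_b, h.mem_a]
  have nQ : Q ≠ V + 3 := fun h => anti V hV2 (h ▸ hQ3)
  have nQ' : Q' ≠ V + 3 := fun h => anti V hV2 (h ▸ hQ3')
  -- integer and fractional parts
  have dec : ∀ T : ℝ, V < T → T < V + 6 → ∃ (k : Fin 6) (r : ℝ), 0 ≤ r ∧ r < 1 ∧
      T = V + r + (k.val : ℝ) := by
    intro T hT1 hT2
    have hf0 : 0 ≤ ⌊T - V⌋ := Int.floor_nonneg.mpr (by linarith)
    have hf6 : ⌊T - V⌋ < 6 := by
      rw [Int.floor_lt]; push_cast; linarith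
    refine ⟨⟨⌊T - V⌋.toNat, by omega⟩, Int.fract (T - V), Int.fract_nonneg _,
      Int.fract_lt_one _, ?_⟩
    have e : ((⌊T - V⌋.toNat : ℕ) : ℝ) = (⌊T - V⌋ : ℝ) := by
      have : ((⌊T - V⌋.toNat : ℤ)) = ⌊T - V⌋ := Int.toNat_of_nonneg hf0
      exact_mod_cast congrArg (Int.cast : ℤ → ℝ) this
    show T = V + Int.fract (T - V) + ((⌊T - V⌋.toNat : ℕ) : ℝ)
    rw [e]
    have := Int.floor_add_fract (T - V)
    linarith
  obtain ⟨k, r, hr0, hr1, hk⟩ := dec Q h1 (h2.trans h3)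
  obtain ⟨l, s, hs0, hs1, hl⟩ := dec Q' (h1.trans h2) h3
  have hne : ¬ (r = s ∧ k = l) := by
    rintro ⟨e1, e2⟩
    rw [hk, hl, e1, e2] at h2
    exact lt_irrefl _ h2
  have c1 := fun hrs : r ≤ s => 
    L3aux w h23 hV hVu hr0 hrs hs1 (hk ▸ hQ) (hl ▸ hQ') hne (fun u a b => by
      obtain ⟨n, hn⟩ := hQu u a b
      refine ⟨n, ?_⟩
      rw [← hk, ← hl]; exact hn)
  have c2 := fun hrs : s ≤ r => 
    L3aux w h23 hV hVu hs0 hrs hr1 (hl ▸ hQ') (hk ▸ hQ) (fun h => hne ⟨h.1.symm, h.2.symm⟩)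
      (fun u a b => by
        obtain ⟨n, hn⟩ := hQu u a b
        refine ⟨n, ?_⟩
        rw [← hk, ← hl]; exact hn.symm)
  have fin : ∀ {a b : ℕ}, k.val = a → l.val = b → Q = V + r + (a : ℝ) ∧ Q' = V + s + (b : ℝ) := by
    intro a b ha hb
    rw [hk, hl, ha, hb]
    exact ⟨rfl, rfl⟩
  rcases lt_trichotomy r s with hrs | hrs | hrs
  · rcases c1 hrs.le with h | ⟨r0, s0, k0, h⟩ | ⟨r0, s0, -⟩
    · rcases pat_cases h with ⟨a, b⟩ | ⟨a, b⟩ | ⟨a, b⟩ | ⟨a, b⟩ | ⟨a, b⟩ | ⟨a, b⟩ | ⟨a, b⟩ |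
        ⟨a, b⟩ <;> obtain ⟨e1, e2⟩ := fin a b <;> push_cast at e1 e2 <;>
        first
          | (exfalso; linarith)
          | (refine ⟨?_, lt_of_le_of_ne (by linarith) (Ne.symm nQ'), ?_⟩ <;> linarith)
    · have hk1 := sub_one_val k k0
      rcases pat_cases h with ⟨b, a⟩ | ⟨b, a⟩ | ⟨b, a⟩ | ⟨b, a⟩ | ⟨b, a⟩ | ⟨b, a⟩ | ⟨b, a⟩ |
        ⟨b, a⟩ <;> rw [a] at hk1 <;> obtain ⟨e1, e2⟩ := fin hk1 b <;> push_cast at e1 e2 <;>
        first
          | (exfalso; linarith)
          | (exfalso; exact nQ (by linarith))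
          | (refine ⟨?_, lt_of_le_of_ne (by linarith) (Ne.symm nQ'), ?_⟩ <;> linarith)
    · exact absurd (r0.trans s0.symm) hrs.ne
  · rcases c1 hrs.le with h | ⟨r0, s0, -⟩ | ⟨r0, s0, k0, l0, h⟩
    · rcases c2 hrs.ge with h' | ⟨r0, s0, -⟩ | ⟨r0, s0, l0, k0, h'⟩
      · rcases pat_cases h with ⟨a, b⟩ | ⟨a, b⟩ | ⟨a, b⟩ | ⟨a, b⟩ | ⟨a, b⟩ | ⟨a, b⟩ | ⟨a, b⟩ |
          ⟨a, b⟩ <;> have d := pat_cases h' <;> rw [a, b] at d <;>
          first
            | (exfalso; omega)
            | (obtain ⟨e1, e2⟩ := fin a b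
               push_cast at e1 e2
               first
                 | (exfalso; linarith)
                 | (refine ⟨?_, lt_of_le_of_ne (by linarith) (Ne.symm nQ'), ?_⟩ <;> linarith))
      · exact absurd (r0 ▸ hrs) (by intro e; linarith)
      · have hk1 := sub_one_val k k0
        have hl1 := sub_one_val l l0
        have d := pat_cases h'
        rcases pat_cases h with ⟨a, b⟩ | ⟨a, b⟩ | ⟨a, b⟩ | ⟨a, b⟩ | ⟨a, b⟩ | ⟨a, b⟩ | ⟨a, b⟩ |
          ⟨a, b⟩ <;>
          first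
            | (exfalso; omega)
            | (obtain ⟨e1, e2⟩ := fin a b
               push_cast at e1 e2
               first
                 | (exfalso; linarith)
                 | (refine ⟨?_, lt_of_le_of_ne (by linarith) (Ne.symm nQ'), ?_⟩ <;> linarith))
    · exact absurd (r0 ▸ hrs) (by intro e; linarith)
    · have hk1 := sub_one_val k k0
      have hl1 := sub_one_val l l0
      rcases c2 hrs.ge with h' | ⟨r0', s0', -⟩ | ⟨r0', s0', l0', k0', h'⟩
      · have d := pat_cases h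
        rcases pat_cases h' with ⟨b, a⟩ | ⟨b, a⟩ | ⟨b, a⟩ | ⟨b, a⟩ | ⟨b, a⟩ | ⟨b, a⟩ | ⟨b, a⟩ |
          ⟨b, a⟩ <;>
          first
            | (exfalso; omega)
            | (obtain ⟨e1, e2⟩ := fin a b
               push_cast at e1 e2
               first
                 | (exfalso; linarith)
                 | (refine ⟨?_, lt_of_le_of_ne (by linarith) (Ne.symm nQ'), ?_⟩ <;> linarith))
      · exact absurd (r0' ▸ hrs) (by intro e; linarith)
      · have d := pat_cases h'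
        rcases pat_cases h with ⟨a, b⟩ | ⟨a, b⟩ | ⟨a, b⟩ | ⟨a, b⟩ | ⟨a, b⟩ | ⟨a, b⟩ | ⟨a, b⟩ |
          ⟨a, b⟩ <;> rw [a] at hk1 <;> rw [b] at hl1 <;> rw [a, b] at d <;>
          first
            | (exfalso; omega)
            | (obtain ⟨e1, e2⟩ := fin hk1 hl1
               push_cast at e1 e2
               first
                 | (exfalso; linarith)
                 | (exfalso; exact nQ (by linarith))
                 | (refine ⟨?_, lt_of_le_of_ne (by linarith) (Ne.symm nQ'), ?_⟩ <;> linarith))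
  · rcases c2 hrs.le with h | ⟨r0, s0, l0, h⟩ | ⟨r0, s0, -⟩
    · rcases pat_cases h with ⟨b, a⟩ | ⟨b, a⟩ | ⟨b, a⟩ | ⟨b, a⟩ | ⟨b, a⟩ | ⟨b, a⟩ | ⟨b, a⟩ |
        ⟨b, a⟩ <;> obtain ⟨e1, e2⟩ := fin a b <;> push_cast at e1 e2 <;>
        first
          | (exfalso; linarith)
          | (refine ⟨?_, lt_of_le_of_ne (by linarith) (Ne.symm nQ'), ?_⟩ <;> linarith)
    · have hl1 := sub_one_val l l0
      rcases pat_cases h with ⟨a, b⟩ | ⟨a, b⟩ | ⟨a, b⟩ | ⟨a, b⟩ | ⟨a, b⟩ | ⟨a, b⟩ | ⟨a, b⟩ |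
        ⟨a, b⟩ <;> rw [b] at hl1 <;> obtain ⟨e1, e2⟩ := fin a hl1 <;> push_cast at e1 e2 <;>
        first
          | (exfalso; linarith)
          | (refine ⟨?_, lt_of_le_of_ne (by linarith) (Ne.symm nQ'), ?_⟩ <;> linarith)
    · exact absurd (r0.trans s0.symm) hrs.ne

end Vale.Agent.P032.Words.Tie3

namespace Vale.Agent.P032.Words

open Set Filter Topology

variable {X : Fin 4 → Set ℝ}

theorem RawT3.anti' (R : RawT3 X) (u : ℝ) (h : u ∈ X 3) : u + 3 ∉ X 2 := fun h' =>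
  R.anti _ h' (by
    have : u + 3 + 3 = u + 6 := by ring
    rw [this, R.per]; exact h)

/-- renaming of the letters by `σ` -/
theorem RawT3.perm (R : RawT3 X) (σ : Equiv.Perm (Fin 4)) (hσ : ∀ l, l.val < 2 → (σ.symm l).val < 2)
    (h23 : (σ 2 = 2 ∧ σ 3 = 3) ∨ (σ 2 = 3 ∧ σ 3 = 2)) : RawT3 fun l => X (σ l) where
  closed := fun l => R.closed _
  cover := fun u => by
    obtain ⟨l, hl⟩ := R.cover u
    exact ⟨σ.symm l, by rw [Equiv.apply_symm_apply]; exact hl⟩
  per := fun l u => R.per _ u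
  anti := by
    rcases h23 with ⟨h2, h3⟩ | ⟨h2, h3⟩ <;> rw [h2, h3]
    · exact R.anti
    · exact R.anti'
  ac := by
    rcases h23 with ⟨h2, h3⟩ | ⟨h2, h3⟩ <;> rw [h2, h3]
    · exact R.ac
    · exact fun u h h' => R.ac u h' h
  two := fun u l m n h1 h2 h3 => by
    rcases R.two u _ _ _ h1 h2 h3 with h | h | h
    · exact Or.inl (σ.injective h)
    · exact Or.inr (Or.inl (σ.injective h))
    · exact Or.inr (Or.inr (σ.injective h))
  own := fun u l h1 h2 => by
    obtain ⟨m, hm, h⟩ := R.own u _ h1 h2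
    refine ⟨σ.symm m, fun e => hm ?_, by rw [Equiv.apply_symm_apply]; exact h⟩
    rw [← e, Equiv.apply_symm_apply]
  own' := fun u l h1 h2 => by
    obtain ⟨m, hm, h⟩ := R.own' u _ h1 h2
    refine ⟨σ.symm m, fun e => hm ?_, by rw [Equiv.apply_symm_apply]; exact h⟩
    rw [← e, Equiv.apply_symm_apply]
  swap := fun u l m h1 h2 h3 h4 => σ.injective (R.swap u _ _ h1 h2 h3 h4)
  dbl := fun u l m hlm h1 h2 h3 h4 => by
    have := R.dbl u _ _ (fun h => hlm (σ.injective h)) h1 h2 h3 h4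
    have a := hσ _ this.1
    have b := hσ _ this.2
    rw [Equiv.symm_apply_apply] at a b
    exact ⟨a, b⟩

/-- exchange of `e` and `f` -/
theorem RawT3.swapEF (R : RawT3 X) : RawT3 ![X 1, X 0, X 2, X 3] := by
  have h := R.perm (Equiv.swap 0 1) (by decide) (Or.inl ⟨by decide, by decide⟩)
  have e : (fun l => X (Equiv.swap 0 1 l)) = ![X 1, X 0, X 2, X 3] := by
    funext l; fin_cases l <;> rfl
  rw [e] at h
  exact h

/-- exchange of `A` and `C` -/
theorem RawT3.swapAC (R : RawT3 X) : RawT3 ![X 0, X 1, X 3, X 2] := by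
  have h := R.perm (Equiv.swap 2 3) (by decide) (Or.inr ⟨by decide, by decide⟩)
  have e : (fun l => X (Equiv.swap 2 3 l)) = ![X 0, X 1, X 3, X 2] := by
    funext l; fin_cases l <;> rfl
  rw [e] at h
  exact h

/-- **L1**: `e` meets `A` or `C`. -/
theorem RawT3.L1e (R : RawT3 X) : ∃ u, u ∈ X 0 ∧ (u ∈ X 2 ∨ u ∈ X 3) := by
  by_contra h
  push Not at h
  exact Tie3.L1 R (fun u hu => (h u hu).1) (fun u hu => (h u hu).2) R.ac

/-- **L1**: `f` meets `A` or `C`. -/
theorem RawT3.L1f (R : RawT3 X) : ∃ u, u ∈ X 1 ∧ (u ∈ X 2 ∨ u ∈ X 3) := R.swapEF.L1e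

/-- **L2**: not exactly one end `e|A` and exactly one end `f|C`. -/
theorem RawT3.L2 (R : RawT3 X) {V Q : ℝ} (hV : End X 0 2 V) (hQ : End X 1 3 Q)
    (hVu : ∀ u, u ∈ X 0 → u ∈ X 2 → ∃ n : ℤ, u = V + 6 * n)
    (hQu : ∀ u, u ∈ X 1 → u ∈ X 3 → ∃ n : ℤ, u = Q + 6 * n) : False := by
  -- reduce `V` to the window `[Q, Q + 6)`, with the roles of the two ends kept
  obtain ⟨m, hm⟩ : ∃ m : ℤ, V ≤ Q + 6 * m ∧ Q + 6 * m < V + 6 := by
    refine ⟨-⌊(Q - V) / 6⌋, ?_, ?_⟩
    · have := Int.floor_le ((Q - V) / 6)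
      push_cast; linarith
    · have := Int.lt_floor_add_one ((Q - V) / 6)
      push_cast; linarith
  obtain ⟨hm1, hm2⟩ := hm
  have perZ : ∀ (n : ℤ) (l : Fin 4) (u : ℝ), u + 6 * (n : ℝ) ∈ X l ↔ u ∈ X l := by
    intro n l
    induction n with
    | zero => intro u; simp
    | succ i ih =>
      intro u
      have : u + 6 * (((i : ℤ) + 1 : ℤ) : ℝ) = (u + 6 * ((i : ℤ) : ℝ)) + 6 := by push_cast; ring
      rw [this, R.per, ih]
    | pred i ih =>
      intro u
      have : u + 6 * ((-(i : ℤ) - 1 : ℤ) : ℝ) + 6 = u + 6 * ((-(i : ℤ) : ℤ) : ℝ) := by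
        push_cast; ring
      rw [← R.per, this, ih]
  have hmark : ∀ {x y : Fin 4}, Mark X x y Q → Mark X x y (Q + 6 * (m : ℝ)) := by
    intro x y hh
    refine ⟨(perZ m _ _).mpr hh.mem_a, (perZ m _ _).mpr hh.mem_b,
      fun l hl => hh.only l ((perZ m _ _).mp hl), ?_, ?_⟩
    · have h1 := tendsto_add_left (Q + 6 * (m : ℝ)) (-(6 * (m : ℝ)))
      have e : Q + 6 * (m : ℝ) + -(6 * (m : ℝ)) = Q := by ring
      rw [e] at h1
      filter_upwards [h1.eventually hh.left] with v hv hv'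
      refine hv ((perZ m _ _).mp ?_)
      have e2 : v + -(6 * (m : ℝ)) + 6 * (m : ℝ) = v := by ring
      rw [e2]; exact hv'
    · have h1 := tendsto_add_right (Q + 6 * (m : ℝ)) (-(6 * (m : ℝ)))
      have e : Q + 6 * (m : ℝ) + -(6 * (m : ℝ)) = Q := by ring
      rw [e] at h1
      filter_upwards [h1.eventually hh.right] with v hv hv'
      refine hv ((perZ m _ _).mp ?_)
      have e2 : v + -(6 * (m : ℝ)) + 6 * (m : ℝ) = v := by ring
      rw [e2]; exact hv'
  have hQ2 : QMark X (Q + 6 * (m : ℝ)) := hQ.imp hmark hmark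
  set T := Q + 6 * (m : ℝ) with hT
  have hf0 : 0 ≤ ⌊T - V⌋ := Int.floor_nonneg.mpr (by linarith)
  have hf6 : ⌊T - V⌋ < 6 := by
    rw [Int.floor_lt]; push_cast; linarith
  have e : ((⌊T - V⌋.toNat : ℕ) : ℝ) = (⌊T - V⌋ : ℝ) := by
    have : ((⌊T - V⌋.toNat : ℤ)) = ⌊T - V⌋ := Int.toNat_of_nonneg hf0
    exact_mod_cast congrArg (Int.cast : ℤ → ℝ) this
  have hTe : V + Int.fract (T - V) + (((⟨⌊T - V⌋.toNat, by omega⟩ : Fin 6).val : ℕ) : ℝ) = T := by
    show V + Int.fract (T - V) + ((⌊T - V⌋.toNat : ℕ) : ℝ) = T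
    rw [e]
    have := Int.floor_add_fract (T - V)
    linarith
  refine Tie3.L2 R R.ac hV hVu (k := ⟨⌊T - V⌋.toNat, by omega⟩)
    (Int.fract_nonneg (T - V)) (Int.fract_lt_one (T - V)) ?_ ?_
  · rw [hTe]; exact hQ2
  · intro u a b
    obtain ⟨n, hn⟩ := hQu u a b
    refine ⟨n - m, ?_⟩
    rw [hTe, hT, hn]
    push_cast; ring

/-- **L3**: exactly one end `V` of type `e|A`, exactly two ends `Q < Q'` of type `f|C` in the window
`(V, V + 6)`: the centre is in the open triangle of the three ends. -/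
theorem RawT3.L3 (R : RawT3 X) {V Q Q' : ℝ} (hV : End X 0 2 V)
    (hVu : ∀ u, u ∈ X 0 → u ∈ X 2 → ∃ n : ℤ, u = V + 6 * n)
    (hQ : End X 1 3 Q) (hQ' : End X 1 3 Q') (h1 : V < Q) (h2 : Q < Q') (h3 : Q' < V + 6)
    (hQu : ∀ u, u ∈ X 1 → u ∈ X 3 → ∃ n : ℤ, u = Q + 6 * n ∨ u = Q' + 6 * n) :
    Q < V + 3 ∧ V + 3 < Q' ∧ Q' < Q + 3 :=
  Tie3.L3 R R.ac R.anti hV hVu hQ hQ' h1 h2 h3 hQu


end Vale.Agent.P032.Words
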