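import Vale.Agent.P032.R2.H659.Tie3J

/-!
# Words on a circle with T3 contacts: the jumps `jumpQ3`, `jumpV3`
-/

namespace Vale.Agent.P032.Words

open Set Filter Topology

section
variable {X : Fin 4 → Set ℝ}

theorem RawT3.mem_add2 (w : RawT3 X) (u : ℝ) (k : Fin 6) (l : Fin 4) :
    u + ((k + 1 + 1 : Fin 6).val : ℝ) ∈ X l ↔ u + (k.val : ℝ) + 2 ∈ X l := by
  rw [w.mem_add]
  have e : u + ((k + 1).val : ℝ) + 1 = u + 1 + ((k + 1).val : ℝ) := by ring
  rw [e, w.mem_add]
  have e : u + 1 + (k.val : ℝ) + 1 = u + (k.val : ℝ) + 2 := by ring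
  rw [e]

theorem RawT3.mem_sub (w : RawT3 X) (u : ℝ) (k : Fin 6) (l : Fin 4) :
    u + ((k - 1 : Fin 6).val : ℝ) ∈ X l ↔ u + (k.val : ℝ) - 1 ∈ X l := by
  have h := w.mem_add (u - 1) (k - 1) l
  rw [Fin.add_one_sub] at h
  have e1 : u - 1 + ((k : Fin 6).val : ℝ) = u + (k.val : ℝ) - 1 := by ring
  have e2 : u - 1 + ((k - 1 : Fin 6).val : ℝ) + 1 = u + ((k - 1 : Fin 6).val : ℝ) := by ring
  rw [e1, e2] at h
  exact h.symm

theorem RawT3.mem_sub2 (w : RawT3 X) (u : ℝ) (k : Fin 6) (l : Fin 4) :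
    u + ((k - 1 - 1 : Fin 6).val : ℝ) ∈ X l ↔ u + (k.val : ℝ) - 2 ∈ X l := by
  rw [w.mem_sub]
  have e : u + ((k - 1 : Fin 6).val : ℝ) - 1 = u - 1 + ((k - 1 : Fin 6).val : ℝ) := by ring
  rw [e, w.mem_sub]
  have e : u - 1 + (k.val : ℝ) - 1 = u + (k.val : ℝ) - 2 := by ring
  rw [e]

variable {u : ℝ} {M D : Finset (Fin 6)} {a b : Fin 6 → Fin 4} {S : Finset (Fin 6)}

theorem Inst.midL (I : Inst X u M D a b) {k : Fin 6} (hk : k ∈ D) :
    ∃ μ : Fin 4, (μ = 0 ∨ μ = 1) ∧ a (k - 1) ≠ μ ∧ a (k + 1) ≠ μ := by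
  obtain ⟨v, hv⟩ := I.left.exists
  refine ⟨stT X v k, I.mid_only hk (hv.1 k), ?_, ?_⟩
  · rw [← hv.2 _ (I.nb k hk).1]
    have := I.raw.st_ne v (k - 1)
    rwa [Fin.add_one_sub] at this
  · rw [← hv.2 _ (I.nb k hk).2]
    exact (I.raw.st_ne v k).symm

theorem Inst.midR (I : Inst X u M D a b) {k : Fin 6} (hk : k ∈ D) :
    ∃ μ : Fin 4, (μ = 0 ∨ μ = 1) ∧ b (k - 1) ≠ μ ∧ b (k + 1) ≠ μ := by
  obtain ⟨v, hv⟩ := I.right.exists
  refine ⟨stT X v k, I.mid_only hk (hv.1 k), ?_, ?_⟩
  · rw [← hv.2 _ (I.nb k hk).1]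
    have := I.raw.st_ne v (k - 1)
    rwa [Fin.add_one_sub] at this
  · rw [← hv.2 _ (I.nb k hk).2]
    exact (I.raw.st_ne v k).symm

/-- Passing a point with marks of type `f|C` at the positions of `L`. -/
theorem jumpQ3 (w : RawT3 X) {L : List (Fin 6)} (hL : L.Nodup)
    (hM : ∀ k ∈ L, QMark X (u + (k.val : ℝ)))
    (hN : ∀ k ∉ L, ∀ x y, u + (k.val : ℝ) ∈ X x → u + (k.val : ℝ) ∈ X y → Fr x y)
    (hV : ∀ k : Fin 6, u + (k.val : ℝ) ∈ X 0 → u + (k.val : ℝ) ∈ X 2 → False)
    {p : ℕ} (hp : ∀ᶠ v in 𝓝[<] u, cp (stT X v) = p) :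
    ∃ q, (∀ᶠ v in 𝓝[>] u, cp (stT X v) = q) ∧ Reach L p q := by
  classical
  have hc : ∀ k : Fin 6, ∃ ab : Fin 4 × Fin 4, k ∈ L → Mark X ab.1 ab.2 (u + (k.val : ℝ)) ∧
      ((ab.1 = 1 ∧ ab.2 = 3) ∨ (ab.1 = 3 ∧ ab.2 = 1)) := by
    intro k
    by_cases hk : k ∈ L
    · rcases hM k hk with h | h
      · exact ⟨(1, 3), fun _ => ⟨h, Or.inl ⟨rfl, rfl⟩⟩⟩
      · exact ⟨(3, 1), fun _ => ⟨h, Or.inr ⟨rfl, rfl⟩⟩⟩
    · exact ⟨(0, 0), fun h => absurd h hk⟩
  choose ab hab using hc
  have I : Inst X u L.toFinset ∅ (fun k => (ab k).1) (fun k => (ab k).2) :=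
    { raw := w
      mark := fun k hk => (hab k (List.mem_toFinset.mp hk)).1
      ty := fun k hk => Or.inr (Or.inr (hab k (List.mem_toFinset.mp hk)).2)
      free := fun k hk => hN k fun h' => hk (List.mem_toFinset.mpr h')
      mid0 := fun k hk => absurd hk (Finset.notMem_empty k)
      mid1 := fun k hk => absurd hk (Finset.notMem_empty k)
      dis := fun k hk => absurd hk (Finset.notMem_empty k)
      nb := fun k hk => absurd hk (Finset.notMem_empty k)
      three := fun k _ _ _ _ _ _ h4 h5 => hV (k + 1 + 1) ((w.mem_add2 u k 0).mpr h4)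
        ((w.mem_add2 u k 2).mpr h5)
      three' := fun k _ _ _ _ _ _ h4 h5 => hV (k - 1 - 1) ((w.mem_sub2 u k 0).mpr h4)
        ((w.mem_sub2 u k 2).mpr h5) }
  have pr : ∀ S : Finset (Fin 6), Pr ∅ (fun k => (ab k).1) (fun k => (ab k).2) S 0 := fun S =>
    ⟨Or.inl rfl, fun k hk => absurd hk (Finset.notMem_empty k)⟩
  refine ⟨_, I.cp_right (pr _), ?_⟩
  have e : p = cp (hexG X u L.toFinset ∅ (fun k => (ab k).1) (fun k => (ab k).2) ∅ 0) := by
    obtain ⟨v, h1, h2⟩ := (hp.and (I.cp_left (pr _))).exists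
    rw [← h1, h2]
  have := reach_list (M := L.toFinset)
    (h := fun S => hexG X u L.toFinset ∅ (fun k => (ab k).1) (fun k => (ab k).2) S 0)
    (fun S => I.leg (pr S)) (fun S k hk hkS => I.upd hk hkS) L ∅ hL
    (fun k hk => ⟨List.mem_toFinset.mpr hk, Finset.notMem_empty k, (hab k hk).2⟩)
  rw [foldl_insert, Finset.empty_union] at this
  rw [e]
  exact this

theorem rot_update (g : Hx) (k : Fin 6) (x : Fin 4) :
    rot (Function.update g (k + 1) x) = Function.update (rot g) k x := by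
  funext j
  by_cases hj : j = k
  · subst hj
    rw [Function.update_self]
    show Function.update g (j + 1) x (j + 1) = x
    rw [Function.update_self]
  · rw [Function.update_of_ne hj]
    show Function.update g (k + 1) x (j + 1) = g (j + 1)
    rw [Function.update_of_ne (fun h => hj (add_right_cancel h))]

theorem leg_rot {g : Hx} (h : Leg4 g) : Leg4 (rot g) := by
  obtain ⟨ha, hb⟩ := h
  refine ⟨fun k => ha (k + 1), fun k => ?_⟩
  have := hb (k + 1)
  unfold rot
  have e : k + 3 + 1 = k + 1 + 3 := add_right_comm k 3 1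
  rw [e]
  exact this

theorem no_both : ∀ k : Fin 6, ¬ (k - 1 = 0 ∧ k + 1 = 0) := by decide

/-- Passing the mark `V` of type `e|A` and marks of type `f|C` at the positions of `L`, T3 contacts
allowed: `V` first, or all `f|C` first. -/
theorem jumpV3 (w : RawT3 X) {L : List (Fin 6)} (hL : L.Nodup)
    (hL0 : (0 : Fin 6) ∉ L) (hV : VMark X u)
    (hM : ∀ k ∈ L, QMark X (u + (k.val : ℝ)))
    (hN : ∀ k ∉ L, k ≠ 0 → ∀ x y, u + (k.val : ℝ) ∈ X x → u + (k.val : ℝ) ∈ X y → Fr x y)
    (hVu : ∀ k : Fin 6, u + (k.val : ℝ) ∈ X 0 → u + (k.val : ℝ) ∈ X 2 → k = 0) :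
    ∃ q F, (∀ᶠ v in 𝓝[>] u, cp (stT X v) = q) ∧ (∀ᶠ v in 𝓝[<] (u + 1), cp (stT X v) = F) ∧
      q < 20 ∧ F < 20 ∧ ((∃ p, p < 20 ∧ relN vr p F = true ∧ Reach L p q) ∨
        ∃ F', F' < 20 ∧ relN vr q F' = true ∧ Reach (L.map fun k => k - 1) F F') := by
  classical
  have hc : ∀ k : Fin 6, ∃ ab : Fin 4 × Fin 4, k ∈ L → Mark X ab.1 ab.2 (u + (k.val : ℝ)) ∧
      ((ab.1 = 1 ∧ ab.2 = 3) ∨ (ab.1 = 3 ∧ ab.2 = 1)) := by
    intro k
    by_cases hk : k ∈ L
    · rcases hM k hk with h | h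
      · exact ⟨(1, 3), fun _ => ⟨h, Or.inl ⟨rfl, rfl⟩⟩⟩
      · exact ⟨(3, 1), fun _ => ⟨h, Or.inr ⟨rfl, rfl⟩⟩⟩
    · exact ⟨(0, 0), fun h => absurd h hk⟩
  choose ab hab using hc
  have hcV : ∃ ab : Fin 4 × Fin 4, Mark X ab.1 ab.2 u ∧
      ((ab.1 = 0 ∧ ab.2 = 2) ∨ (ab.1 = 2 ∧ ab.2 = 0)) := by
    rcases hV with h | h
    · exact ⟨(0, 2), h, Or.inl ⟨rfl, rfl⟩⟩
    · exact ⟨(2, 0), h, Or.inr ⟨rfl, rfl⟩⟩
  obtain ⟨av, hav, hav2⟩ := hcV
  have e0 : u + ((0 : Fin 6).val : ℝ) = u := by simp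
  set a : Fin 6 → Fin 4 := fun k => if k = 0 then av.1 else (ab k).1 with ha
  set b : Fin 6 → Fin 4 := fun k => if k = 0 then av.2 else (ab k).2 with hb
  have a0 : a 0 = av.1 := by simp [ha]
  have b0 : b 0 = av.2 := by simp [hb]
  have hne0 : ∀ k ∈ L, k ≠ 0 := fun k hk h => hL0 (h ▸ hk)
  have hQ : ∀ k ∈ L, (a k = 1 ∧ b k = 3) ∨ (a k = 3 ∧ b k = 1) := by
    intro k hk
    simp only [ha, hb, if_neg (hne0 k hk)]
    exact (hab k hk).2
  set M : Finset (Fin 6) := insert 0 L.toFinset with hMdef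
  have hM0 : (0 : Fin 6) ∈ M := Finset.mem_insert_self _ _
  set D : Finset (Fin 6) := Finset.univ.filter fun k => k ∉ M ∧ k - 1 ∈ M ∧ k + 1 ∈ M ∧
    u + (k.val : ℝ) ∈ X 0 ∧ u + (k.val : ℝ) ∈ X 1 ∧ (k - 1 = 0 ∨ k + 1 = 0) with hD
  have memD : ∀ {k}, k ∈ D ↔ k ∉ M ∧ k - 1 ∈ M ∧ k + 1 ∈ M ∧
    u + (k.val : ℝ) ∈ X 0 ∧ u + (k.val : ℝ) ∈ X 1 ∧ (k - 1 = 0 ∨ k + 1 = 0) := by
    intro k; simp [hD]
  have I : Inst X u M D a b :=
    { raw := w
      mark := by
        intro k hk
        by_cases h0 : k = 0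
        · subst h0
          rw [e0, a0, b0]
          exact hav
        · simp only [ha, hb, if_neg h0]
          rcases Finset.mem_insert.mp hk with h' | h'
          · exact absurd h' h0
          · exact (hab k (List.mem_toFinset.mp h')).1
      ty := by
        intro k hk
        by_cases h0 : k = 0
        · subst h0
          rw [a0, b0]
          rcases hav2 with h1 | h1
          · exact Or.inl h1
          · exact Or.inr (Or.inl h1)
        · rcases Finset.mem_insert.mp hk with h' | h'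
          · exact absurd h' h0
          · exact Or.inr (Or.inr (hQ k (List.mem_toFinset.mp h')))
      free := by
        intro k hk
        rw [hMdef, Finset.mem_insert, not_or, List.mem_toFinset] at hk
        exact hN k hk.2 hk.1
      mid0 := fun k hk => (memD.1 hk).2.2.2.1
      mid1 := fun k hk => (memD.1 hk).2.2.2.2.1
      dis := fun k hk => (memD.1 hk).1
      nb := fun k hk => ⟨(memD.1 hk).2.1, (memD.1 hk).2.2.1⟩
      three := by
        intro k h1 h2 h3 _ h5 h6 h7 h8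
        have h9 := hVu (k + 1 + 1) ((w.mem_add2 u k 0).mpr h7) ((w.mem_add2 u k 2).mpr h8)
        refine h3 (memD.2 ⟨h2, by rw [add_sub_cancel_right]; exact h1, by rw [h9]; exact hM0,
          (w.mem_add u k 0).mpr h5, (w.mem_add u k 1).mpr h6, Or.inr h9⟩)
      three' := by
        intro k h1 h2 h3 _ h5 h6 h7 h8
        have h9 := hVu (k - 1 - 1) ((w.mem_sub2 u k 0).mpr h7) ((w.mem_sub2 u k 2).mpr h8)
        refine h3 (memD.2 ⟨h2, by rw [h9]; exact hM0, by rw [Fin.add_one_sub]; exact h1,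
          (w.mem_sub u k 0).mpr h5, (w.mem_sub u k 1).mpr h6, Or.inl h9⟩) }
  -- the other neighbour of a middle position is in `L`
  have nbL : ∀ k ∈ D, (k - 1 = 0 ∧ k + 1 ∈ L) ∨ (k + 1 = 0 ∧ k - 1 ∈ L) := by
    intro k hk
    obtain ⟨h1, h2, h3, -, -, h6⟩ := memD.1 hk
    have hd : ¬ (k - 1 = 0 ∧ k + 1 = 0) := no_both k
    rcases h6 with h6 | h6
    · left
      refine ⟨h6, ?_⟩
      rcases Finset.mem_insert.mp h3 with h' | h'
      · exact absurd ⟨h6, h'⟩ hd
      · exact List.mem_toFinset.mp h'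
    · right
      refine ⟨h6, ?_⟩
      rcases Finset.mem_insert.mp h2 with h' | h'
      · exact absurd ⟨h', h6⟩ hd
      · exact List.mem_toFinset.mp h'
  have selQ0 : ∀ S, ∀ k ∈ L, sel a b S k ≠ 0 := by
    intro S k hk
    rcases sel_or (a := a) (b := b) (S := S) k with h | h <;> rw [h] <;>
      rcases hQ k hk with ⟨h1, h2⟩ | ⟨h1, h2⟩ <;> first | (rw [h1]; decide) | (rw [h2]; decide)
  have sel0in : ∀ S : Finset (Fin 6), (0 : Fin 6) ∈ S → sel a b S 0 = b 0 := by
    intro S h; unfold sel; rw [if_pos h]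
  have sel0out : ∀ S : Finset (Fin 6), (0 : Fin 6) ∉ S → sel a b S 0 = a 0 := by
    intro S h; unfold sel; rw [if_neg h]
  -- `μ = 0` is allowed if the letter at `0` is `A`
  have pr0 : ∀ S, sel a b S 0 = 2 → Pr D a b S 0 := by
    intro S hS
    refine ⟨Or.inl rfl, fun k hk => ?_⟩
    rcases nbL k hk with ⟨h1, h2⟩ | ⟨h1, h2⟩
    · rw [h1, hS]; exact ⟨by decide, selQ0 S _ h2⟩
    · rw [h1, hS]; exact ⟨selQ0 S _ h2, by decide⟩
  rcases hav2 with ⟨c1, c2⟩ | ⟨c1, c2⟩
  · -- `V` first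
    rw [c1] at a0; rw [c2] at b0
    have prA : ∀ S, (∀ k ∈ L, k ∉ S) → Pr D a b S 1 := by
      intro S hS
      refine ⟨Or.inr rfl, fun k hk => ?_⟩
      have s0 : sel a b S 0 ≠ 1 := by
        rcases sel_or (a := a) (b := b) (S := S) 0 with h | h <;> rw [h]
        · rw [a0]; decide
        · rw [b0]; decide
      obtain ⟨μ, hμ, m1, m2⟩ := I.midL hk
      rcases nbL k hk with ⟨h1, h2⟩ | ⟨h1, h2⟩
      · rw [h1, a0] at m1
        have : μ = 1 := hμ.resolve_left (fun h => m1 h.symm)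
        subst this
        refine ⟨by rw [h1]; exact s0, ?_⟩
        unfold sel; rw [if_neg (hS _ h2)]; exact m2
      · rw [h1, a0] at m2
        have : μ = 1 := hμ.resolve_left (fun h => m2 h.symm)
        subst this
        refine ⟨?_, by rw [h1]; exact s0⟩
        unfold sel; rw [if_neg (hS _ h2)]; exact m1
    have p1 : Pr D a b ∅ 1 := prA ∅ fun k _ => Finset.notMem_empty k
    have p2 : Pr D a b (insert 0 ∅) 1 := prA _ fun k hk h => by
      rw [Finset.mem_insert] at h
      rcases h with h | h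
      · exact hne0 k hk h
      · exact Finset.notMem_empty k h
    have p3 : ∀ S : Finset (Fin 6), Pr D a b (insert 0 S) 0 := fun S =>
      pr0 _ (by rw [sel0in _ (Finset.mem_insert_self _ _), b0])
    refine ⟨_, _, I.cp_right (μ := 0) (p3 _), I.cp_left_one p1, cp_lt (I.leg (p3 _)),
      cp_lt (leg_rot (I.leg p1)), Or.inl ⟨cp (hexG X u M D a b (insert 0 ∅) 1),
        cp_lt (I.leg p2), ?_, ?_⟩⟩
    · obtain ⟨e1, e2⟩ := I.upd (S := ∅) (μ := 1) hM0 (Finset.notMem_empty _)
      have hl2 := I.leg p2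
      rw [e2] at hl2 ⊢
      exact vr_step (I.leg p1) hl2 e1 (Or.inl ⟨a0, b0⟩)
    · rw [I.mid_free p2 (p3 ∅)]
      have := reach_list (M := L.toFinset) (a := a) (b := b)
        (h := fun S => hexG X u M D a b (insert 0 S) 0) (fun S => I.leg (p3 S))
        (fun S k hk hkS => by
          have hk' := List.mem_toFinset.mp hk
          have hk0 := hne0 k hk'
          have h1 := I.upd (S := insert 0 S) (μ := 0) (k := k)
            (Finset.mem_insert_of_mem hk) (by
              rw [Finset.mem_insert, not_or]; exact ⟨hk0, hkS⟩)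
          rw [Finset.insert_comm] at h1
          exact h1) L ∅ hL (fun k hk => ⟨List.mem_toFinset.mpr hk, Finset.notMem_empty k, hQ k hk⟩)
      rw [foldl_insert, Finset.empty_union] at this
      exact this
  · -- all `f|C` first
    rw [c1] at a0; rw [c2] at b0
    have p0 : ∀ S : Finset (Fin 6), (0 : Fin 6) ∉ S → Pr D a b S 0 := fun S hS =>
      pr0 _ (by rw [sel0out _ hS, a0])
    have prB : ∀ S : Finset (Fin 6), (∀ k ∈ L, k ∈ S) → Pr D a b S 1 := by
      intro S hS
      refine ⟨Or.inr rfl, fun k hk => ?_⟩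
      have s0 : sel a b S 0 ≠ 1 := by
        rcases sel_or (a := a) (b := b) (S := S) 0 with h | h <;> rw [h]
        · rw [a0]; decide
        · rw [b0]; decide
      obtain ⟨μ, hμ, m1, m2⟩ := I.midR hk
      rcases nbL k hk with ⟨h1, h2⟩ | ⟨h1, h2⟩
      · rw [h1, b0] at m1
        have : μ = 1 := hμ.resolve_left (fun h => m1 h.symm)
        subst this
        refine ⟨by rw [h1]; exact s0, ?_⟩
        unfold sel; rw [if_pos (hS _ h2)]; exact m2
      · rw [h1, b0] at m2
        have : μ = 1 := hμ.resolve_left (fun h => m2 h.symm)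
        subst this
        refine ⟨?_, by rw [h1]; exact s0⟩
        unfold sel; rw [if_pos (hS _ h2)]; exact m1
    have hLs : (0 : Fin 6) ∉ L.toFinset := fun h => hL0 (List.mem_toFinset.mp h)
    have q1 : Pr D a b M 1 := prB M fun k hk =>
      Finset.mem_insert_of_mem (List.mem_toFinset.mpr hk)
    have q2 : Pr D a b L.toFinset 1 := prB _ fun k hk => List.mem_toFinset.mpr hk
    refine ⟨_, _, I.cp_right q1, I.cp_left_one (p0 ∅ (Finset.notMem_empty _)),
      cp_lt (I.leg q1), cp_lt (leg_rot (I.leg (p0 ∅ (Finset.notMem_empty _)))),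
      Or.inr ⟨cp (rot (hexG X u M D a b L.toFinset 0)), cp_lt (leg_rot (I.leg (p0 _ hLs))),
        ?_, ?_⟩⟩
    · rw [I.mid_free_rot (p0 _ hLs) q2]
      obtain ⟨e1, e2⟩ := I.upd (S := L.toFinset) (μ := 1) hM0 hLs
      have hl2 := I.leg q1
      rw [show M = insert 0 L.toFinset from rfl] at hl2 ⊢
      rw [e2] at hl2 ⊢
      exact vr_step (I.leg q2) hl2 e1 (Or.inr ⟨a0, b0⟩)
    · set sh : Fin 6 → Fin 6 := fun k => k + 1 with hsh
      have shi : Function.Injective sh := fun x y h => add_right_cancel h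
      have hleg : ∀ S : Finset (Fin 6),
          Leg4 (rot (hexG X u M D a b ((S.image sh).erase 0) 0)) := fun S =>
        leg_rot (I.leg (p0 _ (Finset.notMem_erase _ _)))
      have := reach_list (M := (L.map fun k => k - 1).toFinset) (a := fun k => a (k + 1))
        (b := fun k => b (k + 1))
        (h := fun S => rot (hexG X u M D a b ((S.image sh).erase 0) 0)) hleg
        (fun S k hk hkS => by
          rw [List.mem_toFinset, List.mem_map] at hk
          obtain ⟨j, hj, hjk⟩ := hk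
          have hjk' : k + 1 = j := by rw [← hjk]; exact Fin.add_one_sub j
          have hk1 : k + 1 ∈ L := by rw [hjk']; exact hj
          have hk0 := hne0 _ hk1
          have h1 := I.upd (S := (S.image sh).erase 0) (μ := 0) (k := k + 1)
            (Finset.mem_insert_of_mem (List.mem_toFinset.mpr hk1)) (by
              intro h
              have h2 := Finset.mem_of_mem_erase h
              rw [Finset.mem_image] at h2
              obtain ⟨i, hi, hik⟩ := h2
              have : i = k := shi hik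
              exact hkS (this ▸ hi))
          refine ⟨h1.1, ?_⟩
          have h3 : ((insert k S).image sh).erase 0 = insert (k + 1) ((S.image sh).erase 0) := by
            rw [Finset.image_insert, Finset.erase_insert_of_ne hk0]
          show rot (hexG X u M D a b (((insert k S).image sh).erase 0) 0) = _
          rw [h3, h1.2, rot_update]) (L.map fun k => k - 1) ∅
        (hL.map fun x y h => by
          have := congrArg (fun z : Fin 6 => z + 1) h
          simpa [Fin.add_one_sub] using this)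
        (fun k hk => by
          refine ⟨List.mem_toFinset.mpr hk, Finset.notMem_empty k, ?_⟩
          rw [List.mem_map] at hk
          obtain ⟨j, hj, hjk⟩ := hk
          have hjk' : k + 1 = j := by rw [← hjk]; exact Fin.add_one_sub j
          show (a (k + 1) = 1 ∧ b (k + 1) = 3) ∨ (a (k + 1) = 3 ∧ b (k + 1) = 1)
          rw [hjk']; exact hQ j hj)
      rw [foldl_insert, Finset.empty_union] at this
      have e1 : ((((L.map fun k => k - 1).toFinset).image sh).erase 0) = L.toFinset := by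
        ext k
        rw [Finset.mem_erase, Finset.mem_image]
        constructor
        · rintro ⟨-, j, hj, hjk⟩
          rw [List.mem_toFinset, List.mem_map] at hj
          obtain ⟨i, hi, hij⟩ := hj
          rw [List.mem_toFinset, ← hjk, ← hij]
          show i - 1 + 1 ∈ L
          rw [Fin.add_one_sub]; exact hi
        · intro hk
          have hk' := List.mem_toFinset.mp hk
          refine ⟨hne0 k hk', k - 1, ?_, Fin.add_one_sub k⟩
          rw [List.mem_toFinset, List.mem_map]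
          exact ⟨k, hk', rfl⟩
      have e2 : (((∅ : Finset (Fin 6)).image sh).erase 0) = ∅ := by simp
      simp only [e1, e2] at this
      exact this

end

end Vale.Agent.P032.Words
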