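import Vale.Agent.P032.S5.H80.Anti

/-!
# P032: the tip of a thin lens

`tip s u v` (`s = 1` or `s = -1`): one of the two points at distance one from `u` and from `v`.
If `u, v` are inside the unit circle about `0` and near `n`, `-n`, then the tip is near `0` and its
direction is near `s * (I * n)`.
-/

open Set Filter Topology Metric

noncomputable section

namespace Vale.Agent.P032.Six

theorem ip_self (a : ℂ) : ip a a = ‖a‖ ^ 2 := by
  rw [Complex.sq_norm, Complex.normSq_apply]; rfl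

theorem ip_comm (a b : ℂ) : ip a b = ip b a := by unfold ip; ring

theorem ip_add (a b c : ℂ) : ip (a + b) c = ip a c + ip b c := by
  unfold ip; simp only [Complex.add_re, Complex.add_im]; ring

theorem ip_sub (a b c : ℂ) : ip (a - b) c = ip a c - ip b c := by
  unfold ip; simp only [Complex.sub_re, Complex.sub_im]; ring

theorem abs_ip_le (a b : ℂ) : |ip a b| ≤ ‖a‖ * ‖b‖ := by
  have h1 : ip a b ^ 2 ≤ (‖a‖ * ‖b‖) ^ 2 := by
    rw [mul_pow, ← ip_self, ← ip_self]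
    unfold ip
    nlinarith [sq_nonneg (a.re * b.im - a.im * b.re)]
  exact abs_le_of_sq_le_sq h1 (by positivity)

theorem norm_sub_sq' (a b : ℂ) : ‖a - b‖ ^ 2 = ‖a‖ ^ 2 - 2 * ip a b + ‖b‖ ^ 2 := by
  rw [← ip_self, ← ip_self, ← ip_self]
  unfold ip
  simp only [Complex.sub_re, Complex.sub_im]; ring

/-- a point at distance one from `u` and from `v` -/
def tip (s : ℝ) (u v : ℂ) : ℂ :=
  (u + v) / 2 + ((Real.sqrt (1 - ‖u - v‖ ^ 2 / 4) * s / ‖u - v‖ : ℝ) : ℂ) * (Complex.I * (u - v))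

theorem tip_spec {s : ℝ} (hs : s = 1 ∨ s = -1) {u v : ℂ} (hu : ‖u‖ < 1) (hv : ‖v‖ < 1)
    (h0 : 0 < ‖u - v‖) : ‖tip s u v - u‖ = 1 ∧ ‖tip s u v - v‖ = 1 ∧
      0 < ip (tip s u v) (s * (Complex.I * (u - v))) := by
  set D := u - v with hD
  set r := ‖D‖ with hr
  set ρ := Real.sqrt (1 - r ^ 2 / 4) with hρ
  have hs2 : s ^ 2 = 1 := by rcases hs with rfl | rfl <;> norm_num
  have hr2 : D.re ^ 2 + D.im ^ 2 = r ^ 2 := by
    have := ip_self D
    unfold ip at this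
    rw [hr, ← this]; ring
  -- the parallelogram law
  have hpar : ‖u + v‖ ^ 2 + r ^ 2 = 2 * ‖u‖ ^ 2 + 2 * ‖v‖ ^ 2 := by
    rw [hr, hD, ← ip_self, ← ip_self, ← ip_self, ← ip_self]
    unfold ip
    simp only [Complex.add_re, Complex.add_im, Complex.sub_re, Complex.sub_im]; ring
  have hu2 : ‖u‖ ^ 2 < 1 := by nlinarith [norm_nonneg u]
  have hv2 : ‖v‖ ^ 2 < 1 := by nlinarith [norm_nonneg v]
  have hM : ‖u + v‖ ^ 2 / 4 < 1 - r ^ 2 / 4 := by linarith
  have hpos : 0 < 1 - r ^ 2 / 4 := lt_of_le_of_lt (by positivity) hM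
  have hρ2 : ρ ^ 2 = 1 - r ^ 2 / 4 := Real.sq_sqrt hpos.le
  have hρ0 : 0 < ρ := Real.sqrt_pos.2 hpos
  have ht : tip s u v = (u + v) / 2 + ((ρ * s / r : ℝ) : ℂ) * (Complex.I * D) := rfl
  set q := ρ * s / r with hq
  have hq2 : q ^ 2 * r ^ 2 = ρ ^ 2 := by
    rw [hq]; field_simp; rw [hs2]
  have e1 : tip s u v - u = -(D / 2) + (q : ℂ) * (Complex.I * D) := by
    rw [ht, hD]; ring
  have e2 : tip s u v - v = D / 2 + (q : ℂ) * (Complex.I * D) := by
    rw [ht, hD]; ring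
  have n1 : ‖tip s u v - u‖ ^ 2 = 1 := by
    rw [← ip_self, e1]
    unfold ip
    simp
    nlinarith
  have n2 : ‖tip s u v - v‖ ^ 2 = 1 := by
    rw [← ip_self, e2]
    unfold ip
    simp
    nlinarith
  have m1 : ‖tip s u v - u‖ = 1 := (pow_eq_one_iff_of_nonneg (norm_nonneg _) two_ne_zero).1 n1
  have m2 : ‖tip s u v - v‖ = 1 := (pow_eq_one_iff_of_nonneg (norm_nonneg _) two_ne_zero).1 n2
  refine ⟨m1, m2, ?_⟩
  have hqs : q * s * r ^ 2 = ρ * r := by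
    rw [hq]; field_simp; rw [hs2]
  have h1 : ip (tip s u v) (s * (Complex.I * D)) =
      ip ((u + v) / 2) (s * (Complex.I * D)) + ρ * r := by
    rw [ht]
    unfold ip
    simp
    linear_combination (q * s) * hr2 + hqs
  rw [h1]
  have h3 : ‖(s : ℂ) * (Complex.I * D)‖ = r := by
    have hs1 : ‖(s : ℂ)‖ = 1 := by
      rw [Complex.norm_real, Real.norm_eq_abs]
      rcases hs with h | h <;> rw [h] <;> norm_num
    rw [norm_mul, norm_mul, Complex.norm_I, one_mul, hs1, one_mul]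
  have h2 : |ip ((u + v) / 2) (s * (Complex.I * D))| ≤ ‖(u + v) / 2‖ * r := by
    rw [← h3]; exact abs_ip_le _ _
  have h5 : ‖(u + v) / 2‖ = ‖u + v‖ / 2 := by
    rw [norm_div, Complex.norm_ofNat]
  have h6 : ‖u + v‖ / 2 < ρ := by
    refine lt_of_pow_lt_pow_left₀ 2 hρ0.le ?_
    rw [hρ2]
    linarith [hM, div_pow (‖u + v‖) 2 2]
  rw [h5] at h2
  have h7 := (abs_le.1 h2).1
  have h8 : ‖u + v‖ / 2 * r < ρ * r := mul_lt_mul_of_pos_right h6 h0
  linarith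

theorem tendsto_tip {s : ℝ} {n : ℂ} (hn : ‖n‖ = 1) :
    Tendsto (fun w : ℂ × ℂ => tip s w.1 w.2) (𝓝 (n, -n)) (𝓝 0) := by
  have hD : ‖n - -n‖ = 2 := by
    have : n - -n = 2 * n := by ring
    rw [this, norm_mul, hn, Complex.norm_ofNat]; norm_num
  have h1 : ContinuousAt (fun w : ℂ × ℂ => tip s w.1 w.2) (n, -n) := by
    unfold tip
    refine ContinuousAt.add (by fun_prop) (ContinuousAt.mul ?_ (by fun_prop))
    refine Complex.continuous_ofReal.continuousAt.comp ?_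
    refine ContinuousAt.div ?_ ?_ ?_
    · fun_prop
    · fun_prop
    · show ‖n - -n‖ ≠ 0
      rw [hD]; norm_num
  have h2 : tip s n (-n) = 0 := by
    unfold tip
    rw [hD]
    norm_num
  have h3 := h1.tendsto
  simp only [h2] at h3
  exact h3

/-- orthonormal coordinates -/
theorem ip_basis {n w : ℂ} (hn : ‖n‖ = 1) {s : ℝ} (hs : s = 1 ∨ s = -1)
    (hw : w = s * (Complex.I * n)) (x P : ℂ) : ip x P = ip x n * ip n P + ip x w * ip w P := by
  have h1 : n.re ^ 2 + n.im ^ 2 = 1 := ip_sq hn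
  have hs2 : s ^ 2 = 1 := by rcases hs with rfl | rfl <;> norm_num
  rw [hw]
  unfold ip
  simp
  linear_combination (-(x.re * P.re + x.im * P.im)) * h1 -
    ((x.re * n.im - x.im * n.re) * (n.im * P.re - n.re * P.im)) * hs2

/-- the direction of the tip -/
theorem tip_dir {n w : ℂ} (hn : ‖n‖ = 1) {s : ℝ} (hs : s = 1 ∨ s = -1)
    (hw : w = s * (Complex.I * n)) {η : ℝ} (hη : 0 < η) (hη1 : η ≤ 1 / 4) :
    ∀ᶠ q : ℂ × ℂ in 𝓝 (n, -n), ‖q.1‖ < 1 → ‖q.2‖ < 1 →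
      ‖tip s q.1 q.2 - q.1‖ = 1 ∧ ‖tip s q.1 q.2 - q.2‖ = 1 ∧ 0 < ‖tip s q.1 q.2‖ ∧
      ‖tip s q.1 q.2‖ ≤ η ∧ |ip (tip s q.1 q.2) n| ≤ η * ‖tip s q.1 q.2‖ ∧
      ‖tip s q.1 q.2‖ / 2 ≤ ip (tip s q.1 q.2) w := by
  have e1 : ∀ᶠ q : ℂ × ℂ in 𝓝 (n, -n), ‖tip s q.1 q.2‖ < η / 2 := by
    have h1 := (tendsto_tip (s := s) hn).norm
    rw [norm_zero] at h1
    exact h1.eventually (Iio_mem_nhds (by linarith))
  have e2 : ∀ᶠ q : ℂ × ℂ in 𝓝 (n, -n), ‖n - q.1‖ < η / 2 := by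
    have h1 : Tendsto (fun q : ℂ × ℂ => ‖n - q.1‖) (𝓝 (n, -n)) (𝓝 ‖n - n‖) := by
      have : Continuous fun q : ℂ × ℂ => ‖n - q.1‖ := by fun_prop
      exact this.tendsto (n, -n)
    rw [sub_self, norm_zero] at h1
    exact h1.eventually (Iio_mem_nhds (by linarith))
  have e3 : ∀ᶠ q : ℂ × ℂ in 𝓝 (n, -n), ‖n + q.2‖ < η / 2 := by
    have h1 : Tendsto (fun q : ℂ × ℂ => ‖n + q.2‖) (𝓝 (n, -n)) (𝓝 ‖n + -n‖) := by
      have : Continuous fun q : ℂ × ℂ => ‖n + q.2‖ := by fun_prop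
      exact this.tendsto (n, -n)
    rw [add_neg_cancel, norm_zero] at h1
    exact h1.eventually (Iio_mem_nhds (by linarith))
  have e4 : ∀ᶠ q : ℂ × ℂ in 𝓝 (n, -n), 0 < ‖q.1 - q.2‖ := by
    have h1 : Tendsto (fun q : ℂ × ℂ => ‖q.1 - q.2‖) (𝓝 (n, -n)) (𝓝 ‖n - -n‖) := by
      have : Continuous fun q : ℂ × ℂ => ‖q.1 - q.2‖ := by fun_prop
      exact this.tendsto (n, -n)
    have hD : ‖n - -n‖ = 2 := by
      have : n - -n = 2 * n := by ring
      rw [this, norm_mul, hn, Complex.norm_ofNat]; norm_num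
    rw [hD] at h1
    exact h1.eventually (Ioi_mem_nhds (by norm_num))
  have e5 : ∀ᶠ q : ℂ × ℂ in 𝓝 (n, -n), ‖w - s * (Complex.I * (q.1 - q.2)) / 2‖ < 1 / 4 := by
    have h1 : Tendsto (fun q : ℂ × ℂ => ‖w - s * (Complex.I * (q.1 - q.2)) / 2‖) (𝓝 (n, -n))
        (𝓝 ‖w - s * (Complex.I * (n - -n)) / 2‖) := by
      have : Continuous fun q : ℂ × ℂ => ‖w - s * (Complex.I * (q.1 - q.2)) / 2‖ := by fun_prop
      exact this.tendsto (n, -n)
    have h2 : w - s * (Complex.I * (n - -n)) / 2 = 0 := by rw [hw]; ring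
    rw [h2, norm_zero] at h1
    exact h1.eventually (Iio_mem_nhds (by norm_num))
  filter_upwards [e1, e2, e3, e4, e5] with q h1 h2 h3 h4 h5 hu hv
  obtain ⟨t1, t2, t3⟩ := tip_spec hs hu hv h4
  set x := tip s q.1 q.2 with hx
  have hX : 0 < ‖x‖ := by
    rw [norm_pos_iff]
    intro h0
    rw [h0] at t3
    unfold ip at t3
    simp at t3
  have hw1 : ‖w‖ = 1 := by
    have hs1 : ‖(s : ℂ)‖ = 1 := by
      rw [Complex.norm_real, Real.norm_eq_abs]
      rcases hs with h | h <;> rw [h] <;> norm_num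
    rw [hw, norm_mul, norm_mul, Complex.norm_I, hn, hs1]; norm_num
  -- the component along `n`
  have k1 : ip x n ≤ η * ‖x‖ := by
    have a1 := norm_sub_sq' x q.1
    rw [t1] at a1
    have a2 : ip x n = ip x q.1 + ip x (n - q.1) := by
      unfold ip; simp only [Complex.sub_re, Complex.sub_im]; ring
    have a3 := (abs_le.1 (abs_ip_le x (n - q.1))).2
    have a4 : ‖q.1‖ ^ 2 < 1 := by nlinarith [norm_nonneg q.1]
    nlinarith
  have k2 : -(η * ‖x‖) ≤ ip x n := by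
    have a1 := norm_sub_sq' x q.2
    rw [t2] at a1
    have a2 : ip x n = ip x (n + q.2) - ip x q.2 := by
      unfold ip; simp only [Complex.add_re, Complex.add_im]; ring
    have a3 := (abs_le.1 (abs_ip_le x (n + q.2))).1
    have a4 : ‖q.2‖ ^ 2 < 1 := by nlinarith [norm_nonneg q.2]
    nlinarith
  have k3 : |ip x n| ≤ η * ‖x‖ := abs_le.2 ⟨k2, k1⟩
  -- the component along `w`
  have k4 : -(‖x‖ / 4) < ip x w := by
    have a2 : ip x w = ip x (s * (Complex.I * (q.1 - q.2))) / 2 +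
        ip x (w - s * (Complex.I * (q.1 - q.2)) / 2) := by
      unfold ip
      simp
      ring
    have a3 := (abs_le.1 (abs_ip_le x (w - s * (Complex.I * (q.1 - q.2)) / 2))).1
    nlinarith
  have k5 : ip x n ^ 2 + ip x w ^ 2 = ‖x‖ ^ 2 := by
    have a1 := ip_basis hn hs hw x x
    rw [ip_self, ip_comm n x, ip_comm w x] at a1
    linarith
  have k6 : ip x n ^ 2 ≤ ‖x‖ ^ 2 / 16 := by
    have a1 : ip x n ^ 2 = |ip x n| ^ 2 := (sq_abs _).symm
    rw [a1]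
    have a2 : |ip x n| ≤ ‖x‖ / 4 := k3.trans (by nlinarith)
    have a3 : |ip x n| ^ 2 ≤ (‖x‖ / 4) ^ 2 := pow_le_pow_left₀ (abs_nonneg _) a2 2
    nlinarith
  have k7 : ‖x‖ / 2 ≤ ip x w := by
    by_contra hcon
    push Not at hcon
    nlinarith
  exact ⟨t1, t2, hX, by linarith, k3, k7⟩

/-- the side of a point of the unit circle on which the tip lies -/
theorem tip_side {n w P : ℂ} (hn : ‖n‖ = 1) {s : ℝ} (hs : s = 1 ∨ s = -1)
    (hw : w = s * (Complex.I * n)) (hP : ‖P‖ = 1) :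
    ∀ᶠ q : ℂ × ℂ in 𝓝 (n, -n), ‖q.1‖ < 1 → ‖q.2‖ < 1 →
      (0 < ip w P → ‖tip s q.1 q.2 - P‖ < 1) ∧ (ip w P < 0 → 1 < ‖tip s q.1 q.2 - P‖) := by
  set β := ip w P with hβ
  by_cases h0 : β = 0
  · refine Eventually.of_forall fun q _ _ => ⟨fun h => ?_, fun h => ?_⟩
    · rw [h0] at h; exact absurd h (lt_irrefl _)
    · rw [h0] at h; exact absurd h (lt_irrefl _)
  have hβ0 : 0 < |β| := abs_pos.2 h0
  have hη : 0 < min (|β| / 8) (1 / 4) := lt_min (by linarith) (by norm_num)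
  filter_upwards [tip_dir hn hs hw hη (min_le_right _ _)] with q h1 hu hv
  obtain ⟨-, -, h2, h3, h4, h5⟩ := h1 hu hv
  set x := tip s q.1 q.2 with hx
  have h6 : min (|β| / 8) (1 / 4) ≤ |β| / 8 := min_le_left _ _
  have h7 : |ip x n| ≤ |β| / 8 * ‖x‖ := h4.trans (by nlinarith)
  have h8 : ‖x‖ ≤ |β| / 8 := h3.trans h6
  have h9 : |ip n P| ≤ 1 := by
    have := abs_ip_le n P
    rwa [hn, hP, one_mul] at this
  have h10 : |ip x n * ip n P| ≤ |β| / 8 * ‖x‖ := by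
    rw [abs_mul]
    calc |ip x n| * |ip n P| ≤ |ip x n| * 1 := by gcongr
      _ ≤ _ := by rw [mul_one]; exact h7
  have h11 := ip_basis hn hs hw x P
  rw [← hβ] at h11
  have h12 := norm_sub_sq' x P
  rw [hP] at h12
  obtain ⟨h13, h14⟩ := abs_le.1 h10
  constructor
  · intro h15
    rw [abs_of_pos h15] at h8 h13 h14
    have h16 : ‖x‖ / 2 * β ≤ ip x w * β := mul_le_mul_of_nonneg_right h5 h15.le
    have h17 : ‖x - P‖ ^ 2 < 1 := by nlinarith
    have := norm_nonneg (x - P)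
    nlinarith
  · intro h15
    rw [abs_of_neg h15] at h8 h13 h14
    have h16 : ip x w * β ≤ ‖x‖ / 2 * β := mul_le_mul_of_nonpos_right h5 h15.le
    have h17 : 1 < ‖x - P‖ ^ 2 := by nlinarith
    have := norm_nonneg (x - P)
    nlinarith

end Vale.Agent.P032.Six
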