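import Vale.Agent.P032.R2.H659.FinW2
import Vale.Agent.P032.R2.H659.Contact

/-!
# P032: the world `WT`, orders at most four, from the two certificates `S1`, `S2`

* `CertS1`: a four-coloured end `{a, b, e, f}` of an `ab`-arc of `z = {a, b | c, d}` gives a contact of
  `z` of type S4r;
* `CertS2`: a contact `{a, e | b, f}` and a contact `{a, c | e, f}` of the same `z` do not occur together;
* `WT.no_s4`, `WT.no_s4r`: no contacts of type S4, S4r;
* `WT.end3`: exact arcs of two-pair points end in three-coloured points;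
* `WT.okC3'`, `WT.com4W`: the inputs of the network, no bound for the order;
* `WT.top4`: the world with orders at most four is empty.
-/

open Set Filter Topology Metric

noncomputable section

namespace Vale.Agent.P032.Six

open Vale.Agent.P032.S5.H767 Vale.Agent.P032.Words

variable {U : Fin 6 → Set ℂ} {T : ℂ → Set (Fin 6)} {z y w p : ℂ} {a b c d e f : Fin 6}

/-- the first certificate -/
def CertS1 (T : ℂ → Set (Fin 6)) : Prop :=
  ∀ {z y : ℂ} {a b c d e f : Fin 6}, DPt T z a b c d → [a, b, c, d, e, f].Nodup → dist y z = 1 →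
    T y = {a, b, e, f} → y ∈ closure (Ex T z {a, b}) →
    ∃ w, dist w z = 1 ∧ (DPt T w a c e f ∨ DPt T w a d e f ∨ DPt T w b c e f ∨ DPt T w b d e f)

/-- the second certificate -/
def CertS2 (T : ℂ → Set (Fin 6)) : Prop :=
  ∀ {z y w : ℂ} {a b c d e f : Fin 6}, DPt T z a b c d → [a, b, c, d, e, f].Nodup → dist y z = 1 →
    DPt T y a e b f → dist w z = 1 → DPt T w a c e f → False

/-! ### the word from three-coloured ends -/

theorem val2_659 : ∀ n : Fin 4, n = 0 ∨ n = 1 → n.val < 2 := by decide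

theorem val23_659 : ∀ n : Fin 4, ¬ n.val < 2 → n = 2 ∨ n = 3 := by decide

/-- **The word of a centre whose four-coloured points carry the letters `e, f` only.** -/
theorem rawM_of_four (C : Ctr U T z a b c d e f)
    (h4 : ∀ y, dist y z = 1 → 4 ≤ (T y).ncard → y ∉ Lt T z a b c d e f 2 ∧
      y ∉ Lt T z a b c d e f 3 ∧ S5.H767.Fc T y {e, f})
    (htri : ∀ y y', dist y z = 1 → dist y' z = 1 → dist y y' = 1 → 4 ≤ (T y).ncard →
      4 ≤ (T y').ncard → False) : RawM (Xs T z a b c d e f) := by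
  obtain ⟨⟨ab, ac, ad, ae, af⟩, ⟨bc, bd, be, bf⟩, ⟨cd, ce, cf⟩, ⟨de, df⟩, ef⟩ := C.sep
  -- letters of a four-coloured point
  have hlet : ∀ {y : ℂ} {l : Fin 4}, 4 ≤ (T y).ncard → y ∈ Lt T z a b c d e f l → l = 0 ∨ l = 1 := by
    intro y l h hl
    obtain ⟨k2, k3, -⟩ := h4 y (Lt_dist hl) h
    have e4 : ∀ n : Fin 4, n = 0 ∨ n = 1 ∨ n = 2 ∨ n = 3 := by decide
    rcases e4 l with rfl | rfl | rfl | rfl
    · exact Or.inl rfl
    · exact Or.inr rfl
    · exact absurd hl k2
    · exact absurd hl k3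
  have hle : ∀ {y : ℂ} {l : Fin 4}, y ∈ Lt T z a b c d e f l → 2 ≤ l.val → (T y).ncard ≤ 3 := by
    intro y l hl h2
    by_contra hcon
    have h5 := val2_659 l (hlet (by omega) hl)
    omega
  have hno : ∀ {y y' : ℂ} {l m : Fin 4}, l ≠ m → dist y y' = 1 → 4 ≤ (T y).ncard →
      y ∈ Lt T z a b c d e f l → y ∈ Lt T z a b c d e f m → y' ∈ Lt T z a b c d e f l →
      y' ∈ Lt T z a b c d e f m → False := by
    intro y y' l m hlm hyy h hl hm hl' hm'
    have hy := Lt_dist hl
    have hy' := Lt_dist hl'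
    have k := C.ef_of hlm hl' hm' (hlet h hl) (hlet h hm)
    rcases Nat.lt_or_ge (T y').ncard 4 with h5 | h5
    · exact fc_flank C (h4 y hy h).2.2 hy hy' (by rw [dist_comm]; exact hyy) (by omega) k.1 k.2
    · exact htri y y' hy hy' hyy h h5
  refine ⟨C.x_closed, C.x_cover, C.x_per, ?_, ?_, ?_, fun u l h h' => C.x_own h h',
    fun u l h h' => C.x_own' h h', ?_, ?_⟩
  · exact fun u h => C.x_anti (hle (l := 2) h (by decide)) h
  · exact fun u h => C.x_ac (hle (l := 2) h (by decide)) h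
  · intro u l m n hl hm hn
    rcases Nat.lt_or_ge (T (pt z u)).ncard 4 with h5 | h5
    · exact C.x_two (by omega) hl hm hn
    · rcases hlet h5 hl with rfl | rfl <;> rcases hlet h5 hm with rfl | rfl <;>
        rcases hlet h5 hn with rfl | rfl <;> simp
  · intro u l m h1 h2 h3 h5
    by_contra hlm
    rcases Nat.lt_or_ge (T (pt z u)).ncard 4 with k1 | k1
    · rcases Nat.lt_or_ge (T (pt z (u + 1))).ncard 4 with k2 | k2
      · refine C.noswap_adm hlm (dist_pt_one z u) (Or.inl (by omega)) (Or.inl (by omega)) ?_ ?_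
          h1 h3 h2 h5
        · intro hx
          have := WT.four_hx C.nd hx
          omega
        · intro hx
          have := WT.four_hx (nd_swap C.nd) hx
          omega
      · exact hno hlm (by rw [dist_comm]; exact dist_pt_one z u) k2 h2 h5 h1 h3
    · exact hno hlm (dist_pt_one z u) k1 h1 h3 h2 h5
  · intro u l m hlm h1 h2 h3 h5
    obtain ⟨k1, k2⟩ := pt_off z u
    have e1 : u + 1 + 1 = u + 2 := by ring
    have k3 := dist_pt_one z (u + 1)
    rw [e1] at k3
    rcases Nat.lt_or_ge (T (pt z (u + 1))).ncard 4 with g4 | g4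
    · have g3 : (T (pt z (u + 1))).ncard ≤ 3 := by omega
      have kl := Lt_col C.irr (show pt z (u + 1) ∈ Lt T z a b c d e f l from h2)
      have kl' := Lt_col C.irr (show pt z u ∈ Lt T z a b c d e f l from h1)
      have km := Lt_col C.irr (show pt z (u + 1) ∈ Lt T z a b c d e f m from h3)
      have km' := Lt_col C.irr (show pt z (u + 2) ∈ Lt T z a b c d e f m from h5)
      have hyy : dist (pt z (u + 1)) (pt z u) = 1 := by rw [dist_comm]; exact dist_pt_one z u
      constructor
      · by_contra hcon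
        have h3' := hle (show pt z u ∈ Lt T z a b c d e f l from h1) (not_lt.1 hcon)
        rcases val23_659 l hcon with rfl | rfl
        · exact C.dblPair hlm hyy k3 k1 k2 g3 h3' ab (dist_pt z _) (dist_pt z _)
            (kl (Or.inl rfl)) (kl (Or.inr rfl)) (kl' (Or.inl rfl)) (kl' (Or.inr rfl))
            (fun h => C.ne_col hlm (Or.inl rfl) h rfl) (fun h => C.ne_col hlm (Or.inr rfl) h rfl)
            h3 h5
        · exact C.dblPair hlm hyy k3 k1 k2 g3 h3' cd (dist_pt z _) (dist_pt z _)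
            (kl (Or.inl rfl)) (kl (Or.inr rfl)) (kl' (Or.inl rfl)) (kl' (Or.inr rfl))
            (fun h => C.ne_col hlm (Or.inl rfl) h rfl) (fun h => C.ne_col hlm (Or.inr rfl) h rfl)
            h3 h5
      · by_contra hcon
        have h3' := hle (show pt z (u + 2) ∈ Lt T z a b c d e f m from h5) (not_lt.1 hcon)
        rcases val23_659 m hcon with rfl | rfl
        · exact C.dblPair hlm.symm k3 hyy k1.symm (by rw [add_comm]; exact k2) g3 h3' ab
            (dist_pt z _) (dist_pt z _) (km (Or.inl rfl)) (km (Or.inr rfl)) (km' (Or.inl rfl))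
            (km' (Or.inr rfl)) (fun h => C.ne_col hlm.symm (Or.inl rfl) h rfl)
            (fun h => C.ne_col hlm.symm (Or.inr rfl) h rfl) h2 h1
        · exact C.dblPair hlm.symm k3 hyy k1.symm (by rw [add_comm]; exact k2) g3 h3' cd
            (dist_pt z _) (dist_pt z _) (km (Or.inl rfl)) (km (Or.inr rfl)) (km' (Or.inl rfl))
            (km' (Or.inr rfl)) (fun h => C.ne_col hlm.symm (Or.inl rfl) h rfl)
            (fun h => C.ne_col hlm.symm (Or.inr rfl) h rfl) h2 h1
    · exact ⟨val2_659 l (hlet g4 h2), val2_659 m (hlet g4 h3)⟩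

/-! ### S4 and S4r -/

/-- a contact of type S4 is an end of an exact arc -/
theorem Irr.s4_end (h : Irr U T) (hz : DPt T z a b c d) (hy : DPt T y a e b f)
    (hyz : dist y z = 1) : y ∈ closure (Ex T z {a, b}) := by
  obtain ⟨τ, -, h1, -⟩ := h.s4_word hz hy hyz
  have hab : ({a, b} : Set (Fin 6)) ⊆ T z := by
    rw [hz.pal]; rintro i (rfl | rfl) <;> simp
  rw [mem_closure_iff_frequently]
  have hc : Tendsto (fun t : ℝ => z + (y - z) * cis (τ * t)) (𝓝[>] 0) (𝓝 y) := by
    have h2 : Continuous fun t : ℝ => z + (y - z) * cis (τ * t) := by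
      have : Continuous fun t : ℝ => cis (τ * t) :=
        continuous_cis.comp (continuous_const.mul continuous_id)
      fun_prop
    have h3 := h2.tendsto 0
    have h4 : z + (y - z) * cis (τ * 0) = y := by
      rw [mul_zero, cis_zero394, mul_one, add_sub_cancel]
    rw [h4] at h3
    exact h3.mono_left nhdsWithin_le_nhds
  refine hc.frequently (h1.mono fun t ht => ?_).frequently
  have hd : dist (z + (y - z) * cis (τ * t)) z = 1 := dist_rot hyz _
  exact ⟨hd, h.pair_open (Set.ncard_pair hz.ab) hab ht.subset⟩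

namespace WT

theorem nd_s4r (nd : [a, b, c, d, e, f].Nodup) : [a, c, e, f, b, d].Nodup := by
  obtain ⟨⟨ab, ac, ad, ae, af⟩, ⟨bc, bd, be, bf⟩, ⟨cd, ce, cf⟩, ⟨de, df⟩, ef⟩ := nd_ne6 nd
  simp [ac, ae, af, ab, ad, ce, cf, Ne.symm bc, cd, ef, Ne.symm be, Ne.symm de, Ne.symm bf,
    Ne.symm df, bd]

theorem nd_swap56 (nd : [a, b, c, d, e, f].Nodup) : [a, b, c, d, f, e].Nodup := by
  obtain ⟨⟨ab, ac, ad, ae, af⟩, ⟨bc, bd, be, bf⟩, ⟨cd, ce, cf⟩, ⟨de, df⟩, ef⟩ := nd_ne6 nd
  simp [ab, ac, ad, ae, af, bc, bd, be, bf, cd, ce, cf, de, df, Ne.symm ef]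

/-- **no contacts of type S4** -/
theorem no_s4 (H : WT U T) (S1 : CertS1 T) (S2 : CertS2 T) (hz : DPt T z a b c d)
    (nd : [a, b, c, d, e, f].Nodup) (hyz : dist y z = 1) (hy : DPt T y a e b f) : False := by
  have hT : T y = {a, b, e, f} := by
    rw [hy.pal]; ext i; simp only [mem_insert_iff, mem_singleton_iff]; tauto
  have n2 : [b, a, c, d, e, f].Nodup := nd_swap12 nd
  have n3 : [a, b, d, c, e, f].Nodup := nd_swap34 nd
  have n4 : [b, a, c, d, f, e].Nodup := nd_swap56 n2
  have n5 : [b, a, d, c, f, e].Nodup := nd_swap34 n4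
  obtain ⟨w, hwz, hw | hw | hw | hw⟩ := S1 hz nd hyz hT (H.irr.s4_end hz hy hyz)
  · exact S2 hz nd hyz hy hwz hw
  · exact S2 hz.swap34 n3 hyz hy hwz hw
  · exact S2 hz.swap12 n4 hyz hy.swap hwz hw.swap34
  · exact S2 hz.swap12.swap34 n5 hyz hy.swap hwz hw.swap34

/-- **no contacts of type S4r** -/
theorem no_s4r (H : WT U T) (S1 : CertS1 T) (S2 : CertS2 T) (hz : DPt T z a b c d)
    (nd : [a, b, c, d, e, f].Nodup) (hwz : dist w z = 1) (hw : DPt T w a c e f) : False :=
  H.no_s4 S1 S2 hw (nd_s4r nd) (by rw [dist_comm]; exact hwz) hz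

/-- **exact arcs of two-pair points end in three-coloured points** -/
theorem end3 (H : WT U T) (S1 : CertS1 T) (S2 : CertS2 T) : End3 T := by
  intro z y a b c d hz hcl
  by_contra hcon
  have hyz := dist_of_closure hcl
  have h4 : (T y).ncard = 4 := by have := H.le4 hz.card.ge hyz; omega
  obtain ⟨e, f, nd⟩ := exists_missing939 hz
  obtain ⟨⟨ab, ac, ad, ae, af⟩, ⟨bc, bd, be, bf⟩, ⟨cd, ce, cf⟩, ⟨de, df⟩, ef⟩ := nd_ne6 nd
  have hab := sub_of_closure H.irr hcl
  have ha : a ∈ T y := hab (by simp)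
  have hb : b ∈ T y := hab (by simp)
  obtain ⟨i, j, hij, hi, hj, hTy⟩ := H.contact_pal hz nd hyz h4
  have hT : T y = {a, b, e, f} := by
    have ha' := ha
    have hb' := hb
    rw [hTy] at ha' hb'
    have hsub : ({a, b, e, f} : Set (Fin 6)) ⊆ T y := by
      rintro m (rfl | rfl | rfl | rfl)
      · exact ha
      · exact hb
      · rw [hTy]; simp
      · rw [hTy]; simp
    exact (Set.eq_of_subset_of_ncard_le hsub (by
      rw [h4, ncard_four (by simp [ab, ae, af, be, bf, ef])]) (Set.toFinite _)).symm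
  have n2 : [b, a, c, d, e, f].Nodup := nd_swap12 nd
  have n3 : [a, b, d, c, e, f].Nodup := nd_swap34 nd
  have n4 : [b, a, d, c, e, f].Nodup := nd_swap34 n2
  obtain ⟨w, hwz, hw | hw | hw | hw⟩ := S1 hz nd hyz hT hcl
  · exact H.no_s4r S1 S2 hz nd hwz hw
  · exact H.no_s4r S1 S2 hz.swap34 n3 hwz hw
  · exact H.no_s4r S1 S2 hz.swap12 n2 hwz hw
  · exact H.no_s4r S1 S2 hz.swap12.swap34 n4 hwz hw

/-! ### the contacts -/

/-- contacts with the colours of one pair -/
theorem fc_same (H : WT U T) (hmin : MinF U T) (hz : DPt T z a b c d)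
    (nd : [a, b, c, d, e, f].Nodup) (hyz : dist y z = 1) (hT : T y = {a, b, e, f}) :
    S5.H767.Fc T y {e, f} := by
  obtain ⟨⟨ab, ac, ad, ae, af⟩, ⟨bc, bd, be, bf⟩, ⟨cd, ce, cf⟩, ⟨de, df⟩, ef⟩ := nd_ne6 nd
  intro w hw hwef
  have hef : ({e, f} : Set (Fin 6)) ⊆ T y := by
    rw [hT]; rintro i (rfl | rfl) <;> simp
  have hwy : T w ⊆ T y := hwef.trans hef
  have hno : ∀ i ∈ T w, i = e ∨ i = f := fun i hi => hwef hi
  rcases H.contact_same hmin hz nd hyz hT with hD | hD | ⟨A, hA, hne⟩
  · rcases H.inside hD hw hwy with h1 | h1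
    · rcases hno a (by rw [h1]; simp) with h2 | h2
      exacts [ae h2, af h2]
    · rcases hno b (by rw [h1]; simp) with h2 | h2
      exacts [be h2, bf h2]
  · rcases H.inside hD hw hwy with h1 | h1
    · rcases hno a (by rw [h1]; simp) with h2 | h2
      exacts [ae h2, af h2]
    · rcases hno b (by rw [h1]; simp) with h2 | h2
      exacts [be h2, bf h2]
  · have h1 : A ⊆ {e, f} := (hA.h1 w hw hwy).trans hwef
    exact hne (Set.eq_of_subset_of_ncard_le h1 (by rw [hA.cardA, Set.ncard_pair ef])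
      (Set.toFinite _))

/-- contacts with colours of both pairs -/
theorem fc_mixed (H : WT U T) (hmin : MinF U T) (S1 : CertS1 T) (S2 : CertS2 T)
    (hz : DPt T z a b c d) (nd : [a, b, c, d, e, f].Nodup) (hyz : dist y z = 1)
    (hT : T y = {a, c, e, f}) : S5.H767.Fc T y {e, f} := by
  obtain ⟨⟨ab, ac, ad, ae, af⟩, ⟨bc, bd, be, bf⟩, ⟨cd, ce, cf⟩, ⟨de, df⟩, ef⟩ := nd_ne6 nd
  intro w hw hwef
  have hef : ({e, f} : Set (Fin 6)) ⊆ T y := by
    rw [hT]; rintro i (rfl | rfl) <;> simp
  have hwy : T w ⊆ T y := hwef.trans hef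
  have hno : ∀ i ∈ T w, i = e ∨ i = f := fun i hi => hwef hi
  have nd4 : [a, c, e, f].Nodup := by simp [ac, ae, af, ce, cf, ef]
  rcases H.contact_mixed hmin nd4 hT with hD | hD | hD | ⟨A, hA⟩
  · exact H.no_s4r S1 S2 hz nd hyz hD
  · rcases H.inside hD hw hwy with h1 | h1
    · rcases hno a (by rw [h1]; simp) with h2 | h2
      exacts [ae h2, af h2]
    · rcases hno c (by rw [h1]; simp) with h2 | h2
      exacts [ce h2, cf h2]
  · rcases H.inside hD hw hwy with h1 | h1
    · rcases hno a (by rw [h1]; simp) with h2 | h2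
      exacts [ae h2, af h2]
    · rcases hno c (by rw [h1]; simp) with h2 | h2
      exacts [ce h2, cf h2]
  · have h1 := hA.h1 w hw hwy
    rcases H.hmix hmin hz nd hyz hT hA with h2 | h2 | h2 | h2
    · rcases hno a (h1 (by rw [h2]; simp)) with h3 | h3
      exacts [ae h3, af h3]
    · rcases hno a (h1 (by rw [h2]; simp)) with h3 | h3
      exacts [ae h3, af h3]
    · rcases hno c (h1 (by rw [h2]; simp)) with h3 | h3
      exacts [ce h3, cf h3]
    · rcases hno c (h1 (by rw [h2]; simp)) with h3 | h3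
      exacts [ce h3, cf h3]

/-- four-coloured points of the circle have no palette inside the missing pair -/
theorem fc_all (H : WT U T) (hmin : MinF U T) (S1 : CertS1 T) (S2 : CertS2 T)
    (hz : DPt T z a b c d) (nd : [a, b, c, d, e, f].Nodup) (hyz : dist y z = 1)
    (h4 : 4 ≤ (T y).ncard) : S5.H767.Fc T y {e, f} := by
  have h4 : (T y).ncard = 4 := by have := H.le4 hz.card.ge hyz; omega
  obtain ⟨i, j, hij, hi, hj, hTy⟩ := H.contact_pal hz nd hyz h4
  rw [hz.pal] at hi hj
  have n2 : [b, a, c, d, e, f].Nodup := nd_swap12 nd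
  have n3 : [a, b, d, c, e, f].Nodup := nd_swap34 nd
  have n4 : [b, a, d, c, e, f].Nodup := nd_swap34 n2
  rcases pair_cases hij hi hj hTy with hT | hT | hT | hT | hT | hT
  · exact H.fc_same hmin hz nd hyz hT
  · exact H.fc_same hmin hz.swap (nd_swap nd) hyz hT
  · exact H.fc_mixed hmin S1 S2 hz nd hyz hT
  · exact H.fc_mixed hmin S1 S2 hz.swap12 n2 hyz hT
  · exact H.fc_mixed hmin S1 S2 hz.swap34 n3 hyz hT
  · exact H.fc_mixed hmin S1 S2 hz.swap12.swap34 n4 hyz hT

/-- **the circle of a two-pair point is a word with T3 contacts** -/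
theorem okC3' (H : WT U T) (hmin : MinF U T) (S1 : CertS1 T) (S2 : CertS2 T)
    (hz : DPt T z a b c d) : Net3.OkC3 U T z where
  word := by
    intro a' b' c' d' e' f' C
    have hz' := dpt_of_ctr hz C
    have hE : End3 T := H.end3 S1 S2
    refine raw3_of_rawM (rawM_of_four C (fun y hy h4 => ⟨fun h1 => ?_, fun h1 => ?_,
      H.fc_all hmin S1 S2 hz' C.nd hy h4⟩) ?_)
    · have := hE hz' h1
      omega
    · have := hE hz'.swap h1
      omega
    · intro y y' hy hy' hyy h1 h2
      exact H.no_tri hmin hz' hy hy' (by rw [dist_comm]; exact hyy) h1 h2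
  ends := by
    intro P hP hP2 y hy
    have hE : End3 T := H.end3 S1 S2
    have hpr : ∀ y, y ∈ Ex T z P → P = {a, b} ∨ P = {c, d} := by
      intro y hy
      have h1 := ex_self hy
      rcases H.irr.twoPairs hz y hy.1 (by rw [h1]; exact hy.2) (by rw [h1]; exact hP) with h2 | h2
      · left; rw [← h1, h2]
      · right; rw [← h1, h2]
    rcases hpr _ (closure_nonempty_iff.1 ⟨y, hy⟩).some_mem with rfl | rfl
    · exact hE hz hy
    · exact hE hz.swap hy

/-- `Com4`, from the certificates, no bound for the order -/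
theorem com4W (H : WT U T) (hmin : MinF U T) (S1 : CertS1 T) (S2 : CertS2 T) : Net3.Com4 T :=
  Net3.com4_of H.irr H.two fun hw hm h4 ha hc hb hd =>
    H.no_mixed hmin (H.end3 S1 S2) hw hm h4 ha hc hb hd

/-- **the world `WT` with at most four colours is empty**, from the certificates -/
theorem top4 (H : WT U T) (hmin : Mn U T) (h4 : ∀ z, (T z).ncard ≤ 4) (S1 : CertS1 T)
    (S2 : CertS2 T) : False := by
  have hmin' : MinF U T := fun z hz s hs hne => hmin z hz s hs hne
  obtain ⟨z, a, b, c, d, hz⟩ := exists_dpt4 H.irr hmin h4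
  exact Net3.no_D3 H.irr h4 (fun _ _ _ _ _ hz => H.okC3' hmin' S1 S2 hz)
    (H.com4W hmin' S1 S2) z a b c d hz

end WT

end Vale.Agent.P032.Six
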